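import Crest.Statements.S0066
import Crest.Agent.S0066Aux.Far

set_option autoImplicit false
open Crest Crest.CombinatoricsR

namespace Crest.Agent.S0066Aux

open Finset

/-- The pattern, as a relation: zero exactly at `(0,1),(1,0),(1,1),(1,2),(2,1)` in the corner
`4 × 4`, and off the blocks `[0,4)²` and `[4,66)²`. -/
def hP (i j : ℕ) : Prop :=
  (4 ≤ i ∧ 4 ≤ j) ∨ (i < 4 ∧ j < 4 ∧ ¬ ((i = 1 ∧ j ≤ 2) ∨ (j = 1 ∧ i ≤ 2)))

instance (i j : ℕ) : Decidable (hP i j) := by
  unfold hP; infer_instance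

/-- The pattern. -/
def H66 : Fin 66 → Fin 66 → Bool := fun i j => decide (hP i j)

open scoped Classical in
/-- The host. -/
noncomputable def hostB (D K n : ℕ) : Fin n → Fin n → Bool := fun i j => decide (AP D K i j)

lemma hostB_cell {D K n : ℕ} {x y : Fin n} {i j : Fin 66} (h : hostB D K n x y = H66 i j) :
    AP D K x y ↔ hP i j := by
  unfold hostB H66 at h
  simpa using h

/-- A copy in the host contains a `CoreCopy`. -/
lemma core_of_copy {D K n : ℕ} {r c : Fin 66 → Fin n} (hr : StrictMono r) (hc : StrictMono c)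
    (h : ∀ i j, hostB D K n (r i) (c j) = H66 i j) :
    CoreCopy D K (r 0) (r 1) (r 2) (r 3) (c 0) (c 1) (c 2) (c 3) := by
  have cell := fun i j => hostB_cell (h i j)
  have lt : ∀ {f : Fin 66 → Fin n}, StrictMono f → ∀ {i j : Fin 66}, i < j → ((f i : ℕ) < f j) :=
    fun hf _ _ hij => hf hij
  have e : ∀ i j : ℕ, ∀ (hi : i < 66) (hj : j < 66), (AP D K (r ⟨i, hi⟩) (c ⟨j, hj⟩) ↔ hP i j) :=
    fun i j hi hj => cell ⟨i, hi⟩ ⟨j, hj⟩
  refine
    { a01 := lt hr (by decide), a12 := lt hr (by decide), a23 := lt hr (by decide),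
      b01 := lt hc (by decide), b12 := lt hc (by decide), b23 := lt hc (by decide),
      c00 := (e 0 0 (by omega) (by omega)).2 (by decide),
      c01 := fun x => absurd ((e 0 1 (by omega) (by omega)).1 x) (by decide),
      c02 := (e 0 2 (by omega) (by omega)).2 (by decide),
      c03 := (e 0 3 (by omega) (by omega)).2 (by decide),
      c10 := fun x => absurd ((e 1 0 (by omega) (by omega)).1 x) (by decide),
      c11 := fun x => absurd ((e 1 1 (by omega) (by omega)).1 x) (by decide),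
      c12 := fun x => absurd ((e 1 2 (by omega) (by omega)).1 x) (by decide),
      c13 := (e 1 3 (by omega) (by omega)).2 (by decide),
      c20 := (e 2 0 (by omega) (by omega)).2 (by decide),
      c21 := fun x => absurd ((e 2 1 (by omega) (by omega)).1 x) (by decide),
      c22 := (e 2 2 (by omega) (by omega)).2 (by decide),
      c23 := (e 2 3 (by omega) (by omega)).2 (by decide),
      c30 := (e 3 0 (by omega) (by omega)).2 (by decide),
      c31 := (e 3 1 (by omega) (by omega)).2 (by decide),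
      c32 := (e 3 2 (by omega) (by omega)).2 (by decide),
      c33 := (e 3 3 (by omega) (by omega)).2 (by decide) }

/-- Few copies: a copy is determined by its rows and columns other than the second one. -/
lemma count_le (D K n : ℕ) :
    OrderedMatrix.orderedCopyCount H66 (hostB D K n) ≤ n ^ 130 := by
  unfold OrderedMatrix.orderedCopyCount
  let Idx := {i : Fin 66 // i ≠ 1}
  have hcard : Fintype.card Idx = 65 := by
    simp [Idx, Fintype.card_subtype_compl]
  let Φ : {rc : (Fin 66 → Fin n) × (Fin 66 → Fin n) //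
      StrictMono rc.1 ∧ StrictMono rc.2 ∧ ∀ i j : Fin 66, hostB D K n (rc.1 i) (rc.2 j) = H66 i j} →
      (Idx → Fin n) × (Idx → Fin n) := fun x => (fun i => x.1.1 i.1, fun i => x.1.2 i.1)
  have hΦ : Function.Injective Φ := by
    rintro ⟨⟨r, c⟩, h1, h2, h3⟩ ⟨⟨r', c'⟩, h1', h2', h3'⟩ hxy
    simp only [Φ, Prod.mk.injEq] at hxy
    have hr : ∀ i : Fin 66, i ≠ 1 → r i = r' i := fun i hi => congrFun hxy.1 ⟨i, hi⟩
    have hc : ∀ i : Fin 66, i ≠ 1 → c i = c' i := fun i hi => congrFun hxy.2 ⟨i, hi⟩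
    have k := (core_of_copy h1 h2 h3).classify
    have k' := (core_of_copy h1' h2' h3').classify
    have h0r : r 0 = r' 0 := hr 0 (by decide)
    have h0c : c 0 = c' 0 := hc 0 (by decide)
    have h1r : r 1 = r' 1 := Fin.ext (by
      have a : ((r 1 : Fin n) : ℕ) = r 0 + 1 := k.1
      have b : ((r' 1 : Fin n) : ℕ) = r' 0 + 1 := k'.1
      rw [a, b, h0r])
    have h1c : c 1 = c' 1 := Fin.ext (by
      have a : ((c 1 : Fin n) : ℕ) = c 0 + 1 := k.2
      have b : ((c' 1 : Fin n) : ℕ) = c' 0 + 1 := k'.2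
      rw [a, b, h0c])
    have er : r = r' := by
      funext i
      by_cases hi : i = 1
      · rw [hi, h1r]
      · exact hr i hi
    have ec : c = c' := by
      funext i
      by_cases hi : i = 1
      · rw [hi, h1c]
      · exact hc i hi
    subst er ec
    rfl
  have := Fintype.card_le_of_injective Φ hΦ
  refine le_trans this ?_
  rw [Fintype.card_prod, Fintype.card_fun, hcard, Fintype.card_fin]
  rw [← pow_add]

/-- The rows of the copy built from a `Match`. -/
def seqF (D K a0 a1 a2 a3 g i : ℕ) : ℕ :=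
  if i = 0 then a0 else if i = 1 then a1 else if i = 2 then a2 else if i = 3 then a3
  else pad D K g (i - 4)

lemma seqF_pad {D K a0 a1 a2 a3 g i : ℕ} (h : 4 ≤ i) :
    seqF D K a0 a1 a2 a3 g i = pad D K g (i - 4) := by
  unfold seqF
  rw [if_neg (by omega), if_neg (by omega), if_neg (by omega), if_neg (by omega)]

lemma seqF_strict {D K a0 a1 a2 a3 g : ℕ} (h1 : a0 < a1) (h2 : a1 < a2) (h3 : a2 < a3)
    (h4 : a3 < Gs D K) {i j : ℕ} (hij : i < j) :
    seqF D K a0 a1 a2 a3 g i < seqF D K a0 a1 a2 a3 g j := by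
  by_cases hj : 4 ≤ j
  · rw [seqF_pad hj]
    by_cases hi : 4 ≤ i
    · rw [seqF_pad hi]; unfold pad; omega
    · have hp : Gs D K ≤ pad D K g (j - 4) := pad_ge
      have hi' : i = 0 ∨ i = 1 ∨ i = 2 ∨ i = 3 := by omega
      rcases hi' with rfl | rfl | rfl | rfl <;> simp [seqF] <;> omega
  · have hj' : j = 0 ∨ j = 1 ∨ j = 2 ∨ j = 3 := by omega
    rcases hj' with rfl | rfl | rfl | rfl <;> (try omega) <;>
      (have hi' : i = 0 ∨ i = 1 ∨ i = 2 := by omega) <;>
      (rcases hi' with rfl | rfl | rfl <;> simp [seqF] <;> omega)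

lemma seqF_lt_n {D K n a0 a1 a2 a3 g : ℕ} (h1 : a0 < a1) (h2 : a1 < a2) (h3 : a2 < a3)
    (h4 : a3 < Gs D K) (hn : Gs D K + 62 * K ≤ n) (hg : g < K) {i : ℕ} (hi : i < 66) :
    seqF D K a0 a1 a2 a3 g i < n := by
  by_cases h : 4 ≤ i
  · rw [seqF_pad h]; exact pad_lt hn hg (by omega)
  · have hi' : i = 0 ∨ i = 1 ∨ i = 2 ∨ i = 3 := by omega
    rcases hi' with rfl | rfl | rfl | rfl <;> simp [seqF] <;> omega

lemma match_cell {D K : ℕ} {Bn : ℕ → ℕ → Prop} {a0 a1 a2 a3 b0 b1 b2 b3 g g' : ℕ}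
    (m : Match D K Bn a0 a1 a2 a3 b0 b1 b2 b3 g g') {i j : ℕ} (hi : i < 66) (hj : j < 66) :
    Bn (seqF D K a0 a1 a2 a3 g i) (seqF D K b0 b1 b2 b3 g' j) ↔ hP i j := by
  by_cases h4 : 4 ≤ i
  · rw [seqF_pad h4]
    by_cases h4' : 4 ≤ j
    · rw [seqF_pad h4']
      exact iff_of_true (m.pp _ _ (by omega) (by omega)) (Or.inl ⟨h4, h4'⟩)
    · have hn : ¬ hP i j := by
        unfold hP; omega
      have hj' : j = 0 ∨ j = 1 ∨ j = 2 ∨ j = 3 := by omega
      have key := m.pc (i - 4) (by omega)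
      refine iff_of_false ?_ hn
      rcases hj' with rfl | rfl | rfl | rfl
      · simpa [seqF] using key.1
      · simpa [seqF] using key.2.1
      · simpa [seqF] using key.2.2.1
      · simpa [seqF] using key.2.2.2
  · by_cases h4' : 4 ≤ j
    · rw [seqF_pad h4']
      have hn : ¬ hP i j := by
        unfold hP; omega
      have hi' : i = 0 ∨ i = 1 ∨ i = 2 ∨ i = 3 := by omega
      have key := m.rp (j - 4) (by omega)
      refine iff_of_false ?_ hn
      rcases hi' with rfl | rfl | rfl | rfl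
      · simpa [seqF] using key.1
      · simpa [seqF] using key.2.1
      · simpa [seqF] using key.2.2.1
      · simpa [seqF] using key.2.2.2
    · have hi' : i = 0 ∨ i = 1 ∨ i = 2 ∨ i = 3 := by omega
      have hj' : j = 0 ∨ j = 1 ∨ j = 2 ∨ j = 3 := by omega
      rcases hi' with rfl | rfl | rfl | rfl <;> rcases hj' with rfl | rfl | rfl | rfl
      · exact iff_of_true m.c00 (by decide)
      · exact iff_of_false m.c01 (by decide)
      · exact iff_of_true m.c02 (by decide)
      · exact iff_of_true m.c03 (by decide)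
      · exact iff_of_false m.c10 (by decide)
      · exact iff_of_false m.c11 (by decide)
      · exact iff_of_false m.c12 (by decide)
      · exact iff_of_true m.c13 (by decide)
      · exact iff_of_true m.c20 (by decide)
      · exact iff_of_false m.c21 (by decide)
      · exact iff_of_true m.c22 (by decide)
      · exact iff_of_true m.c23 (by decide)
      · exact iff_of_true m.c30 (by decide)
      · exact iff_of_true m.c31 (by decide)
      · exact iff_of_true m.c32 (by decide)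
      · exact iff_of_true m.c33 (by decide)

/-- Closed form of the tree size. -/
lemma sz_eq (a : ℕ) : sz a = 2 ^ a * (2 * a + 3) := by
  induction a with
  | zero => simp [sz]
  | succ a ih =>
    have : sz (a + 1) = 2 * 2 ^ (a + 1) + 2 * sz a := rfl
    rw [this, ih, pow_succ]
    ring

lemma size_bound (h : ℕ) (hh : 1 ≤ h) :
    Gs (h + 2) (4 * 2 ^ h) + 62 * (4 * 2 ^ h) ≤ (386 * h + 2) * 2 ^ h := by
  unfold Gs
  rw [sz_eq]
  have e : (2 : ℕ) ^ (h + 2) = 4 * 2 ^ h := by rw [pow_add]; ring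
  rw [e]
  have hu : 0 < 2 ^ h := by positivity
  generalize (2 : ℕ) ^ h = u at *
  nlinarith [Nat.mul_le_mul_left u hh]

open scoped Classical in
/-- The farness statement, in general parameters. -/
lemma far_aux (D K u n : ℕ) (hupos : 0 < u) (hK : K = 4 * u) (hDe : 2 ^ D = 4 * u)
    (hsize : Gs D K + 62 * K ≤ n) (hn0 : 0 < n)
    (B : Fin n → Fin n → Bool) (hB : OrderedMatrix.orderedCopyCount H66 B = 0) :
    u * u ≤ (Finset.univ.filter (fun rc : Fin n × Fin n =>
        hostB D K n rc.1 rc.2 ≠ B rc.1 rc.2)).card := by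
  by_contra hlt
  push Not at hlt
  let Bn : ℕ → ℕ → Prop := fun r c => ∃ (hr : r < n) (hc : c < n), B ⟨r, hr⟩ ⟨c, hc⟩ = true
  have hBn : ∀ (r c : Fin n), Bn r c ↔ B r c = true := by
    intro r c
    constructor
    · rintro ⟨_, _, e⟩
      exact e
    · intro e
      exact ⟨r.2, c.2, e⟩
  have hflips : (flips D K n Bn).card < u * u := by
    refine lt_of_le_of_lt ?_ hlt
    refine Finset.card_le_card_of_injOn (fun q =>
      if hq : q.1 < n ∧ q.2 < n then (⟨q.1, hq.1⟩, ⟨q.2, hq.2⟩) else (⟨0, hn0⟩, ⟨0, hn0⟩)) ?_ ?_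
    · intro q hq
      have hq' := Finset.mem_coe.1 hq
      unfold flips at hq'
      rw [Finset.mem_filter, Finset.mem_product, Finset.mem_range, Finset.mem_range] at hq'
      obtain ⟨⟨h1, h2⟩, h3⟩ := hq'
      apply Finset.mem_coe.2
      rw [Finset.mem_filter]
      refine ⟨Finset.mem_univ _, ?_⟩
      simp only [dif_pos (And.intro h1 h2)]
      intro e
      apply h3
      have e2 : Bn q.1 q.2 ↔ B ⟨q.1, h1⟩ ⟨q.2, h2⟩ = true := hBn ⟨q.1, h1⟩ ⟨q.2, h2⟩
      rw [e2, ← e]
      simp [hostB]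
    · intro q hq q' hq' e
      have hq1 := Finset.mem_coe.1 hq
      have hq2 := Finset.mem_coe.1 hq'
      unfold flips at hq1 hq2
      rw [Finset.mem_filter, Finset.mem_product, Finset.mem_range, Finset.mem_range] at hq1 hq2
      simp only at e
      rw [dif_pos ⟨hq1.1.1, hq1.1.2⟩, dif_pos ⟨hq2.1.1, hq2.1.2⟩] at e
      simp only [Prod.mk.injEq, Fin.mk.injEq] at e
      exact Prod.ext e.1 e.2
  have hfree : ∀ a0 a1 a2 a3 b0 b1 b2 b3 g g', ¬ Match D K Bn a0 a1 a2 a3 b0 b1 b2 b3 g g' := by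
    intro a0 a1 a2 a3 b0 b1 b2 b3 g g' m
    have hr : ∀ i : Fin 66, seqF D K a0 a1 a2 a3 g i < n := fun i =>
      seqF_lt_n m.a01 m.a12 m.a23 m.a3G hsize m.hg i.2
    have hc : ∀ i : Fin 66, seqF D K b0 b1 b2 b3 g' i < n := fun i =>
      seqF_lt_n m.b01 m.b12 m.b23 m.b3G hsize m.hg' i.2
    let r : Fin 66 → Fin n := fun i => ⟨_, hr i⟩
    let c : Fin 66 → Fin n := fun i => ⟨_, hc i⟩
    have hrs : StrictMono r := fun i j hij => seqF_strict m.a01 m.a12 m.a23 m.a3G hij
    have hcs : StrictMono c := fun i j hij => seqF_strict m.b01 m.b12 m.b23 m.b3G hij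
    have hcell : ∀ i j : Fin 66, B (r i) (c j) = H66 i j := by
      intro i j
      have k := match_cell m i.2 j.2
      have k2 : Bn (r i) (c j) ↔ B (r i) (c j) = true := hBn (r i) (c j)
      have k3 : (B (r i) (c j) = true) ↔ hP i j := k2.symm.trans k
      unfold H66
      by_cases hp : hP i j
      · rw [decide_eq_true hp]; exact k3.2 hp
      · rw [decide_eq_false hp]
        cases hb : B (r i) (c j) with
        | false => rfl
        | true => exact absurd (k3.1 hb) hp
    unfold OrderedMatrix.orderedCopyCount at hB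
    have hne : Nonempty {rc : (Fin 66 → Fin n) × (Fin 66 → Fin n) //
        StrictMono rc.1 ∧ StrictMono rc.2 ∧ ∀ i j : Fin 66, B (rc.1 i) (rc.2 j) = H66 i j} :=
      ⟨⟨(r, c), hrs, hcs, hcell⟩⟩
    have := Fintype.card_pos_iff.2 hne
    rw [hB] at this
    exact absurd this (lt_irrefl 0)
  exact Ctx.false
    { hu := hupos, hK := hK, hD := hDe, hn := hsize, hfl := hflips, hfree := hfree }

open scoped Classical in
/-- The farness statement. -/
lemma far_main (h : ℕ) (hh : 1 ≤ h)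
    (B : Fin ((386 * h + 2) * 2 ^ h) → Fin ((386 * h + 2) * 2 ^ h) → Bool)
    (hB : OrderedMatrix.orderedCopyCount H66 B = 0) :
    4 ^ h ≤ (Finset.univ.filter (fun rc : Fin ((386 * h + 2) * 2 ^ h) × Fin ((386 * h + 2) * 2 ^ h) =>
        hostB (h + 2) (4 * 2 ^ h) _ rc.1 rc.2 ≠ B rc.1 rc.2)).card := by
  have e4 : (4 : ℕ) ^ h = 2 ^ h * 2 ^ h := by
    rw [← Nat.mul_pow]
  rw [e4]
  exact far_aux (h + 2) (4 * 2 ^ h) (2 ^ h) _ (by positivity) rfl (by rw [pow_add]; ring)
    (size_bound h hh) (by positivity) B hB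

end Crest.Agent.S0066Aux

namespace Crest.Agent.S0066

open Crest.Agent.S0066Aux

/-- There is a fixed 66 × 66 binary pattern H such that for every h ≥ 1, with n = (386h + 2) · 2^h and ε = (386h + 2)⁻², some n × n binary matrix A is ε-far from free of ordered copies of H (every n × n binary matrix without an ordered copy of H differs from A in at least ε · n² cells) while the number of ordered copies of H in A is at most ε · 2^(-h) · n^132. An ordered copy picks 66 rows and 66 columns in increasing order on which A coincides with H, zeros included. -/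
theorem result :
    ∃ H : Fin 66 → Fin 66 → Bool, ∀ h : ℕ, 1 ≤ h →
      ∃ A : Fin ((386 * h + 2) * 2 ^ h) → Fin ((386 * h + 2) * 2 ^ h) → Bool,
        (∀ B : Fin ((386 * h + 2) * 2 ^ h) → Fin ((386 * h + 2) * 2 ^ h) → Bool,
          Crest.CombinatoricsR.OrderedMatrix.orderedCopyCount H B = 0 →
            ((386 * (h : ℝ) + 2) ^ 2)⁻¹ * (((386 * h + 2) * 2 ^ h : ℕ) : ℝ) ^ 2 ≤
              ((Finset.univ.filter (fun rc : Fin ((386 * h + 2) * 2 ^ h) × Fin ((386 * h + 2) * 2 ^ h) =>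
                A rc.1 rc.2 ≠ B rc.1 rc.2)).card : ℝ)) ∧
        (Crest.CombinatoricsR.OrderedMatrix.orderedCopyCount H A : ℝ) /
            (((386 * h + 2) * 2 ^ h : ℕ) : ℝ) ^ 132 ≤
          ((386 * (h : ℝ) + 2) ^ 2)⁻¹ * (2 : ℝ)⁻¹ ^ h := by
  classical
  refine ⟨H66, fun h hh => ⟨hostB (h + 2) (4 * 2 ^ h) _, ?_, ?_⟩⟩
  · intro B hB
    have key := far_main h hh B hB
    have hL : (0 : ℝ) < 386 * (h : ℝ) + 2 := by positivity
    have e : ((386 * (h : ℝ) + 2) ^ 2)⁻¹ * (((386 * h + 2) * 2 ^ h : ℕ) : ℝ) ^ 2 = (4 : ℝ) ^ h := by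
      push_cast
      have e4 : (4 : ℝ) ^ h = (2 ^ h) ^ 2 := by
        rw [← pow_mul, mul_comm, pow_mul]; norm_num
      rw [e4]
      field_simp
    rw [e]
    have key' : ((4 ^ h : ℕ) : ℝ) ≤ _ := Nat.cast_le.2 key
    push_cast at key'
    convert key' using 3
  · have hc := count_le (h + 2) (4 * 2 ^ h) ((386 * h + 2) * 2 ^ h)
    have hL : (0 : ℝ) < 386 * (h : ℝ) + 2 := by positivity
    have hu : (0 : ℝ) < 2 ^ h := by positivity
    have hn : (0 : ℝ) < (((386 * h + 2) * 2 ^ h : ℕ) : ℝ) := by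
      push_cast; positivity
    set N : ℝ := (((386 * h + 2) * 2 ^ h : ℕ) : ℝ) with hN
    have hc' : (OrderedMatrix.orderedCopyCount H66 (hostB (h + 2) (4 * 2 ^ h) ((386 * h + 2) * 2 ^ h)) : ℝ)
        ≤ N ^ 130 := by
      rw [hN]
      exact_mod_cast hc
    rw [div_le_iff₀ (by positivity)]
    refine le_trans hc' ?_
    have hNe : N = (386 * (h : ℝ) + 2) * 2 ^ h := by rw [hN]; push_cast; ring
    have e : N ^ 132 = N ^ 130 * N ^ 2 := by rw [← pow_add]
    rw [e]
    have hp : (0 : ℝ) < N ^ 130 := by positivity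
    have : (1 : ℝ) ≤ ((386 * (h : ℝ) + 2) ^ 2)⁻¹ * (2 : ℝ)⁻¹ ^ h * N ^ 2 := by
      rw [hNe, mul_pow, inv_pow]
      have h2 : ((2 : ℝ) ^ h) ^ 2 = 2 ^ h * 2 ^ h := by ring
      rw [h2]
      have h3 : (1 : ℝ) ≤ 2 ^ h := one_le_pow₀ (by norm_num)
      have : ((386 * (h : ℝ) + 2) ^ 2)⁻¹ * ((2 : ℝ) ^ h)⁻¹ * ((386 * (h : ℝ) + 2) ^ 2 * (2 ^ h * 2 ^ h)) = 2 ^ h := by
        field_simp
      rw [this]
      exact h3
    calc N ^ 130 = N ^ 130 * 1 := by ring
      _ ≤ N ^ 130 * (((386 * (h : ℝ) + 2) ^ 2)⁻¹ * (2 : ℝ)⁻¹ ^ h * N ^ 2) :=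
          mul_le_mul_of_nonneg_left this hp.le
      _ = _ := by ring

end Crest.Agent.S0066
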