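import Crest.Statements.S0109
import Crest.Agent.Lib.OTStab.Final2

set_option autoImplicit false
open MeasureTheory
open scoped ENNReal NNReal
open Crest.AnalysisR.OT
open Crest Crest.AnalysisR Crest.AnalysisR.OT

namespace Crest.Agent.S0109

open Crest.Agent.Lib.OTStab

/-- Fix d ≥ 2, a compact convex K ⊆ ℝᵈ with nonempty interior, ρ the uniform probability measure on K, and a nonempty compact Y ⊆ ℝᵈ. There is a constant C such that for all probability measures μ, ν carried by Y, all quadratic optimal transport maps Tμ from ρ to μ and Tν from ρ to ν, and every coupling π of μ and ν, ∫ ‖Tμ - Tν‖² dρ ≤ C · (∫ ‖y - z‖² dπ)^(1/3). With the best coupling: the L²(ρ) distance of the maps is at most √C times the cube root of the Wasserstein-2 distance of the targets. -/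
theorem result
    (d : ℕ) (hd : 2 ≤ d) (K : Set (EuclideanSpace ℝ (Fin d))) (hKc : IsCompact K) (hKv : Convex ℝ K)
    (hKi : (interior K).Nonempty) (Y : Set (EuclideanSpace ℝ (Fin d))) (hYc : IsCompact Y) (hYn : Y.Nonempty) :
    ∃ C : ℝ≥0, ∀ μ ν : Measure (EuclideanSpace ℝ (Fin d)), IsProbabilityOn Y μ → IsProbabilityOn Y ν →
      ∀ Tμ Tν : EuclideanSpace ℝ (Fin d) → EuclideanSpace ℝ (Fin d),
        IsOptimalMap (uniformProbOn K) μ Tμ → IsOptimalMap (uniformProbOn K) ν Tν →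
        ∀ π : Measure (EuclideanSpace ℝ (Fin d) × EuclideanSpace ℝ (Fin d)), IsPairCoupling μ ν π →
          ∫⁻ x, ‖Tμ x - Tν x‖ₑ ^ 2 ∂(uniformProbOn K) ≤ C * quadCost π ^ (1 / 3 : ℝ) := by
  have hK : Body K := ⟨hKc, hKv, hKi⟩
  have hρ := rho_isProb hK
  obtain ⟨R₀, hR₀⟩ := hKc.isBounded.exists_norm_le
  obtain ⟨L₀, hL₀⟩ := hYc.isBounded.exists_norm_le
  set R : ℝ := max R₀ 1 with hRdef
  have hR0 : 0 < R := lt_of_lt_of_le one_pos (le_max_right _ _)
  have hR : ∀ x ∈ K, ‖x - (0 : EE d)‖ ≤ R := fun x hx => by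
    rw [sub_zero]
    exact (hR₀ x hx).trans (le_max_left _ _)
  set L : ℝ := max L₀ 0 with hLdef
  have hL0 : 0 ≤ L := le_max_right _ _
  have hL : ∀ y ∈ Y, ‖y‖ ≤ L := fun y hy => (hL₀ y hy).trans (le_max_left _ _)
  obtain ⟨CG, hCG, hG⟩ := gn_bound hK L hL0
  obtain ⟨CA, hCA, hA⟩ := approx_optimal hK hYc
  set C₀ : ℝ := 3 * CG * (2 * (100 * R) ^ 2) ^ (1 / 3 : ℝ) with hC₀
  have hC₀0 : 0 ≤ C₀ := by positivity
  obtain ⟨C, hCr⟩ : ∃ C : ℝ≥0, (C : ℝ) = C₀ + 1 := ⟨⟨C₀ + 1, by positivity⟩, rfl⟩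
  refine ⟨C, ?_⟩
  intro μ ν hμ hν Tμ Tν hTμ hTν π hπ
  have hCne : (C : ℝ≥0∞) ≠ 0 := by
    refine ENNReal.coe_ne_zero.2 fun h => ?_
    rw [h] at hCr
    simp at hCr
    linarith
  by_cases hcost : quadCost π = ⊤
  · rw [hcost, ENNReal.top_rpow_of_pos (by norm_num), ENNReal.mul_top hCne]
    exact le_top
  set c : ℝ := (quadCost π).toReal with hc
  have hc0 : 0 ≤ c := ENNReal.toReal_nonneg
  set X : ℝ := ∫ x, ‖Tμ x - Tν x‖ ^ 2 ∂(rho K) with hX
  have key : ∀ η : ℝ, 0 < η → X ≤ 3 * (CA * Real.sqrt η + CG * ((100 * R) ^ 2 * (2 * c + 8 * η ^ 2)) ^ (1 / 3 : ℝ)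
      + CA * Real.sqrt η) := fun η hη =>
    main_eta hK hYc hCG hR0 hR hL hA hG hμ hν hTμ hTν hπ hcost hη
  have hcont : Continuous fun η : ℝ => 3 * (CA * Real.sqrt η +
      CG * ((100 * R) ^ 2 * (2 * c + 8 * η ^ 2)) ^ (1 / 3 : ℝ) + CA * Real.sqrt η) := by
    refine continuous_const.mul ?_
    refine ((continuous_const.mul Real.continuous_sqrt).add (continuous_const.mul ?_)).add
      (continuous_const.mul Real.continuous_sqrt)
    exact Continuous.rpow_const (by fun_prop) (fun _ => Or.inr (by norm_num))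
  have hlim : X ≤ 3 * (CA * Real.sqrt 0 + CG * ((100 * R) ^ 2 * (2 * c + 8 * 0 ^ 2)) ^ (1 / 3 : ℝ)
      + CA * Real.sqrt 0) := by
    refine ge_of_tendsto ((hcont.tendsto 0).mono_left (nhdsWithin_le_nhds (s := Set.Ioi 0))) ?_
    filter_upwards [self_mem_nhdsWithin] with η hη
    exact key η hη
  have hX2 : X ≤ C₀ * c ^ (1 / 3 : ℝ) := by
    refine hlim.trans_eq ?_
    have e : (100 * R) ^ 2 * (2 * c + 8 * 0 ^ 2) = (2 * (100 * R) ^ 2) * c := by ring
    rw [e, Real.mul_rpow (by positivity) hc0, Real.sqrt_zero, hC₀]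
    ring
  have hμY : ∀ᵐ x ∂(rho K), ‖Tμ x‖ ≤ L := by
    filter_upwards [ae_mem_of_optimal hYc hμ hTμ] with x hx using hL _ hx
  have hνY : ∀ᵐ x ∂(rho K), ‖Tν x‖ ≤ L := by
    filter_upwards [ae_mem_of_optimal hYc hν hTν] with x hx using hL _ hx
  have hint := integrable_sq_norm_sub hK hTμ.1 hTν.1 L hμY hνY
  have hl : ∫⁻ x, ‖Tμ x - Tν x‖ₑ ^ 2 ∂(uniformProbOn K) = ENNReal.ofReal X := by
    rw [hX, ofReal_integral_eq_lintegral_ofReal hint (Filter.Eventually.of_forall fun x => by positivity)]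
    refine lintegral_congr fun x => ?_
    rw [ENNReal.ofReal_pow (norm_nonneg _), ofReal_norm]
  have hcost' : quadCost π = ENNReal.ofReal c := (ENNReal.ofReal_toReal hcost).symm
  have hC : (C : ℝ≥0∞) = ENNReal.ofReal (C₀ + 1) := by
    rw [← hCr, ENNReal.ofReal_coe_nnreal]
  rw [hl, hcost', hC, ENNReal.ofReal_rpow_of_nonneg hc0 (by norm_num),
    ← ENNReal.ofReal_mul (by positivity)]
  refine ENNReal.ofReal_le_ofReal (hX2.trans ?_)
  have : 0 ≤ c ^ (1 / 3 : ℝ) := by positivity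
  nlinarith

end Crest.Agent.S0109
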