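-- Row 82, S0110: the exponent one third is optimal (explicit three-atom example on the cube).
import Crest.Statements.S0110

set_option autoImplicit false
open MeasureTheory
open scoped ENNReal NNReal
open Crest.AnalysisR.OT
open Crest Crest.AnalysisR Crest.AnalysisR.OT

namespace Crest.Agent.S0110

open scoped RealInnerProductSpace

/-- The Euclidean space. -/
abbrev EE (d : ℕ) := EuclideanSpace ℝ (Fin d)

section General

variable {d : ℕ}

/-- The candidate optimal map attached to the vector `p`. -/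
noncomputable def T (p : EE d) (x : EE d) : EE d :=
  if 1 < ⟪x, p⟫ then p else if ⟪x, p⟫ < -1 then -p else 0

/-- The three atoms. -/
def atoms (p : EE d) : Set (EE d) := {0, p, -p}

lemma measurable_T (p : EE d) : Measurable (T p) := by
  have h1 : MeasurableSet {x : EE d | 1 < ⟪x, p⟫} :=
    (isOpen_lt continuous_const (by fun_prop)).measurableSet
  have h2 : MeasurableSet {x : EE d | ⟪x, p⟫ < -1} :=
    (isOpen_lt (by fun_prop) continuous_const).measurableSet
  unfold T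
  exact Measurable.ite h1 measurable_const (Measurable.ite h2 measurable_const measurable_const)

lemma T_mem (p x : EE d) : T p x ∈ atoms p := by
  unfold T atoms
  split_ifs <;> simp

/-- The potential. -/
noncomputable def phi (p x : EE d) : ℝ := max 0 (max (⟪x, p⟫ - 1) (-⟪x, p⟫ - 1))

lemma continuous_phi (p : EE d) : Continuous (phi p) := by
  unfold phi; fun_prop

lemma phi_nonneg (p x : EE d) : 0 ≤ phi p x := le_max_left _ _

lemma le_phi_pos (p x : EE d) : ⟪x, p⟫ - 1 ≤ phi p x :=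
  le_trans (le_max_left _ _) (le_max_right _ _)

lemma le_phi_neg (p x : EE d) : -⟪x, p⟫ - 1 ≤ phi p x :=
  le_trans (le_max_right _ _) (le_max_right _ _)

/-- Dual potential pieces. -/
noncomputable def g (p x : EE d) : ℝ := ‖x‖ ^ 2 - 2 * phi p x

/-- Dual potential on the target. -/
noncomputable def c (p y : EE d) : ℝ := if y = 0 then 0 else ‖p‖ ^ 2 - 2

lemma measurable_c (p : EE d) : Measurable (c p) := by
  unfold c
  exact Measurable.ite (measurableSet_singleton 0) measurable_const measurable_const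

lemma continuous_g (p : EE d) : Continuous (g p) := by
  unfold g
  have := continuous_phi p
  fun_prop

lemma key_ineq {p : EE d} (hp : p ≠ 0) (x y : EE d) (hy : y ∈ atoms p) :
    g p x + c p y ≤ ‖x - y‖ ^ 2 := by
  rw [norm_sub_sq_real]
  have h0 := phi_nonneg p x
  have h1 := le_phi_pos p x
  have h2 := le_phi_neg p x
  simp only [atoms, Set.mem_insert_iff, Set.mem_singleton_iff] at hy
  unfold g c
  rcases hy with rfl | rfl | rfl
  · simp; linarith
  · simp [hp]; linarith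
  · simp [hp]; linarith

lemma key_eq {p : EE d} (hp : p ≠ 0) (x : EE d) :
    ‖x - T p x‖ ^ 2 = g p x + c p (T p x) := by
  rw [norm_sub_sq_real]
  have hnp : -p ≠ 0 := neg_ne_zero.mpr hp
  by_cases h1 : 1 < ⟪x, p⟫
  · have hT : T p x = p := by simp [T, h1]
    have e : phi p x = ⟪x, p⟫ - 1 := by
      unfold phi
      rw [max_eq_right (by rw [le_max_iff]; left; linarith), max_eq_left (by linarith)]
    rw [hT]; unfold g c; rw [e, if_neg hp]; ring
  · by_cases h2 : ⟪x, p⟫ < -1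
    · have hT : T p x = -p := by simp [T, h1, h2]
      have e : phi p x = -⟪x, p⟫ - 1 := by
        unfold phi
        rw [max_eq_right (by rw [le_max_iff]; right; linarith), max_eq_right (by linarith)]
      rw [hT]; unfold g c; rw [e, if_neg hnp, inner_neg_right, norm_neg]; ring
    · have hT : T p x = 0 := by simp [T, h1, h2]
      have e : phi p x = 0 := by
        unfold phi
        push Not at h1 h2
        rw [max_eq_left]
        rw [max_le_iff]; constructor <;> linarith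
      rw [hT]; unfold g c; rw [e]; simp

/-- Equality in `key_ineq` identifies the atom on the two relevant regions. -/
lemma key_eq_pos {p : EE d} (hp : p ≠ 0) (x y : EE d) (hy : y ∈ atoms p)
    (h : ‖x - y‖ ^ 2 = g p x + c p y) (hu : 1 < ⟪x, p⟫) : y = p := by
  rw [norm_sub_sq_real] at h
  have h1 := le_phi_pos p x
  simp only [atoms, Set.mem_insert_iff, Set.mem_singleton_iff] at hy
  unfold g c at h
  rcases hy with rfl | rfl | rfl
  · simp at h; linarith
  · rfl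
  · simp [hp] at h
    linarith

lemma key_eq_lt {p : EE d} (hp : p ≠ 0) (x : EE d)
    (h : ‖x - p‖ ^ 2 = g p x + c p p) : 1 ≤ ⟪x, p⟫ := by
  rw [norm_sub_sq_real] at h
  have h0 := phi_nonneg p x
  unfold g c at h
  simp [hp] at h
  linarith

end General

section Integrals

set_option linter.unusedSectionVars false

variable {d : ℕ} {ρ : Measure (EE d)} [IsProbabilityMeasure ρ] {R : ℝ}

lemma norm_le_of_mem_atoms {p y : EE d} (hy : y ∈ atoms p) : ‖y‖ ≤ ‖p‖ := by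
  simp only [atoms, Set.mem_insert_iff, Set.mem_singleton_iff] at hy
  rcases hy with rfl | rfl | rfl
  · simp
  · exact le_rfl
  · simp

lemma integrable_cost {p : EE d} (hR : ∀ᵐ x ∂ρ, ‖x‖ ≤ R) {S : EE d → EE d} (hS : Measurable S)
    (hSa : ∀ᵐ x ∂ρ, S x ∈ atoms p) : Integrable (fun x => ‖x - S x‖ ^ 2) ρ := by
  have hm : Measurable (fun x => ‖x - S x‖ ^ 2) := by fun_prop
  refine Integrable.of_bound (C := (R + ‖p‖) ^ 2) hm.aestronglyMeasurable ?_
  filter_upwards [hR, hSa] with x hx hy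
  have h1 : ‖x - S x‖ ≤ R + ‖p‖ :=
    (norm_sub_le _ _).trans (add_le_add hx (norm_le_of_mem_atoms hy))
  rw [Real.norm_eq_abs, abs_of_nonneg (by positivity)]
  exact pow_le_pow_left₀ (norm_nonneg _) h1 2

lemma integrable_g (p : EE d) (hR : ∀ᵐ x ∂ρ, ‖x‖ ≤ R) : Integrable (g p) ρ := by
  have hm : Measurable (g p) := (continuous_g p).measurable
  refine Integrable.of_bound (C := R ^ 2 + 2 * (R * ‖p‖ + 1)) hm.aestronglyMeasurable ?_
  filter_upwards [hR] with x hx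
  have hu : |⟪x, p⟫| ≤ R * ‖p‖ :=
    (abs_real_inner_le_norm x p).trans (mul_le_mul_of_nonneg_right hx (norm_nonneg _))
  have hphi0 := phi_nonneg p x
  have hphi1 : phi p x ≤ R * ‖p‖ + 1 := by
    unfold phi
    have := abs_le.mp hu
    apply max_le
    · have : 0 ≤ |⟪x, p⟫| := abs_nonneg _
      linarith
    · apply max_le <;> linarith [this.1, this.2]
  have hx2 : ‖x‖ ^ 2 ≤ R ^ 2 := pow_le_pow_left₀ (norm_nonneg _) hx 2
  rw [Real.norm_eq_abs]
  unfold g
  rw [abs_le]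
  have hx3 : 0 ≤ ‖x‖ ^ 2 := by positivity
  constructor <;> linarith

lemma integrable_c (p : EE d) {S : EE d → EE d} (hS : Measurable S) :
    Integrable (fun x => c p (S x)) ρ := by
  have hm : Measurable (fun x => c p (S x)) := (measurable_c p).comp hS
  refine Integrable.of_bound (C := |‖p‖ ^ 2 - 2|) hm.aestronglyMeasurable ?_
  refine Filter.Eventually.of_forall (fun x => ?_)
  rw [Real.norm_eq_abs]
  unfold c
  split_ifs
  · simp
  · exact le_rfl

lemma atoms_of_map {p : EE d} {S : EE d → EE d} (hS : Measurable S)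
    (hmap : ρ.map S = ρ.map (T p)) : ∀ᵐ x ∂ρ, S x ∈ atoms p := by
  have hmeas : MeasurableSet {y : EE d | y ∈ atoms p} := by
    have : (atoms p).Finite := by
      unfold atoms
      simp
    exact this.measurableSet
  have h1 : ∀ᵐ y ∂(ρ.map (T p)), y ∈ atoms p := by
    rw [ae_map_iff (measurable_T p).aemeasurable hmeas]
    exact Filter.Eventually.of_forall (T_mem p)
  rw [← hmap, ae_map_iff hS.aemeasurable hmeas] at h1
  exact h1

lemma integral_c_eq {p : EE d} {S : EE d → EE d} (hS : Measurable S)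
    (hmap : ρ.map S = ρ.map (T p)) : ∫ x, c p (S x) ∂ρ = ∫ x, c p (T p x) ∂ρ := by
  have h1 : ∫ y, c p y ∂(ρ.map S) = ∫ x, c p (S x) ∂ρ :=
    integral_map hS.aemeasurable (measurable_c p).aestronglyMeasurable
  have h2 : ∫ y, c p y ∂(ρ.map (T p)) = ∫ x, c p (T p x) ∂ρ :=
    integral_map (measurable_T p).aemeasurable (measurable_c p).aestronglyMeasurable
  rw [← h1, ← h2, hmap]

lemma integral_cost_T {p : EE d} (hp : p ≠ 0) (hR : ∀ᵐ x ∂ρ, ‖x‖ ≤ R) :
    ∫ x, ‖x - T p x‖ ^ 2 ∂ρ = ∫ x, g p x ∂ρ + ∫ x, c p (T p x) ∂ρ := by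
  rw [← integral_add (integrable_g p hR) (integrable_c p (measurable_T p))]
  exact integral_congr_ae (Filter.Eventually.of_forall (fun x => key_eq hp x))

lemma cost_le {p : EE d} (hp : p ≠ 0) (hR : ∀ᵐ x ∂ρ, ‖x‖ ≤ R) {S : EE d → EE d}
    (hS : Measurable S) (hmap : ρ.map S = ρ.map (T p)) :
    ∫ x, ‖x - T p x‖ ^ 2 ∂ρ ≤ ∫ x, ‖x - S x‖ ^ 2 ∂ρ := by
  have hSa := atoms_of_map hS hmap
  rw [integral_cost_T hp hR, ← integral_c_eq hS hmap,
    ← integral_add (integrable_g p hR) (integrable_c p hS)]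
  refine integral_mono_ae ((integrable_g p hR).add (integrable_c p hS))
    (integrable_cost hR hS hSa) ?_
  filter_upwards [hSa] with x hx
  exact key_ineq hp x (S x) hx

lemma eq_of_cost_le {p : EE d} (hp : p ≠ 0) (hR : ∀ᵐ x ∂ρ, ‖x‖ ≤ R) {S : EE d → EE d}
    (hS : Measurable S) (hmap : ρ.map S = ρ.map (T p))
    (hle : ∫ x, ‖x - S x‖ ^ 2 ∂ρ ≤ ∫ x, ‖x - T p x‖ ^ 2 ∂ρ) :
    ∀ᵐ x ∂ρ, ‖x - S x‖ ^ 2 = g p x + c p (S x) := by
  have hSa := atoms_of_map hS hmap
  have hi1 := integrable_cost hR hS hSa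
  have hi2 : Integrable (fun x => g p x + c p (S x)) ρ :=
    (integrable_g p hR).add (integrable_c p hS)
  have hnn : 0 ≤ᵐ[ρ] fun x => ‖x - S x‖ ^ 2 - (g p x + c p (S x)) := by
    filter_upwards [hSa] with x hx
    have := key_ineq hp x (S x) hx
    simp only [Pi.zero_apply]
    linarith
  have hzero : ∫ x, (‖x - S x‖ ^ 2 - (g p x + c p (S x))) ∂ρ = 0 := by
    apply le_antisymm
    · rw [integral_sub hi1 hi2, integral_add (integrable_g p hR) (integrable_c p hS),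
        integral_c_eq hS hmap, ← integral_cost_T hp hR]
      linarith
    · exact integral_nonneg_of_ae hnn
  have := (integral_eq_zero_iff_of_nonneg_ae hnn (hi1.sub hi2)).mp hzero
  filter_upwards [this] with x hx
  simp only [Pi.zero_apply] at hx
  linarith

lemma lintegral_enorm_cost {S : EE d → EE d}
    (hf : Integrable (fun x => ‖x - S x‖ ^ 2) ρ) :
    ∫⁻ x, ‖x - S x‖ₑ ^ 2 ∂ρ = ENNReal.ofReal (∫ x, ‖x - S x‖ ^ 2 ∂ρ) := by
  rw [ofReal_integral_eq_lintegral_ofReal hf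
    (Filter.Eventually.of_forall (fun x => by positivity))]
  refine lintegral_congr (fun x => ?_)
  rw [ENNReal.ofReal_pow (norm_nonneg _), ofReal_norm]

theorem isOptimal_T {p : EE d} (hp : p ≠ 0) (hR : ∀ᵐ x ∂ρ, ‖x‖ ≤ R) :
    IsOptimalMap ρ (ρ.map (T p)) (T p) := by
  refine ⟨measurable_T p, rfl, fun S hS hmap => ?_⟩
  have hSa := atoms_of_map hS hmap
  have hTa : ∀ᵐ x ∂ρ, T p x ∈ atoms p := Filter.Eventually.of_forall (T_mem p)
  rw [lintegral_enorm_cost (integrable_cost hR (measurable_T p) hTa),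
    lintegral_enorm_cost (integrable_cost hR hS hSa)]
  exact ENNReal.ofReal_le_ofReal (cost_le hp hR hS hmap)

theorem optimal_ae {p : EE d} (hp : p ≠ 0) (hR : ∀ᵐ x ∂ρ, ‖x‖ ≤ R) {S : EE d → EE d}
    (h : IsOptimalMap ρ (ρ.map (T p)) S) :
    ∀ᵐ x ∂ρ, S x ∈ atoms p ∧ ‖x - S x‖ ^ 2 = g p x + c p (S x) := by
  obtain ⟨hS, hmap, hopt⟩ := h
  have hSa := atoms_of_map hS hmap
  have hTa : ∀ᵐ x ∂ρ, T p x ∈ atoms p := Filter.Eventually.of_forall (T_mem p)
  have hle := hopt (T p) (measurable_T p) rfl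
  rw [lintegral_enorm_cost (integrable_cost hR (measurable_T p) hTa),
    lintegral_enorm_cost (integrable_cost hR hS hSa)] at hle
  have hle' : ∫ x, ‖x - S x‖ ^ 2 ∂ρ ≤ ∫ x, ‖x - T p x‖ ^ 2 ∂ρ := by
    have h2 : 0 ≤ ∫ x, ‖x - T p x‖ ^ 2 ∂ρ := integral_nonneg (fun x => by positivity)
    exact (ENNReal.ofReal_le_ofReal_iff h2).mp hle
  filter_upwards [hSa, eq_of_cost_le hp hR hS hmap hle'] with x h1 h2
  exact ⟨h1, h2⟩

end Integrals

section Cube

variable {d : ℕ}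

/-- The cube. -/
abbrev Q (d : ℕ) : Set (EE d) := {x : EuclideanSpace ℝ (Fin d) | ∀ i, |x i| ≤ 1}

/-- Boxes. -/
def box (a b : Fin d → ℝ) : Set (EE d) := {x | ∀ i, a i ≤ x i ∧ x i ≤ b i}

lemma box_eq_preimage (a b : Fin d → ℝ) :
    box a b = (WithLp.ofLp : EE d → Fin d → ℝ) ⁻¹' (Set.Icc a b) := by
  ext x
  simp only [box, Set.mem_ofPred_eq, Set.mem_preimage, Set.mem_Icc, Pi.le_def]
  constructor
  · intro h
    exact ⟨fun i => (h i).1, fun i => (h i).2⟩
  · intro h i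
    exact ⟨h.1 i, h.2 i⟩

lemma measurableSet_box (a b : Fin d → ℝ) : MeasurableSet (box a b) := by
  rw [box_eq_preimage]
  exact (PiLp.volume_preserving_ofLp (Fin d)).measurable measurableSet_Icc

lemma volume_box (a b : Fin d → ℝ) :
    volume (box a b) = ∏ i, ENNReal.ofReal (b i - a i) := by
  rw [box_eq_preimage, (PiLp.volume_preserving_ofLp (Fin d)).measure_preimage
    measurableSet_Icc.nullMeasurableSet, Real.volume_Icc_pi]

lemma Q_eq_box : Q d = box (fun _ => -1) (fun _ => 1) := by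
  ext x
  simp only [Q, box, Set.mem_ofPred_eq, abs_le]

lemma volume_Q : volume (Q d) = ENNReal.ofReal (2 ^ d) := by
  rw [Q_eq_box, volume_box]
  have : ((1:ℝ) - (-1)) = 2 := by norm_num
  simp only [this, Finset.prod_const, Finset.card_univ, Fintype.card_fin]
  rw [ENNReal.ofReal_pow (by norm_num)]

lemma measurableSet_Q : MeasurableSet (Q d) := by
  rw [Q_eq_box]; exact measurableSet_box _ _

lemma volume_Q_ne_zero : volume (Q d) ≠ 0 := by
  rw [volume_Q]
  simp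

lemma volume_Q_ne_top : volume (Q d) ≠ ∞ := by
  rw [volume_Q]; exact ENNReal.ofReal_ne_top

/-- The uniform probability measure on the cube. -/
noncomputable abbrev rho (d : ℕ) : Measure (EE d) := uniformProbOn (Q d)

lemma rho_apply {A : Set (EE d)} (hA : MeasurableSet A) :
    rho d A = (volume (Q d))⁻¹ * volume (A ∩ Q d) := by
  simp [uniformProbOn, Measure.smul_apply, Measure.restrict_apply hA]

instance rho_isProb : IsProbabilityMeasure (rho d) := by
  constructor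
  rw [rho_apply MeasurableSet.univ, Set.univ_inter]
  exact ENNReal.inv_mul_cancel volume_Q_ne_zero volume_Q_ne_top

lemma ae_mem_Q : ∀ᵐ x ∂(rho d), x ∈ Q d := by
  have h : rho d (Q d)ᶜ = 0 := by
    rw [rho_apply measurableSet_Q.compl]
    simp
  exact measure_eq_zero_iff_ae_notMem.mp h |>.mono (fun x hx => by simpa using hx)

lemma norm_le_of_mem_Q {x : EE d} (hx : x ∈ Q d) : ‖x‖ ≤ Real.sqrt d := by
  rw [EuclideanSpace.norm_eq]
  apply Real.sqrt_le_sqrt
  calc ∑ i, ‖x i‖ ^ 2 ≤ ∑ _i : Fin d, (1:ℝ) := by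
        apply Finset.sum_le_sum
        intro i _
        have := hx i
        rw [Real.norm_eq_abs]
        exact pow_le_one₀ (abs_nonneg _) this
    _ = d := by simp

lemma ae_norm_le : ∀ᵐ x ∂(rho d), ‖x‖ ≤ Real.sqrt d :=
  ae_mem_Q.mono (fun _ hx => norm_le_of_mem_Q hx)

lemma rho_box {a b : Fin d → ℝ} (hsub : box a b ⊆ Q d) :
    rho d (box a b) = ENNReal.ofReal (2 ^ d)⁻¹ * ∏ i, ENNReal.ofReal (b i - a i) := by
  rw [rho_apply (measurableSet_box a b), Set.inter_eq_left.mpr hsub, volume_box, volume_Q,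
    ENNReal.ofReal_inv_of_pos (by positivity)]

end Cube

section Atomic

variable {d : ℕ}

/-- The pushforward of a finitely-valued map is a combination of point masses. -/
lemma map_eq_sum {ρ : Measure (EE d)} {ι : Type*} [Fintype ι] {F : EE d → EE d} (hF : Measurable F)
    {y : ι → EE d} {E : ι → Set (EE d)}
    (hE : ∀ i, MeasurableSet (E i)) (hdisj : Pairwise (Function.onFun Disjoint E))
    (hcov : ∀ x, ∃ i, x ∈ E i) (hT : ∀ i, ∀ x ∈ E i, F x = y i) :
    ρ.map F = ∑ i, ρ (E i) • Measure.dirac (y i) := by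
  classical
  ext A hA
  rw [Measure.map_apply hF hA, Measure.finsetSum_apply]
  have hpre : F ⁻¹' A = ⋃ i ∈ Finset.univ.filter (fun i => y i ∈ A), E i := by
    ext x
    simp only [Set.mem_preimage, Set.mem_iUnion, Finset.mem_filter, Finset.mem_univ, true_and,
      exists_prop]
    constructor
    · intro hx
      obtain ⟨i, hi⟩ := hcov x
      refine ⟨i, ?_, hi⟩
      rw [← hT i x hi]; exact hx
    · rintro ⟨i, hi, hx⟩
      rw [hT i x hx]; exact hi
  rw [hpre, measure_biUnion_finset (fun i _ j _ hij => hdisj hij) (fun i _ => hE i),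
    Finset.sum_filter]
  refine Finset.sum_congr rfl (fun i _ => ?_)
  simp only [Measure.smul_apply, smul_eq_mul, Measure.dirac_apply' _ hA, Set.indicator_apply,
    Pi.one_apply]
  split_ifs <;> simp

/-- Three regions. -/
def Sp (p : EE d) : Set (EE d) := {x | 1 < ⟪x, p⟫}
/-- Three regions. -/
def Sm (p : EE d) : Set (EE d) := {x | ⟪x, p⟫ < -1}
/-- Three regions. -/
def Sz (p : EE d) : Set (EE d) := {x | -1 ≤ ⟪x, p⟫ ∧ ⟪x, p⟫ ≤ 1}

lemma measurableSet_Sp (p : EE d) : MeasurableSet (Sp p) :=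
  (isOpen_lt continuous_const (by fun_prop)).measurableSet
lemma measurableSet_Sm (p : EE d) : MeasurableSet (Sm p) :=
  (isOpen_lt (by fun_prop) continuous_const).measurableSet
lemma measurableSet_Sz (p : EE d) : MeasurableSet (Sz p) := by
  have h1 : IsClosed {x : EE d | -1 ≤ ⟪x, p⟫} := isClosed_le continuous_const (by fun_prop)
  have h2 : IsClosed {x : EE d | ⟪x, p⟫ ≤ 1} := isClosed_le (by fun_prop) continuous_const
  exact h1.measurableSet.inter h2.measurableSet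

lemma T_of_Sp {p x : EE d} (hx : x ∈ Sp p) : T p x = p := by
  have : 1 < ⟪x, p⟫ := hx
  simp [T, this]
lemma T_of_Sm {p x : EE d} (hx : x ∈ Sm p) : T p x = -p := by
  have h : ⟪x, p⟫ < -1 := hx
  have h' : ¬ 1 < ⟪x, p⟫ := by linarith
  simp [T, h, h']
lemma T_of_Sz {p x : EE d} (hx : x ∈ Sz p) : T p x = 0 := by
  have h : -1 ≤ ⟪x, p⟫ ∧ ⟪x, p⟫ ≤ 1 := hx
  have h' : ¬ 1 < ⟪x, p⟫ := by linarith [h.2]
  have h'' : ¬ ⟪x, p⟫ < -1 := by linarith [h.1]
  simp [T, h', h'']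

theorem threeAtomic_map_T {ρ : Measure (EE d)} [IsFiniteMeasure ρ] {p : EE d} (hp : p ≠ 0)
    (h0 : 0 < ρ (Sz p)) (h1 : 0 < ρ (Sp p)) (h2 : 0 < ρ (Sm p)) :
    IsThreeAtomic (ρ.map (T p)) := by
  have hinj : Function.Injective ![(0 : EE d), p, -p] := by
    intro i j hij
    have hnp : -p ≠ 0 := neg_ne_zero.mpr hp
    have hpp : p ≠ -p := by
      intro h
      have h3 : (2 : ℝ) • p = 0 := by
        rw [two_smul]
        nth_rewrite 1 [h]
        simp
      have : p = 0 := by simpa using h3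
      exact hp this
    fin_cases i <;> fin_cases j <;> simp_all
  refine ⟨![(0 : EE d), p, -p], hinj,
    ![(ρ (Sz p)).toReal, (ρ (Sp p)).toReal, (ρ (Sm p)).toReal], ?_, ?_⟩
  · intro i
    fin_cases i
    · exact ENNReal.toReal_pos h0.ne' (measure_ne_top _ _)
    · exact ENNReal.toReal_pos h1.ne' (measure_ne_top _ _)
    · exact ENNReal.toReal_pos h2.ne' (measure_ne_top _ _)
  · have key := map_eq_sum (ρ := ρ) (F := T p) (measurable_T p) (y := ![(0 : EE d), p, -p])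
      (E := ![Sz p, Sp p, Sm p]) ?_ ?_ ?_ ?_
    · rw [key]
      simp only [Fin.sum_univ_three]
      simp [ENNReal.ofReal_toReal (measure_ne_top ρ _)]
    · intro i
      fin_cases i
      · exact measurableSet_Sz p
      · exact measurableSet_Sp p
      · exact measurableSet_Sm p
    · have h01 : Disjoint (Sz p) (Sp p) := Set.disjoint_left.mpr (fun x hx hy => by
        have h1 : ⟪x, p⟫ ≤ 1 := hx.2
        have h2 : 1 < ⟪x, p⟫ := hy
        linarith)
      have h02 : Disjoint (Sz p) (Sm p) := Set.disjoint_left.mpr (fun x hx hy => by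
        have h1 : -1 ≤ ⟪x, p⟫ := hx.1
        have h2 : ⟪x, p⟫ < -1 := hy
        linarith)
      have h12 : Disjoint (Sp p) (Sm p) := Set.disjoint_left.mpr (fun x hx hy => by
        have h1 : 1 < ⟪x, p⟫ := hx
        have h2 : ⟪x, p⟫ < -1 := hy
        linarith)
      intro i j hij
      fin_cases i <;> fin_cases j <;> simp_all [Function.onFun, h01.symm, h02.symm, h12.symm]
    · intro x
      by_cases h1 : 1 < ⟪x, p⟫
      · exact ⟨1, h1⟩
      · by_cases h2 : ⟪x, p⟫ < -1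
        · exact ⟨2, h2⟩
        · exact ⟨0, ⟨by linarith, by linarith⟩⟩
    · intro i x hx
      fin_cases i
      · exact T_of_Sz hx
      · exact T_of_Sp hx
      · exact T_of_Sm hx

end Atomic

section Example

variable {d : ℕ}

/-- The vector `p_θ`. -/
noncomputable def pv (i0 i1 : Fin d) (θ : ℝ) : EE d :=
  EuclideanSpace.single i0 1 + θ • EuclideanSpace.single i1 1

lemma inner_pv (i0 i1 : Fin d) (θ : ℝ) (x : EE d) : ⟪x, pv i0 i1 θ⟫ = x i0 + θ * x i1 := by
  unfold pv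
  rw [inner_add_right, inner_smul_right, EuclideanSpace.inner_single_right,
    EuclideanSpace.inner_single_right]
  simp

lemma pv_apply (i0 i1 : Fin d) (θ : ℝ) (i : Fin d) :
    pv i0 i1 θ i = (if i = i0 then 1 else 0) + θ * (if i = i1 then 1 else 0) := by
  unfold pv
  simp [PiLp.single_apply]

lemma pv_apply_i0 {i0 i1 : Fin d} (h : i0 ≠ i1) (θ : ℝ) : pv i0 i1 θ i0 = 1 := by
  rw [pv_apply]; simp [h]

lemma pv_ne_zero {i0 i1 : Fin d} (h : i0 ≠ i1) (θ : ℝ) : pv i0 i1 θ ≠ 0 := by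
  intro h0
  have := pv_apply_i0 h θ
  rw [h0] at this
  simp at this

/-- The coordinate reflection. -/
noncomputable def Rf (i1 : Fin d) : EE d ≃ₗᵢ[ℝ] EE d :=
  LinearIsometryEquiv.piLpCongrRight 2
    (fun i => if i = i1 then LinearIsometryEquiv.neg ℝ else LinearIsometryEquiv.refl ℝ ℝ)

lemma Rf_apply (i1 i : Fin d) (x : EE d) : Rf i1 x i = if i = i1 then - x i else x i := by
  unfold Rf
  rw [LinearIsometryEquiv.piLpCongrRight_apply]
  by_cases h : i = i1 <;> simp [h]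

lemma inner_Rf {i0 i1 : Fin d} (h : i0 ≠ i1) (θ : ℝ) (x : EE d) :
    ⟪Rf i1 x, pv i0 i1 (-θ)⟫ = ⟪x, pv i0 i1 θ⟫ := by
  rw [inner_pv, inner_pv, Rf_apply, Rf_apply]
  simp [h]

lemma Rf_preimage_Q (i1 : Fin d) : (Rf i1) ⁻¹' (Q d) = Q d := by
  ext x
  simp only [Q, Set.mem_preimage, Set.mem_ofPred_eq]
  constructor
  · intro h i
    have := h i
    rw [Rf_apply] at this
    split_ifs at this <;> simpa using this
  · intro h i
    rw [Rf_apply]
    split_ifs <;> simpa using h i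

lemma rho_map_Rf (i1 : Fin d) : (rho d).map (Rf i1) = rho d := by
  have hmp : MeasurePreserving (Rf i1) (volume : Measure (EE d)) volume :=
    (Rf i1).measurePreserving
  have h2 := hmp.restrict_preimage (s := Q d) measurableSet_Q
  rw [Rf_preimage_Q] at h2
  simp only [rho, uniformProbOn]
  rw [Measure.map_smul, h2.map_eq]

lemma measure_preimage_Rf (i1 : Fin d) {A : Set (EE d)} (hA : MeasurableSet A) :
    rho d ((Rf i1) ⁻¹' A) = rho d A := by
  rw [← Measure.map_apply (Rf i1).continuous.measurable hA, rho_map_Rf]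

/-! ### Boxes with two special coordinates -/

/-- Lower corner. -/
def lo (i0 i1 : Fin d) (s0 s1 : ℝ) (i : Fin d) : ℝ := if i = i0 then s0 else if i = i1 then s1 else -1
/-- Upper corner. -/
def hi (i0 i1 : Fin d) (t0 t1 : ℝ) (i : Fin d) : ℝ := if i = i0 then t0 else if i = i1 then t1 else 1

lemma prod_two {i0 i1 : Fin d} (h : i0 ≠ i1) (s t : ℝ) :
    ∏ i : Fin d, (if i = i0 then s else if i = i1 then t else (2:ℝ)) = s * t * 2 ^ (d - 2) := by
  classical
  rw [← Finset.mul_prod_erase Finset.univ _ (Finset.mem_univ i0),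
    ← Finset.mul_prod_erase (Finset.univ.erase i0) _
      (Finset.mem_erase.mpr ⟨h.symm, Finset.mem_univ i1⟩)]
  have h3 : ∏ x ∈ (Finset.univ.erase i0).erase i1,
      (if x = i0 then s else if x = i1 then t else (2:ℝ)) = 2 ^ (d - 2) := by
    rw [Finset.prod_congr rfl (g := fun _ => (2:ℝ))]
    · rw [Finset.prod_const, Finset.card_erase_of_mem
        (Finset.mem_erase.mpr ⟨h.symm, Finset.mem_univ i1⟩),
        Finset.card_erase_of_mem (Finset.mem_univ i0), Finset.card_univ, Fintype.card_fin]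
      congr 1
    · intro x hx
      have h1 := Finset.ne_of_mem_erase hx
      have h2 := Finset.ne_of_mem_erase (Finset.mem_of_mem_erase hx)
      simp [h1, h2]
  rw [h3]
  simp [h.symm]
  ring

lemma two_le_of_ne {i0 i1 : Fin d} (h : i0 ≠ i1) : 2 ≤ d := by
  by_contra hd
  have : d ≤ 1 := by omega
  have h0 := i0.isLt
  have h1 := i1.isLt
  exact h (Fin.ext (by omega))

lemma rho_box2 {i0 i1 : Fin d} (h : i0 ≠ i1) {s0 t0 s1 t1 : ℝ}
    (h0 : -1 ≤ s0) (h1 : s0 ≤ t0) (h2 : t0 ≤ 1) (h3 : -1 ≤ s1) (h4 : s1 ≤ t1) (h5 : t1 ≤ 1) :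
    rho d (box (lo i0 i1 s0 s1) (hi i0 i1 t0 t1)) =
      ENNReal.ofReal ((t0 - s0) * (t1 - s1) / 4) := by
  have hsub : box (lo i0 i1 s0 s1) (hi i0 i1 t0 t1) ⊆ Q d := by
    intro x hx i
    have := hx i
    simp only [lo, hi] at this
    rw [abs_le]
    split_ifs at this <;> constructor <;> linarith [this.1, this.2]
  rw [rho_box hsub]
  have hnn : ∀ i ∈ (Finset.univ : Finset (Fin d)), 0 ≤ hi i0 i1 t0 t1 i - lo i0 i1 s0 s1 i := by
    intro i _
    simp only [lo, hi]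
    split_ifs <;> linarith
  rw [← ENNReal.ofReal_prod_of_nonneg hnn, ← ENNReal.ofReal_mul (by positivity)]
  congr 1
  have hprod : ∏ i, (hi i0 i1 t0 t1 i - lo i0 i1 s0 s1 i) = (t0 - s0) * (t1 - s1) * 2 ^ (d - 2) := by
    rw [← prod_two h]
    refine Finset.prod_congr rfl (fun i _ => ?_)
    simp only [lo, hi]
    split_ifs <;> norm_num
  rw [hprod]
  have hd := two_le_of_ne h
  have : (2:ℝ) ^ d = 2 ^ (d - 2) * 4 := by
    conv_lhs => rw [show d = (d - 2) + 2 by omega, pow_add]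
    norm_num
  rw [this]
  field_simp

lemma mem_box2 {i0 i1 : Fin d} {s0 t0 s1 t1 : ℝ} {x : EE d}
    (hx : x ∈ box (lo i0 i1 s0 s1) (hi i0 i1 t0 t1)) (h : i0 ≠ i1) :
    (s0 ≤ x i0 ∧ x i0 ≤ t0) ∧ (s1 ≤ x i1 ∧ x i1 ≤ t1) := by
  have h0 := hx i0
  have h1 := hx i1
  simp only [lo, hi, if_true, if_neg h.symm] at h0 h1
  exact ⟨h0, h1⟩

lemma mem_box2_of {i0 i1 : Fin d} {s0 t0 s1 t1 : ℝ} {x : EE d} (hQ : x ∈ Q d)
    (h0 : s0 ≤ x i0 ∧ x i0 ≤ t0) (h1 : s1 ≤ x i1 ∧ x i1 ≤ t1) :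
    x ∈ box (lo i0 i1 s0 s1) (hi i0 i1 t0 t1) := by
  intro i
  simp only [lo, hi]
  have := abs_le.mp (hQ i)
  split_ifs with h2 h3
  · subst h2; exact h0
  · subst h3; exact h1
  · exact this

end Example

section Final

lemma exists_theta (α : ℝ) (hα : 1 / 3 < α) (C : ℝ) (hC : 0 ≤ C) :
    ∃ θ : ℝ, 0 < θ ∧ θ ≤ 1 ∧ C * (4 * θ ^ 3) ^ α < θ / 32 := by
  have hε0 : 0 < 3 * α - 1 := by linarith
  have hα0 : 0 < α := by linarith
  have hK0 : 0 ≤ C * 4 ^ α := by positivity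
  have hb0 : 0 < 1 / (64 * (C * 4 ^ α + 1)) := by positivity
  have hθ0 : 0 < min 1 ((1 / (64 * (C * 4 ^ α + 1))) ^ (1 / (3 * α - 1))) :=
    lt_min one_pos (Real.rpow_pos_of_pos hb0 _)
  refine ⟨min 1 ((1 / (64 * (C * 4 ^ α + 1))) ^ (1 / (3 * α - 1))), hθ0, min_le_left _ _, ?_⟩
  generalize hθ : min 1 ((1 / (64 * (C * 4 ^ α + 1))) ^ (1 / (3 * α - 1))) = θ at hθ0 ⊢
  have hθε : θ ^ (3 * α - 1) ≤ 1 / (64 * (C * 4 ^ α + 1)) := by
    calc θ ^ (3 * α - 1) ≤ ((1 / (64 * (C * 4 ^ α + 1))) ^ (1 / (3 * α - 1))) ^ (3 * α - 1) :=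
          Real.rpow_le_rpow hθ0.le (hθ ▸ min_le_right _ _) hε0.le
      _ = 1 / (64 * (C * 4 ^ α + 1)) := by
          rw [← Real.rpow_mul hb0.le, one_div_mul_cancel hε0.ne', Real.rpow_one]
  have h1 : (4 * θ ^ 3) ^ α = 4 ^ α * θ ^ (3 * α) := by
    rw [Real.mul_rpow (by norm_num) (by positivity), ← Real.rpow_natCast θ 3,
      ← Real.rpow_mul hθ0.le]
    norm_num
  have h3 : θ ^ (3 * α) = θ ^ (3 * α - 1) * θ := by
    rw [← Real.rpow_add_one hθ0.ne']
    congr 1
    ring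
  rw [h1, h3]
  have h4 : C * 4 ^ α * (1 / (64 * (C * 4 ^ α + 1))) < 1 / 32 := by
    have hpos : 0 < C * 4 ^ α + 1 := by positivity
    rw [mul_one_div, div_lt_iff₀ (by positivity)]
    nlinarith
  have h5 : C * 4 ^ α * θ ^ (3 * α - 1) ≤ C * 4 ^ α * (1 / (64 * (C * 4 ^ α + 1))) :=
    mul_le_mul_of_nonneg_left hθε hK0
  have h6 : C * (4 ^ α * (θ ^ (3 * α - 1) * θ)) = (C * 4 ^ α * θ ^ (3 * α - 1)) * θ := by ring
  rw [h6]
  have h7 : (C * 4 ^ α * θ ^ (3 * α - 1)) * θ < (1 / 32) * θ :=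
    mul_lt_mul_of_pos_right (lt_of_le_of_lt h5 h4) hθ0
  linarith

variable {d : ℕ} {i0 i1 : Fin d}

lemma T_mem_Q (hne : i0 ≠ i1) {θ : ℝ} (hθ : |θ| ≤ 1) (x : EE d) : T (pv i0 i1 θ) x ∈ Q d := by
  have hcoord : ∀ i, |pv i0 i1 θ i| ≤ 1 := by
    intro i
    rw [pv_apply]
    by_cases h0 : i = i0
    · have h1 : i ≠ i1 := by rw [h0]; exact hne
      simp [h0, hne]
    · by_cases h1 : i = i1
      · simp [h1, hne.symm, hθ]
      · simp [h0, h1]
  have hmem := T_mem (pv i0 i1 θ) x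
  simp only [atoms, Set.mem_insert_iff, Set.mem_singleton_iff] at hmem
  intro i
  rcases hmem with h | h | h <;> rw [h]
  · simp
  · exact hcoord i
  · simpa using hcoord i

lemma isProbOn_map (hne : i0 ≠ i1) {θ : ℝ} (hθ : |θ| ≤ 1) :
    IsProbabilityOn (Q d) ((rho d).map (T (pv i0 i1 θ))) := by
  refine ⟨Measure.isProbabilityMeasure_map (measurable_T _).aemeasurable, ?_⟩
  rw [Measure.map_apply (measurable_T _) measurableSet_Q.compl]
  have : T (pv i0 i1 θ) ⁻¹' (Q d)ᶜ = ∅ := by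
    ext x
    simp only [Set.mem_preimage, Set.mem_compl_iff, Set.mem_empty_iff_false, iff_false, not_not]
    exact T_mem_Q hne hθ x
  rw [this, measure_empty]

lemma Sp_eq_preimage (hne : i0 ≠ i1) (θ : ℝ) :
    Sp (pv i0 i1 θ) = (Rf i1) ⁻¹' Sp (pv i0 i1 (-θ)) := by
  ext x
  simp only [Sp, Set.mem_ofPred_eq, Set.mem_preimage, inner_Rf hne]

lemma Sm_eq_preimage (hne : i0 ≠ i1) (θ : ℝ) :
    Sm (pv i0 i1 θ) = (Rf i1) ⁻¹' Sm (pv i0 i1 (-θ)) := by
  ext x
  simp only [Sm, Set.mem_ofPred_eq, Set.mem_preimage, inner_Rf hne]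

lemma Sz_eq_preimage (hne : i0 ≠ i1) (θ : ℝ) :
    Sz (pv i0 i1 θ) = (Rf i1) ⁻¹' Sz (pv i0 i1 (-θ)) := by
  ext x
  simp only [Sz, Set.mem_ofPred_eq, Set.mem_preimage, inner_Rf hne]

/-- The box inside the region `⟪x, p⟫ > 1`. -/
def Bp (i0 i1 : Fin d) (θ : ℝ) : Set (EE d) :=
  box (lo i0 i1 (1 - θ / 4) (1 / 2)) (hi i0 i1 1 1)

lemma rho_Bp (hne : i0 ≠ i1) {θ : ℝ} (h0 : 0 < θ) (h1 : θ ≤ 1) :
    rho d (Bp i0 i1 θ) = ENNReal.ofReal (θ / 32) := by
  unfold Bp
  rw [rho_box2 hne (by linarith) (by linarith) le_rfl (by norm_num) (by norm_num) le_rfl]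
  congr 1
  ring

lemma Bp_subset (hne : i0 ≠ i1) {θ : ℝ} (h0 : 0 < θ) : Bp i0 i1 θ ⊆ Sp (pv i0 i1 θ) := by
  intro x hx
  obtain ⟨⟨h1, _⟩, ⟨h3, _⟩⟩ := mem_box2 hx hne
  show 1 < ⟪x, pv i0 i1 θ⟫
  rw [inner_pv]
  nlinarith

lemma pos_Sp (hne : i0 ≠ i1) {θ : ℝ} (h0 : 0 < θ) (h1 : θ ≤ 1) :
    0 < rho d (Sp (pv i0 i1 θ)) := by
  refine lt_of_lt_of_le ?_ (measure_mono (Bp_subset hne h0))
  rw [rho_Bp hne h0 h1, ENNReal.ofReal_pos]
  positivity

lemma pos_Sm (hne : i0 ≠ i1) {θ : ℝ} (h0 : 0 < θ) (h1 : θ ≤ 1) :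
    0 < rho d (Sm (pv i0 i1 θ)) := by
  have hsub : box (lo i0 i1 (-1) (-1)) (hi i0 i1 (-1 + θ / 4) (-1 / 2)) ⊆ Sm (pv i0 i1 θ) := by
    intro x hx
    obtain ⟨⟨_, h2⟩, ⟨_, h4⟩⟩ := mem_box2 hx hne
    show ⟪x, pv i0 i1 θ⟫ < -1
    rw [inner_pv]
    nlinarith
  refine lt_of_lt_of_le ?_ (measure_mono hsub)
  rw [rho_box2 hne le_rfl (by linarith) (by linarith) le_rfl (by norm_num) (by norm_num),
    ENNReal.ofReal_pos]
  have : (-1 + θ / 4 - -1) * (-1 / 2 - -1) / 4 = θ / 32 := by ring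
  rw [this]
  positivity

lemma pos_Sz (hne : i0 ≠ i1) {θ : ℝ} (h0 : 0 < θ) (h1 : θ ≤ 1) :
    0 < rho d (Sz (pv i0 i1 θ)) := by
  have hsub : box (lo i0 i1 (-1 / 4) (-1 / 4)) (hi i0 i1 (1 / 4) (1 / 4)) ⊆ Sz (pv i0 i1 θ) := by
    intro x hx
    obtain ⟨⟨h2, h3⟩, ⟨h4, h5⟩⟩ := mem_box2 hx hne
    show -1 ≤ ⟪x, pv i0 i1 θ⟫ ∧ ⟪x, pv i0 i1 θ⟫ ≤ 1
    rw [inner_pv]
    constructor <;> nlinarith
  refine lt_of_lt_of_le ?_ (measure_mono hsub)
  rw [rho_box2 hne (by norm_num) (by norm_num) (by norm_num) (by norm_num) (by norm_num)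
    (by norm_num), ENNReal.ofReal_pos]
  norm_num

lemma threeAtomic_pos (hne : i0 ≠ i1) {θ : ℝ} (h0 : 0 < θ) (h1 : θ ≤ 1) :
    IsThreeAtomic ((rho d).map (T (pv i0 i1 θ))) :=
  threeAtomic_map_T (pv_ne_zero hne θ) (pos_Sz hne h0 h1) (pos_Sp hne h0 h1) (pos_Sm hne h0 h1)

lemma threeAtomic_neg (hne : i0 ≠ i1) {θ : ℝ} (h0 : 0 < θ) (h1 : θ ≤ 1) :
    IsThreeAtomic ((rho d).map (T (pv i0 i1 (-θ)))) := by
  refine threeAtomic_map_T (pv_ne_zero hne _) ?_ ?_ ?_
  · rw [← measure_preimage_Rf i1 (measurableSet_Sz _), ← Sz_eq_preimage hne]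
    exact pos_Sz hne h0 h1
  · rw [← measure_preimage_Rf i1 (measurableSet_Sp _), ← Sp_eq_preimage hne]
    exact pos_Sp hne h0 h1
  · rw [← measure_preimage_Rf i1 (measurableSet_Sm _), ← Sm_eq_preimage hne]
    exact pos_Sm hne h0 h1

/-- The joint map defining the coupling. -/
noncomputable def Fj (i0 i1 : Fin d) (θ : ℝ) (x : EE d) : EE d × EE d :=
  (T (pv i0 i1 θ) x, T (pv i0 i1 (-θ)) (Rf i1 x))

lemma measurable_Fj (i0 i1 : Fin d) (θ : ℝ) : Measurable (Fj i0 i1 θ) :=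
  (measurable_T _).prodMk ((measurable_T _).comp (Rf i1).continuous.measurable)

lemma coupling_Fj (i0 i1 : Fin d) (θ : ℝ) :
    IsPairCoupling ((rho d).map (T (pv i0 i1 θ))) ((rho d).map (T (pv i0 i1 (-θ))))
      ((rho d).map (Fj i0 i1 θ)) := by
  constructor
  · rw [Measure.map_map measurable_fst (measurable_Fj i0 i1 θ)]
    rfl
  · rw [Measure.map_map measurable_snd (measurable_Fj i0 i1 θ)]
    have : Prod.snd ∘ Fj i0 i1 θ = T (pv i0 i1 (-θ)) ∘ Rf i1 := rfl
    rw [this, ← Measure.map_map (measurable_T _) (Rf i1).continuous.measurable, rho_map_Rf]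

lemma norm_pv_sub {θ : ℝ} (h0 : 0 < θ) :
    ‖pv i0 i1 θ - pv i0 i1 (-θ)‖ ^ 2 ≤ 4 * θ ^ 2 := by
  have h : pv i0 i1 θ - pv i0 i1 (-θ) = (2 * θ) • EuclideanSpace.single i1 (1:ℝ) := by
    unfold pv
    module
  rw [h, norm_smul, PiLp.norm_single]
  simp only [norm_one, mul_one, Real.norm_eq_abs, abs_of_pos (by positivity : 0 < 2 * θ)]
  nlinarith

lemma quad_bound (hne : i0 ≠ i1) {θ : ℝ} (h0 : 0 < θ) (h1 : θ ≤ 1) :
    quadCost ((rho d).map (Fj i0 i1 θ)) ≤ ENNReal.ofReal (4 * θ ^ 3) := by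
  unfold quadCost
  have hmeas : Measurable (fun q : EE d × EE d => ‖q.1 - q.2‖ₑ ^ 2) :=
    ((measurable_fst.sub measurable_snd).enorm).pow_const 2
  rw [lintegral_map hmeas (measurable_Fj i0 i1 θ)]
  set B1 : Set (EE d) := box (lo i0 i1 (1 - θ) (-1)) (hi i0 i1 1 1) with hB1
  set B2 : Set (EE d) := box (lo i0 i1 (-1) (-1)) (hi i0 i1 (-1 + θ) 1) with hB2
  have hD : MeasurableSet (B1 ∪ B2) := (measurableSet_box _ _).union (measurableSet_box _ _)
  have hval : ‖pv i0 i1 θ - pv i0 i1 (-θ)‖ₑ ^ 2 ≤ ENNReal.ofReal (4 * θ ^ 2) := by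
    rw [← ofReal_norm, ← ENNReal.ofReal_pow (norm_nonneg _)]
    exact ENNReal.ofReal_le_ofReal (norm_pv_sub h0)
  calc ∫⁻ x, ‖(Fj i0 i1 θ x).1 - (Fj i0 i1 θ x).2‖ₑ ^ 2 ∂(rho d)
      ≤ ∫⁻ x, (B1 ∪ B2).indicator (fun _ => ENNReal.ofReal (4 * θ ^ 2)) x ∂(rho d) := by
        refine lintegral_mono_ae ?_
        filter_upwards [ae_mem_Q] with x hxQ
        simp only [Fj]
        by_cases hu1 : 1 < ⟪x, pv i0 i1 θ⟫
        · have hT1 : T (pv i0 i1 θ) x = pv i0 i1 θ := T_of_Sp hu1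
          have hT2 : T (pv i0 i1 (-θ)) (Rf i1 x) = pv i0 i1 (-θ) :=
            T_of_Sp (show 1 < ⟪Rf i1 x, pv i0 i1 (-θ)⟫ by rw [inner_Rf hne]; exact hu1)
          have hmem : x ∈ B1 ∪ B2 := by
            left
            have hx1 := abs_le.mp (hxQ i1)
            have hx0 := abs_le.mp (hxQ i0)
            rw [inner_pv] at hu1
            exact mem_box2_of hxQ ⟨by nlinarith, hx0.2⟩ hx1
          rw [hT1, hT2, Set.indicator_of_mem hmem]
          exact hval
        · by_cases hu2 : ⟪x, pv i0 i1 θ⟫ < -1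
          · have hT1 : T (pv i0 i1 θ) x = - pv i0 i1 θ := T_of_Sm hu2
            have hT2 : T (pv i0 i1 (-θ)) (Rf i1 x) = - pv i0 i1 (-θ) :=
              T_of_Sm (show ⟪Rf i1 x, pv i0 i1 (-θ)⟫ < -1 by rw [inner_Rf hne]; exact hu2)
            have hmem : x ∈ B1 ∪ B2 := by
              right
              have hx1 := abs_le.mp (hxQ i1)
              have hx0 := abs_le.mp (hxQ i0)
              rw [inner_pv] at hu2
              exact mem_box2_of hxQ ⟨hx0.1, by nlinarith⟩ hx1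
            rw [hT1, hT2, Set.indicator_of_mem hmem]
            have : - pv i0 i1 θ - - pv i0 i1 (-θ) = -(pv i0 i1 θ - pv i0 i1 (-θ)) := by abel
            rw [this, enorm_neg]
            exact hval
          · have hz : x ∈ Sz (pv i0 i1 θ) := ⟨by linarith, by linarith⟩
            have hT1 : T (pv i0 i1 θ) x = 0 := T_of_Sz hz
            have hT2 : T (pv i0 i1 (-θ)) (Rf i1 x) = 0 := by
              refine T_of_Sz ?_
              show -1 ≤ ⟪Rf i1 x, pv i0 i1 (-θ)⟫ ∧ ⟪Rf i1 x, pv i0 i1 (-θ)⟫ ≤ 1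
              rw [inner_Rf hne]
              exact hz
            rw [hT1, hT2]
            simp
    _ = ENNReal.ofReal (4 * θ ^ 2) * rho d (B1 ∪ B2) := lintegral_indicator_const hD _
    _ ≤ ENNReal.ofReal (4 * θ ^ 2) * ENNReal.ofReal θ := by
        gcongr
        calc rho d (B1 ∪ B2) ≤ rho d B1 + rho d B2 := measure_union_le _ _
          _ = ENNReal.ofReal (θ / 2) + ENNReal.ofReal (θ / 2) := by
              rw [hB1, hB2, rho_box2 hne (by linarith) (by linarith) le_rfl le_rfl (by norm_num)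
                le_rfl, rho_box2 hne le_rfl (by linarith) (by linarith) le_rfl (by norm_num)
                le_rfl]
              congr 2 <;> ring
          _ = ENNReal.ofReal θ := by
              rw [← ENNReal.ofReal_add (by positivity) (by positivity)]
              congr 1
              ring
    _ = ENNReal.ofReal (4 * θ ^ 3) := by
        rw [← ENNReal.ofReal_mul (by positivity)]
        congr 1
        ring

lemma lower_bound (hne : i0 ≠ i1) {θ : ℝ} (h0 : 0 < θ) (h1 : θ ≤ 1)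
    {Tμ Tν : EE d → EE d}
    (hμ : IsOptimalMap (rho d) ((rho d).map (T (pv i0 i1 θ))) Tμ)
    (hν : IsOptimalMap (rho d) ((rho d).map (T (pv i0 i1 (-θ)))) Tν) :
    ENNReal.ofReal (θ / 32) ≤ ∫⁻ x, ‖Tμ x - Tν x‖ₑ ^ 2 ∂(rho d) := by
  have hp := pv_ne_zero hne θ
  have hp' := pv_ne_zero hne (-θ)
  have hμ' := optimal_ae hp ae_norm_le hμ
  have hν' := optimal_ae hp' ae_norm_le hν
  have hmB : MeasurableSet (Bp i0 i1 θ) := measurableSet_box _ _
  rw [← rho_Bp hne h0 h1, ← lintegral_indicator_one hmB]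
  refine lintegral_mono_ae ?_
  filter_upwards [ae_mem_Q, hμ', hν'] with x hxQ hm hn
  by_cases hx : x ∈ Bp i0 i1 θ
  · rw [Set.indicator_of_mem hx]
    simp only [Pi.one_apply]
    obtain ⟨⟨h2, h3⟩, ⟨h4, h5⟩⟩ := mem_box2 hx hne
    have hu : 1 < ⟪x, pv i0 i1 θ⟫ := Bp_subset hne h0 hx
    have hT1 : Tμ x = pv i0 i1 θ := key_eq_pos hp x _ hm.1 hm.2 hu
    have hu' : ⟪x, pv i0 i1 (-θ)⟫ < 1 := by
      rw [inner_pv]
      nlinarith
    have hne2 : Tν x ≠ pv i0 i1 (-θ) := by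
      intro h
      rw [h] at hn
      have := key_eq_lt hp' x hn.2
      linarith
    have hcases : Tν x = 0 ∨ Tν x = - pv i0 i1 (-θ) := by
      have := hn.1
      simp only [atoms, Set.mem_insert_iff, Set.mem_singleton_iff] at this
      rcases this with h | h | h
      · exact Or.inl h
      · exact absurd h hne2
      · exact Or.inr h
    have hcoord : 1 ≤ |(Tμ x - Tν x) i0| := by
      rw [hT1]
      rcases hcases with h | h
      · rw [h]
        simp [pv_apply_i0 hne]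
      · rw [h]
        simp only [PiLp.sub_apply, PiLp.neg_apply, pv_apply_i0 hne]
        norm_num
    have hnorm : 1 ≤ ‖Tμ x - Tν x‖ := by
      refine hcoord.trans ?_
      have := PiLp.norm_apply_le (Tμ x - Tν x) i0
      simpa [Real.norm_eq_abs] using this
    have henorm : 1 ≤ ‖Tμ x - Tν x‖ₑ := by
      rw [← ofReal_norm]
      simpa using ENNReal.ofReal_le_ofReal hnorm
    exact one_le_pow₀ henorm
  · rw [Set.indicator_of_notMem hx]
    exact zero_le

end Final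

/-- The exponent one third is optimal, even on the cube with three-atom targets: for d ≥ 2, ρ the uniform probability measure on the cube of points of ℝᵈ with all coordinates in [-1, 1], every α > 1/3 and every C ≥ 0, there are three-atomic probability measures μ, ν on that cube, each admitting a quadratic optimal transport map from ρ, such that for all such optimal maps Tμ, Tν some coupling π of μ, ν has C · (∫ ‖y - z‖² dπ)^α < ∫ ‖Tμ - Tν‖² dρ. Hence ‖Tμ - Tν‖_{L²(ρ)} > √C · W₂(μ, ν)^α. -/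
theorem result
    (d : ℕ) (hd : 2 ≤ d) (α : ℝ) (hα : 1 / 3 < α) (C : ℝ≥0) :
    ∃ μ ν : Measure (EuclideanSpace ℝ (Fin d)),
      IsProbabilityOn {x : EuclideanSpace ℝ (Fin d) | ∀ i, |x i| ≤ 1} μ ∧
      IsProbabilityOn {x : EuclideanSpace ℝ (Fin d) | ∀ i, |x i| ≤ 1} ν ∧
      IsThreeAtomic μ ∧ IsThreeAtomic ν ∧
      (∃ T, IsOptimalMap (uniformProbOn {x : EuclideanSpace ℝ (Fin d) | ∀ i, |x i| ≤ 1}) μ T) ∧
      (∃ T, IsOptimalMap (uniformProbOn {x : EuclideanSpace ℝ (Fin d) | ∀ i, |x i| ≤ 1}) ν T) ∧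
      ∀ Tμ Tν : EuclideanSpace ℝ (Fin d) → EuclideanSpace ℝ (Fin d),
        IsOptimalMap (uniformProbOn {x : EuclideanSpace ℝ (Fin d) | ∀ i, |x i| ≤ 1}) μ Tμ →
        IsOptimalMap (uniformProbOn {x : EuclideanSpace ℝ (Fin d) | ∀ i, |x i| ≤ 1}) ν Tν →
        ∃ π : Measure (EuclideanSpace ℝ (Fin d) × EuclideanSpace ℝ (Fin d)), IsPairCoupling μ ν π ∧
          (C : ℝ≥0∞) * quadCost π ^ α < ∫⁻ x, ‖Tμ x - Tν x‖ₑ ^ 2 ∂(uniformProbOn {x : EuclideanSpace ℝ (Fin d) | ∀ i, |x i| ≤ 1}) := by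
  obtain ⟨θ, hθ0, hθ1, hineq⟩ := exists_theta α hα C C.2
  have hd0 : 0 < d := by omega
  have hd1 : 1 < d := by omega
  set i0 : Fin d := ⟨0, hd0⟩ with hi0
  set i1 : Fin d := ⟨1, hd1⟩ with hi1
  have hne : i0 ≠ i1 := by
    intro h
    have := congrArg Fin.val h
    simp [hi0, hi1] at this
  have habs : |θ| ≤ 1 := by rw [abs_of_pos hθ0]; exact hθ1
  have habs' : |(-θ)| ≤ 1 := by rw [abs_neg]; exact habs
  refine ⟨(rho d).map (T (pv i0 i1 θ)), (rho d).map (T (pv i0 i1 (-θ))),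
    isProbOn_map hne habs, isProbOn_map hne habs', threeAtomic_pos hne hθ0 hθ1,
    threeAtomic_neg hne hθ0 hθ1,
    ⟨T (pv i0 i1 θ), isOptimal_T (pv_ne_zero hne θ) ae_norm_le⟩,
    ⟨T (pv i0 i1 (-θ)), isOptimal_T (pv_ne_zero hne (-θ)) ae_norm_le⟩, ?_⟩
  intro Tμ Tν hμ hν
  refine ⟨(rho d).map (Fj i0 i1 θ), coupling_Fj i0 i1 θ, ?_⟩
  have hα0 : 0 < α := by linarith
  have hcost : quadCost ((rho d).map (Fj i0 i1 θ)) ^ α ≤ ENNReal.ofReal ((4 * θ ^ 3) ^ α) := by
    rw [← ENNReal.ofReal_rpow_of_nonneg (by positivity) hα0.le]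
    exact ENNReal.rpow_le_rpow (quad_bound hne hθ0 hθ1) hα0.le
  have hC : (C : ℝ≥0∞) = ENNReal.ofReal (C : ℝ) := (ENNReal.ofReal_coe_nnreal).symm
  calc (C : ℝ≥0∞) * quadCost ((rho d).map (Fj i0 i1 θ)) ^ α
      ≤ (C : ℝ≥0∞) * ENNReal.ofReal ((4 * θ ^ 3) ^ α) := by gcongr
    _ = ENNReal.ofReal (((C : ℝ≥0) : ℝ) * (4 * θ ^ 3) ^ α) := by
        rw [ENNReal.ofReal_mul (NNReal.coe_nonneg C), ← hC]
    _ < ENNReal.ofReal (θ / 32) := by
        rw [ENNReal.ofReal_lt_ofReal_iff (by positivity)]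
        exact hineq
    _ ≤ _ := lower_bound hne hθ0 hθ1 hμ hν

end Crest.Agent.S0110
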