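import Crest.Agent.S0112_Bound

set_option autoImplicit false

open Filter MeasureTheory Topology

namespace Crest.Agent.S0112Lib

open Crest.OpAlg

local notation "⟪" x ", " y "⟫" => inner ℂ x y

variable {H : Type*} [NormedAddCommGroup H] [InnerProductSpace ℂ H] [CompleteSpace H]

namespace MD

variable (S : ModularDatum H)

/-- KMS-type control of `‖a⋆ξ‖` on band-limited vectors. -/
lemma star_bound {a : H →L[ℂ] H} (ha : a ∈ S.M) (g : BCF)
    (hg : S.D.apply g (a S.vac) = a S.vac) (E : ℝ)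
    (hE : ∀ u : ℝ, ‖g u‖ * Real.exp (u / 2) ≤ E) :
    ‖star a S.vac‖ ≤ E * ‖a S.vac‖ := by
  have hE0 : 0 ≤ E := (mul_nonneg (norm_nonneg _) (Real.exp_pos _).le).trans (hE 0)
  have h1 := halfExp_of_mem S ha
  rw [← S.J.norm_map]
  apply LC.norm_le_of_cutoff S.D
  intro R
  have h2 := h1 (LC.trap R) (eh (LC.trap R) (LC.hasCompactSupport_trap R)) (fun u => rfl)
  rw [h2]
  conv_lhs => rw [← hg]
  rw [LC.apply_mul_apply]
  refine (LC.norm_apply_apply_le _ _ _).trans ?_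
  refine mul_le_mul_of_nonneg_right ?_ (norm_nonneg _)
  rw [BoundedContinuousFunction.norm_le hE0]
  intro u
  simp only [BoundedContinuousFunction.coe_mul, Pi.mul_apply, eh_apply, norm_mul, LC.trap_apply,
    Complex.norm_real, Real.norm_eq_abs, abs_of_nonneg (LC.trapFun_nonneg R u),
    abs_of_pos (Real.exp_pos _)]
  have h3 := LC.trapFun_le_one R u
  have h4 := LC.trapFun_nonneg R u
  have h5 := hE u
  have h6 : 0 ≤ Real.exp (u / 2) * ‖g u‖ := by positivity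
  calc _ = LC.trapFun R u * (Real.exp (u / 2) * ‖g u‖) := by ring
    _ ≤ 1 * (Real.exp (u / 2) * ‖g u‖) := mul_le_mul_of_nonneg_right h3 h6
    _ = ‖g u‖ * Real.exp (u / 2) := by ring
    _ ≤ E := h5

/-- Monotonicity of the ultrafilter mean up to a constant. -/
lemma ultraMean_le_add (ω : Ultrafilter ℕ) (hω : (ω : Filter ℕ) ≤ atTop) {Φ Ψ : ℝ → ℝ}
    (hΦ : Continuous Φ) (hΨ : Continuous Ψ) {B B' : ℝ} (hΦb : ∀ t, ‖Φ t‖ ≤ B) (hΨb : ∀ t, ‖Ψ t‖ ≤ B')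
    (κ : ℝ) (h : ∀ t, Φ t ≤ Ψ t + κ) :
    ultraMean ω Φ ≤ ultraMean ω Ψ + κ := by
  have h1 := tendsto_ultraMean ω hΦb
  have h2 := (tendsto_ultraMean ω hΨb).add_const κ
  refine le_of_tendsto_of_tendsto h1 h2 ?_
  have h1k : ∀ᶠ k : ℕ in (ω : Filter ℕ), 1 ≤ k := hω (eventually_ge_atTop 1)
  filter_upwards [h1k] with k hk
  have h3 := avg_mono hΦ (hΨ.add (continuous_const (y := κ))) h k
  have hG : Continuous (fun t => Ψ t + κ) := hΨ.add continuous_const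
  have h3' : avg Φ k ≤ avg (fun t => Ψ t + κ) k := avg_mono hΦ hG h k
  rw [avg_add hΨ continuous_const, avg_const _ hk] at h3'
  exact h3'

end MD

/-- The recovery step at a fixed index. -/
lemma recovery_step (S : ModularDatum H) (herg : S.Ergodic)
    (ω : Ultrafilter ℕ) (hω : (ω : Filter ℕ) ≤ atTop)
    (T : H →L[ℂ] H) (s : ℝ)
    (G₁ G₂ : ℝ → ℝ) (hG₁ : Continuous G₁) (hG₂ : Continuous G₂)
    (h0₁ : ∀ u, 0 ≤ G₁ u) (h1₁ : ∀ u, G₁ u ≤ 1) (h0₂ : ∀ u, 0 ≤ G₂ u) (h1₂ : ∀ u, G₂ u ≤ 1)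
    (hG₁1 : ∀ u, |u| ≤ 2 → G₁ u = 1) (hG₁0 : ∀ u, 4 ≤ |u| → G₁ u = 0)
    (hG₂1 : ∀ u, |u| ≤ 1 → G₂ u = 1) (hG₂0 : ∀ u, 2 ≤ |u| → G₂ u = 0)
    (K₁ K₂ : ℝ) (hK₁ : 0 ≤ K₁)
    (loc₁ : ∀ (s δ : ℝ), 0 < δ → ∀ a ∈ S.M, ∃ v ∈ S.M,
        ‖v‖ ≤ K₁ * ‖a‖ ∧ v S.vac = S.D.apply (bump G₁ hG₁ h0₁ h1₁ s δ) (a S.vac))
    (loc₂ : ∀ (s δ : ℝ), 0 < δ → ∀ a ∈ S.M, ∃ v ∈ S.M,
        ‖v‖ ≤ K₂ * ‖a‖ ∧ v S.vac = S.D.apply (bump G₂ hG₂ h0₂ h1₂ s δ) (a S.vac))
    (δ c : ℝ) (hδ : 0 < δ) (hδ1 : δ ≤ 1) (hc : 0 < c) (h : H) (hh : ‖h‖ = 1)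
    (hband : S.D.SupportedIn (Set.Icc (s - δ) (s + δ)) h)
    (hmean : c ≤ ultraMean ω (fun t : ℝ => ‖T (S.D.wave t h)‖ ^ 2)) :
    ∃ v ∈ S.M, ‖v‖ ≤ K₁ ∧ Real.sqrt (c / (2 * (1 + Real.exp (s + 4)))) ≤ ‖T (v S.vac)‖ ∧
      S.D.SupportedIn (Set.Icc (s - 4 * δ) (s + 4 * δ)) (v S.vac) := by
  set g := bump G₁ hG₁ h0₁ h1₁ s δ with hg
  set k := bump G₂ hG₂ h0₂ h1₂ s δ with hk
  have hgk : g * k = k := by
    ext u
    simp only [BoundedContinuousFunction.coe_mul, Pi.mul_apply, hg, hk, bump_apply]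
    by_cases hu : |(u - s) / δ| ≤ 2
    · rw [hG₁1 _ hu]; simp
    · push Not at hu
      rw [hG₂0 _ hu.le]; simp
  have hkband : ∀ u ∈ Set.Icc (s - δ) (s + δ), k u = 1 := by
    intro u hu
    simp only [hk, bump_apply]
    have : |(u - s) / δ| ≤ 1 := by
      rw [abs_div, abs_of_pos hδ, div_le_one hδ, abs_le]
      constructor <;> linarith [hu.1, hu.2]
    rw [hG₂1 _ this]; simp
  have hgout : ∀ u, u ∉ Set.Icc (s - 4 * δ) (s + 4 * δ) → g u = 0 := by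
    intro u hu
    simp only [hg, bump_apply]
    have : 4 ≤ |(u - s) / δ| := by
      rw [abs_div, abs_of_pos hδ, le_div_iff₀ hδ]
      by_contra hlt
      push Not at hlt
      apply hu
      rw [abs_lt] at hlt
      constructor <;> linarith [hlt.1, hlt.2]
    rw [hG₁0 _ this]; simp
  have hgn : ‖g‖ ≤ 1 := norm_bump_le _ _ _ _ _ _
  have hkn : ‖k‖ ≤ 1 := norm_bump_le _ _ _ _ _ _
  have hguniv : ∀ u, ‖g u‖ ≤ 1 := fun u => (g.norm_coe_le_norm u).trans hgn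
  -- the operator L
  set L : H →L[ℂ] H := T * S.D.apply g with hL
  have hLapply : ∀ x, L x = T (S.D.apply g x) := fun x => rfl
  -- the LUB
  set A : Set ℝ := {r : ℝ | ∃ w : H →L[ℂ] H, w ∈ S.M ∧ w ∈ unitary (H →L[ℂ] H) ∧
      r = ‖L (w S.vac)‖ ^ 2} with hA
  have hAne : A.Nonempty := ⟨_, 1, S.M.one_mem', one_mem _, rfl⟩
  have hAbd : BddAbove A := by
    refine ⟨(‖L‖ * 1) ^ 2, ?_⟩
    rintro _ ⟨w, _, hwu, rfl⟩
    apply pow_le_pow_left₀ (norm_nonneg _)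
    calc _ ≤ ‖L‖ * ‖w S.vac‖ := L.le_opNorm _
      _ = ‖L‖ * 1 := by rw [ContinuousLinearMap.norm_map_of_mem_unitary hwu, S.norm_vac]
  set N := sSup A with hN
  have hNlub : IsLUB A N := isLUB_csSup hAne hAbd
  have hN0 : 0 ≤ N := by
    obtain ⟨r, hr⟩ := hAne
    refine le_trans ?_ (hNlub.1 hr)
    obtain ⟨w, _, _, rfl⟩ := hr
    positivity
  set E₀ := 1 + Real.exp (s + 4) with hE₀
  have hE₀pos : 0 < E₀ := by positivity
  -- the lower bound for N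
  have hNlow : c ≤ N * E₀ := by
    set Q := 3 * (N * E₀) + 5 * ‖T‖ ^ 2 with hQ
    have hQ0 : 0 ≤ Q := by positivity
    have key : ∀ ε : ℝ, 0 < ε → ε ≤ 1 → c ≤ N * E₀ + ε * Q := by
      intro ε hε hε1
      -- approximate h
      obtain ⟨_, ⟨a₀, rfl⟩, ha₀⟩ := S.cyclic.exists_dist_lt h hε
      have ha₀M : (a₀ : H →L[ℂ] H) ∈ S.M := a₀.2
      obtain ⟨a, haM, -, haxi⟩ := loc₂ s δ hδ _ ha₀M
      set z := a S.vac with hz
      have haxi' : z = S.D.apply k ((a₀ : H →L[ℂ] H) S.vac) := haxi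
      -- k(D) h = h
      have hkh : S.D.apply k h = h := by
        have h1 : S.D.apply (1 - k) h = 0 := by
          apply hband
          intro u hu
          simp [hkband u hu]
        rw [map_sub, map_one] at h1
        have h2 : h - S.D.apply k h = 0 := h1
        rw [sub_eq_zero] at h2
        exact h2.symm
      have hzh : ‖z - h‖ ≤ ε := by
        rw [haxi']
        conv_lhs => rw [← hkh]
        rw [← map_sub]
        refine (LC.norm_apply_apply_le _ _ _).trans ?_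
        have h1 : ‖(a₀ : H →L[ℂ] H) S.vac - h‖ ≤ ε := by
          rw [← dist_eq_norm, dist_comm]; exact ha₀.le
        calc _ ≤ 1 * ε := mul_le_mul hkn h1 (norm_nonneg _) zero_le_one
          _ = ε := one_mul _
      have hzn : ‖z‖ ≤ 1 + ε := by
        have := norm_sub_le (z - h) (-h)
        simp only [sub_neg_eq_add, sub_add_cancel, norm_neg, hh] at this
        linarith
      have hgz : S.D.apply g z = z := by
        rw [haxi', LC.apply_mul_apply, hgk]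
      -- star bound
      have hstar : ‖star a S.vac‖ ≤ Real.exp ((s + 4) / 2) * ‖z‖ := by
        apply MD.star_bound S haM g hgz
        intro u
        by_cases hu : u ∈ Set.Icc (s - 4 * δ) (s + 4 * δ)
        · have h1 : Real.exp (u / 2) ≤ Real.exp ((s + 4) / 2) := by
            apply Real.exp_le_exp.2
            have := hu.2
            linarith
          calc _ ≤ 1 * Real.exp ((s + 4) / 2) :=
                mul_le_mul (hguniv u) h1 (Real.exp_pos _).le zero_le_one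
            _ = _ := one_mul _
        · rw [hgout u hu]
          simp [(Real.exp_pos _).le]
      -- mean bound
      have hmb := MD.mean_bound S herg ω hω L N hNlub haM
      have hLw : (fun t : ℝ => ‖L (S.D.wave t z)‖ ^ 2) = fun t : ℝ => ‖T (S.D.wave t z)‖ ^ 2 := by
        funext t
        rw [hLapply, ← LC.wave_apply_comm, hgz]
      rw [hLw] at hmb
      have hstar2 : ‖star a S.vac‖ ^ 2 ≤ Real.exp (s + 4) * ‖z‖ ^ 2 := by
        have h1 := pow_le_pow_left₀ (norm_nonneg _) hstar 2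
        have h2 : (Real.exp ((s + 4) / 2) * ‖z‖) ^ 2 = Real.exp (s + 4) * ‖z‖ ^ 2 := by
          rw [mul_pow, ← Real.exp_nat_mul]
          congr 2
          push_cast
          ring
        linarith
      have hmb2 : ultraMean ω (fun t : ℝ => ‖T (S.D.wave t z)‖ ^ 2) ≤ N * E₀ * ‖z‖ ^ 2 := by
        refine hmb.trans ?_
        rw [mul_assoc]
        apply mul_le_mul_of_nonneg_left _ hN0
        rw [hE₀]
        linarith
      -- comparison with h
      have hcmp := MD.ultraMean_le_add ω hω (MD.continuous_normsq S T h) (MD.continuous_normsq S T z)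
        (MD.bound_normsq S T h) (MD.bound_normsq S T z) (‖T‖ ^ 2 * (5 * ε)) (fun t => by
          have h1 : ‖T (S.D.wave t h)‖ ≤ ‖T‖ * 1 := by
            calc _ ≤ ‖T‖ * ‖S.D.wave t h‖ := T.le_opNorm _
              _ = ‖T‖ * 1 := by rw [LC.norm_wave_apply, hh]
          have h2 : ‖T (S.D.wave t z)‖ ≤ ‖T‖ * (1 + ε) := by
            calc _ ≤ ‖T‖ * ‖S.D.wave t z‖ := T.le_opNorm _
              _ = ‖T‖ * ‖z‖ := by rw [LC.norm_wave_apply]
              _ ≤ _ := mul_le_mul_of_nonneg_left hzn (norm_nonneg _)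
          have h3 : ‖T (S.D.wave t h)‖ ≤ ‖T (S.D.wave t z)‖ + ‖T‖ * ε := by
            have h4 : ‖T (S.D.wave t h) - T (S.D.wave t z)‖ ≤ ‖T‖ * ε := by
              rw [← map_sub, ← map_sub]
              calc _ ≤ ‖T‖ * ‖S.D.wave t (h - z)‖ := T.le_opNorm _
                _ = ‖T‖ * ‖h - z‖ := by rw [LC.norm_wave_apply]
                _ ≤ _ := mul_le_mul_of_nonneg_left (by rwa [norm_sub_rev]) (norm_nonneg _)
            have h5 := norm_sub_norm_le (T (S.D.wave t h)) (T (S.D.wave t z))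
            linarith
          have hT := norm_nonneg T
          have h6 := norm_nonneg (T (S.D.wave t z))
          have h7 := norm_nonneg (T (S.D.wave t h))
          have h8 : ‖T (S.D.wave t h)‖ ^ 2 ≤ (‖T (S.D.wave t z)‖ + ‖T‖ * ε) ^ 2 :=
            pow_le_pow_left₀ h7 h3 2
          have h9 : 2 * ‖T (S.D.wave t z)‖ * (‖T‖ * ε) ≤ 2 * (‖T‖ * (1 + ε)) * (‖T‖ * ε) := by
            have := mul_nonneg hT hε.le
            nlinarith
          have h10 : ε ^ 2 ≤ ε := by nlinarith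
          have h11 : 0 ≤ ‖T‖ ^ 2 := by positivity
          have h12 : ‖T‖ ^ 2 * ε ^ 2 ≤ ‖T‖ ^ 2 * ε := mul_le_mul_of_nonneg_left h10 h11
          have h13 : (‖T (S.D.wave t z)‖ + ‖T‖ * ε) ^ 2 = ‖T (S.D.wave t z)‖ ^ 2 +
              2 * ‖T (S.D.wave t z)‖ * (‖T‖ * ε) + ‖T‖ ^ 2 * ε ^ 2 := by ring
          have h14 : 2 * (‖T‖ * (1 + ε)) * (‖T‖ * ε) = 2 * (‖T‖ ^ 2 * ε) + 2 * (‖T‖ ^ 2 * ε ^ 2) := by
            ring
          have h15 : ‖T‖ ^ 2 * (5 * ε) = 5 * (‖T‖ ^ 2 * ε) := by ring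
          rw [h15]
          linarith)
      -- conclusion
      have hzsq : ‖z‖ ^ 2 ≤ 1 + 3 * ε := by
        have h1 := pow_le_pow_left₀ (norm_nonneg _) hzn 2
        nlinarith
      have hNE0 : 0 ≤ N * E₀ := by positivity
      have h13 : N * E₀ * ‖z‖ ^ 2 ≤ N * E₀ * (1 + 3 * ε) := mul_le_mul_of_nonneg_left hzsq hNE0
      rw [hQ]
      have h14 : ε * (3 * (N * E₀) + 5 * ‖T‖ ^ 2) = N * E₀ * (3 * ε) + ‖T‖ ^ 2 * (5 * ε) := by ring
      rw [h14]
      linarith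
    apply le_of_forall_pos_le_add
    intro κ hκ
    set ε := min 1 (κ / (Q + 1)) with hε
    have hεpos : 0 < ε := by positivity
    have hε1 : ε ≤ 1 := min_le_left _ _
    have hε2 : ε * Q ≤ κ := by
      have h1 : ε ≤ κ / (Q + 1) := min_le_right _ _
      rw [le_div_iff₀ (by positivity)] at h1
      nlinarith
    have := key ε hεpos hε1
    linarith
  -- pick a near-maximising unitary
  set η₀sq := c / (2 * E₀) with hη₀sq
  have hη₀pos : 0 < η₀sq := by positivity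
  have hlt : η₀sq < N := by
    have h1 : η₀sq * (2 * E₀) = c := by
      rw [hη₀sq]; field_simp
    by_contra hle
    push Not at hle
    have h2 : N * E₀ ≤ η₀sq * E₀ := mul_le_mul_of_nonneg_right hle hE₀pos.le
    have h3 : 0 < η₀sq * E₀ := by positivity
    linarith
  obtain ⟨r, ⟨w, hwM, hwu, rfl⟩, hr⟩ := (lt_isLUB_iff hNlub).1 hlt
  obtain ⟨v, hvM, hvn, hvxi⟩ := loc₁ s δ hδ w hwM
  refine ⟨v, hvM, ?_, ?_, ?_⟩
  · have hwn : ‖w‖ ≤ 1 := by
      apply ContinuousLinearMap.opNorm_le_bound _ zero_le_one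
      intro x
      rw [ContinuousLinearMap.norm_map_of_mem_unitary hwu, one_mul]
    calc _ ≤ K₁ * ‖w‖ := hvn
      _ ≤ K₁ * 1 := mul_le_mul_of_nonneg_left hwn hK₁
      _ = K₁ := mul_one _
  · rw [hvxi, ← hLapply]
    apply Real.sqrt_le_iff.2
    exact ⟨norm_nonneg _, hr.le⟩
  · intro f hf
    rw [hvxi, LC.apply_mul_apply]
    have : f * g = 0 := by
      ext u
      simp only [BoundedContinuousFunction.coe_mul, Pi.mul_apply,
        BoundedContinuousFunction.coe_zero, Pi.zero_apply]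
      by_cases hu : u ∈ Set.Icc (s - 4 * δ) (s + 4 * δ)
      · rw [hf u hu, zero_mul]
      · rw [hgout u hu, mul_zero]
    rw [this, map_zero]
    rfl

/-- The theorem: bounded recovery. -/
theorem bounded_recovery
    (S : ModularDatum H) (herg : S.Ergodic)
    (ω : Ultrafilter ℕ) (hω : (ω : Filter ℕ) ≤ Filter.atTop)
    (T : H →L[ℂ] H) (s : ℝ) (δ : ℕ → ℝ) (hδ : ∀ n, 0 < δ n)
    (hδ0 : Filter.Tendsto δ Filter.atTop (nhds 0))
    (h : ℕ → H) (hh : ∀ n, ‖h n‖ = 1)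
    (hband : ∀ n, S.D.SupportedIn (Set.Icc (s - δ n) (s + δ n)) (h n))
    (hpos : ∃ c : ℝ, 0 < c ∧ ∃ᶠ n in Filter.atTop,
      c ≤ ultraMean ω (fun t : ℝ => ‖T (S.D.wave t (h n))‖ ^ 2)) :
    ∃ (n' : ℕ → ℕ) (v : ℕ → (H →L[ℂ] H)) (C η : ℝ), StrictMono n' ∧ 0 < η ∧
      ∀ j : ℕ, v j ∈ S.M ∧ ‖v j‖ ≤ C ∧ η ≤ ‖T (v j S.vac)‖ ∧
        S.D.SupportedIn (Set.Icc (s - 4 * δ (n' j)) (s + 4 * δ (n' j))) (v j S.vac) := by
  obtain ⟨c, hc, hfreq⟩ := hpos
  obtain ⟨K₁, G₁, hG₁, h0₁, h1₁, hG₁1, hG₁0, hK₁, loc₁⟩ :=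
    exists_localiser (H := H) 2 4 (by norm_num) (by norm_num)
  obtain ⟨K₂, G₂, hG₂, h0₂, h1₂, hG₂1, hG₂0, hK₂, loc₂⟩ :=
    exists_localiser (H := H) 1 2 (by norm_num) (by norm_num)
  have hev : ∀ᶠ n in atTop, δ n ≤ 1 :=
    hδ0.eventually (ge_mem_nhds (by norm_num : (0 : ℝ) < 1))
  obtain ⟨n', hn', hP⟩ := Filter.extraction_of_frequently_atTop (hfreq.and_eventually hev)
  have hstep : ∀ j, ∃ v ∈ S.M, ‖v‖ ≤ K₁ ∧
      Real.sqrt (c / (2 * (1 + Real.exp (s + 4)))) ≤ ‖T (v S.vac)‖ ∧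
      S.D.SupportedIn (Set.Icc (s - 4 * δ (n' j)) (s + 4 * δ (n' j))) (v S.vac) := by
    intro j
    exact recovery_step S herg ω hω T s G₁ G₂ hG₁ hG₂ h0₁ h1₁ h0₂ h1₂ hG₁1 hG₁0 hG₂1 hG₂0
      K₁ K₂ hK₁ (loc₁ S) (loc₂ S) (δ (n' j)) c (hδ _) (hP j).2 hc (h (n' j)) (hh _) (hband _)
      (hP j).1
  choose v hvM hvn hvT hvS using hstep
  refine ⟨n', v, K₁, Real.sqrt (c / (2 * (1 + Real.exp (s + 4)))), hn', ?_, fun j =>
    ⟨hvM j, hvn j, hvT j, hvS j⟩⟩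
  apply Real.sqrt_pos.2
  positivity

end Crest.Agent.S0112Lib
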