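import Crest.Agent.S0112_Var

set_option autoImplicit false

open Filter MeasureTheory Topology

namespace Crest.Agent.S0112Lib

open Crest.OpAlg

local notation "⟪" x ", " y "⟫" => inner ℂ x y

variable {H : Type*} [NormedAddCommGroup H] [InnerProductSpace ℂ H] [CompleteSpace H]

lemma inner_star_left' (A : H →L[ℂ] H) (x y : H) : ⟪star A x, y⟫ = ⟪x, A y⟫ := by
  rw [ContinuousLinearMap.star_eq_adjoint, ContinuousLinearMap.adjoint_inner_left]

lemma inner_star_right' (A : H →L[ℂ] H) (x y : H) : ⟪x, star A y⟫ = ⟪A x, y⟫ := by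
  rw [ContinuousLinearMap.star_eq_adjoint, ContinuousLinearMap.adjoint_inner_right]

namespace MD

variable (S : ModularDatum H)

lemma continuous_normsq (L : H →L[ℂ] H) (z : H) :
    Continuous (fun t : ℝ => ‖L (S.D.wave t z)‖ ^ 2) :=
  ((L.continuous.comp (LC.continuous_wave_apply S.D z)).norm).pow 2

lemma bound_normsq (L : H →L[ℂ] H) (z : H) (t : ℝ) :
    ‖‖L (S.D.wave t z)‖ ^ 2‖ ≤ (‖L‖ * ‖z‖) ^ 2 := by
  rw [Real.norm_eq_abs, abs_of_nonneg (by positivity)]
  have h1 : ‖L (S.D.wave t z)‖ ≤ ‖L‖ * ‖z‖ := by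
    calc _ ≤ ‖L‖ * ‖S.D.wave t z‖ := L.le_opNorm _
      _ ≤ _ := mul_le_mul_of_nonneg_left (LC.norm_wave_apply_le _ _ _) (norm_nonneg _)
  exact pow_le_pow_left₀ (norm_nonneg _) h1 2

/-- The main inequality: the mean is controlled by the supremum over unitaries. -/
lemma mean_bound (herg : S.Ergodic) (ω : Ultrafilter ℕ) (hω : (ω : Filter ℕ) ≤ atTop)
    (L : H →L[ℂ] H) (N : ℝ)
    (hN : IsLUB {r : ℝ | ∃ w : H →L[ℂ] H, w ∈ S.M ∧ w ∈ unitary (H →L[ℂ] H) ∧
      r = ‖L (w S.vac)‖ ^ 2} N)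
    {a : H →L[ℂ] H} (ha : a ∈ S.M) :
    ultraMean ω (fun t : ℝ => ‖L (S.D.wave t (a S.vac))‖ ^ 2) ≤
      N * (‖a S.vac‖ ^ 2 + ‖star a S.vac‖ ^ 2) := by
  apply le_of_forall_pos_le_add
  intro η' hη'
  set η := η' / 4 with hη
  have hηpos : 0 < η := by positivity
  obtain ⟨ε, hε, hsv⟩ := second_variation L S.M S.vac S.norm_vac ‖a‖ (norm_nonneg _) η hηpos
  -- near-maximiser
  obtain ⟨r, ⟨w, hwM, hwu, rfl⟩, hr⟩ := (lt_isLUB_iff hN).1 (show N - ε < N by linarith)
  have hmax : ∀ w' : H →L[ℂ] H, w' ∈ S.M → w' ∈ unitary (H →L[ℂ] H) →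
      ‖L (w' S.vac)‖ ^ 2 ≤ ‖L (w S.vac)‖ ^ 2 + ε := by
    intro w' h1 h2
    have h3 : ‖L (w' S.vac)‖ ^ 2 ≤ N := hN.1 ⟨w', h1, h2, rfl⟩
    linarith
  have hsv' := hsv w hwM hwu hmax
  have hpN : ‖L (w S.vac)‖ ^ 2 ≤ N := hN.1 ⟨w, hwM, hwu, rfl⟩
  set p := L (w S.vac) with hp
  set xL := star L p with hxL
  set z := a S.vac with hz
  set z' := star a S.vac with hz'
  -- pointwise inequality
  have hpt : ∀ t : ℝ, ‖L (S.D.wave t z)‖ ^ 2 ≤
      (corr S.D (star a * a) (star w xL) S.vac t).re +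
      (corr S.D (a * star a) xL (w S.vac) t).re + 4 * η := by
    intro t
    set b := S.D.wave t * a * S.D.wave (-t) with hbdef
    have hbM : b ∈ S.M := S.flow_mem t a ha
    have hbn : ‖b‖ ≤ ‖a‖ := by
      calc ‖b‖ ≤ ‖S.D.wave t * a‖ * ‖S.D.wave (-t)‖ := norm_mul_le _ _
        _ ≤ (‖S.D.wave t‖ * ‖a‖) * ‖S.D.wave (-t)‖ :=
            mul_le_mul_of_nonneg_right (norm_mul_le _ _) (norm_nonneg _)
        _ ≤ (1 * ‖a‖) * 1 := mul_le_mul (mul_le_mul_of_nonneg_right (LC.norm_wave_le _ _)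
            (norm_nonneg _)) (LC.norm_wave_le _ _) (norm_nonneg _) (by positivity)
        _ = ‖a‖ := by ring
    have hgt := gt_inequality L S.M S.vac w hwM hwu ‖a‖ η hsv' b hbM hbn
    have hbstar : star b = S.D.wave t * star a * S.D.wave (-t) := by
      rw [hbdef, star_mul, star_mul, LC.star_wave, LC.star_wave, neg_neg, mul_assoc]
    have hbxi : b S.vac = S.D.wave t z := flow_apply_vac S t a
    have hww : ∀ (y : H), S.D.wave (-t) (S.D.wave t y) = y := by
      intro y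
      rw [LC.wave_wave, neg_add_cancel, LC.wave_zero]
    have e1 : star b (b S.vac) = S.D.wave t ((star a * a) (S.D.wave (-t) S.vac)) := by
      rw [hbstar]
      change S.D.wave t (star a (S.D.wave (-t) (b S.vac))) = _
      rw [hbxi, hww, wave_vac]
      rfl
    have e2 : b (star b (w S.vac)) =
        S.D.wave t ((a * star a) (S.D.wave (-t) (w S.vac))) := by
      rw [hbstar]
      change S.D.wave t (a (S.D.wave (-t) (S.D.wave t (star a (S.D.wave (-t) (w S.vac)))))) = _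
      rw [hww]
      rfl
    have e3 : ⟪p, L (w (star b (b S.vac)))⟫ = corr S.D (star a * a) (star w xL) S.vac t := by
      rw [e1, corr, hxL, inner_star_left', inner_star_left']
    have e4 : ⟪p, L (b (star b (w S.vac)))⟫ = corr S.D (a * star a) xL (w S.vac) t := by
      rw [e2, corr, hxL, inner_star_left']
    have hgt' : ‖L (b S.vac)‖ ^ 2 ≤ (⟪p, L (w (star b (b S.vac)))⟫).re +
        (⟪p, L (b (star b (w S.vac)))⟫).re + 4 * η := hgt
    rw [e3, e4, hbxi] at hgt'
    exact hgt'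
  -- limits
  have hlim1 := mean_tendsto S herg ω hω (b := star a * a) (mul_mem (star_mem ha) ha)
    (star w xL) S.vac
  have hlim2 := mean_tendsto S herg ω hω (b := a * star a) (mul_mem ha (star_mem ha))
    xL (w S.vac)
  have hcont1 := continuous_corr S.D (star a * a) (star w xL) S.vac
  have hcont2 := continuous_corr S.D (a * star a) xL (w S.vac)
  have hU := tendsto_ultraMean ω (bound_normsq S L z)
  -- real parts
  have hlim3 : Tendsto (fun k => avg (fun t => (corr S.D (star a * a) (star w xL) S.vac t).re) k)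
      ω (𝓝 (⟪S.vac, (star a * a) S.vac⟫ * ⟪star w xL, S.vac⟫).re) := by
    have := (Complex.continuous_re.tendsto _).comp hlim1
    refine this.congr fun k => ?_
    have h3 := avg_clm Complex.reCLM hcont1 k
    simpa using h3.symm
  have hlim4 : Tendsto (fun k => avg (fun t => (corr S.D (a * star a) xL (w S.vac) t).re) k)
      ω (𝓝 (⟪S.vac, (a * star a) S.vac⟫ * ⟪xL, w S.vac⟫).re) := by
    have := (Complex.continuous_re.tendsto _).comp hlim2
    refine this.congr fun k => ?_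
    have h3 := avg_clm Complex.reCLM hcont2 k
    simpa using h3.symm
  have hre1 : Continuous (fun t => (corr S.D (star a * a) (star w xL) S.vac t).re) :=
    Complex.continuous_re.comp hcont1
  have hre2 : Continuous (fun t => (corr S.D (a * star a) xL (w S.vac) t).re) :=
    Complex.continuous_re.comp hcont2
  -- evaluate the limit constants
  have hval0 : ⟪xL, w S.vac⟫ = ((‖p‖ ^ 2 : ℝ) : ℂ) := by
    rw [hxL, inner_star_left', ← hp, inner_self_eq_norm_sq_to_K]
    simp
  have hval1 : ⟪star w xL, S.vac⟫ = ((‖p‖ ^ 2 : ℝ) : ℂ) := by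
    rw [inner_star_left']
    exact hval0
  have hval2 : ⟪S.vac, (star a * a) S.vac⟫ = ((‖z‖ ^ 2 : ℝ) : ℂ) := by
    change ⟪S.vac, star a (a S.vac)⟫ = _
    rw [inner_star_right', ← hz, inner_self_eq_norm_sq_to_K]
    simp
  have hval3 : ⟪S.vac, (a * star a) S.vac⟫ = ((‖z'‖ ^ 2 : ℝ) : ℂ) := by
    change ⟪S.vac, a (star a S.vac)⟫ = _
    have h5 : ⟪S.vac, a (star a S.vac)⟫ = ⟪star a S.vac, star a S.vac⟫ := by
      rw [inner_star_left']
    rw [h5, ← hz', inner_self_eq_norm_sq_to_K]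
    simp
  rw [hval1, hval2, ← Complex.ofReal_mul, Complex.ofReal_re] at hlim3
  rw [hval0, hval3, ← Complex.ofReal_mul, Complex.ofReal_re] at hlim4
  -- pass to the limit
  have hsum := (hlim3.add hlim4).add_const (4 * η)
  have hineq : ∀ᶠ k : ℕ in (ω : Filter ℕ), avg (fun t : ℝ => ‖L (S.D.wave t z)‖ ^ 2) k ≤
      avg (fun t => (corr S.D (star a * a) (star w xL) S.vac t).re) k +
      avg (fun t => (corr S.D (a * star a) xL (w S.vac) t).re) k + 4 * η := by
    have h1k : ∀ᶠ k : ℕ in (ω : Filter ℕ), 1 ≤ k := hω (eventually_ge_atTop 1)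
    filter_upwards [h1k] with k hk
    have hG1 : Continuous (fun t => (corr S.D (star a * a) (star w xL) S.vac t).re +
        (corr S.D (a * star a) xL (w S.vac) t).re) := hre1.add hre2
    have hG2 : Continuous (fun t => (corr S.D (star a * a) (star w xL) S.vac t).re +
        (corr S.D (a * star a) xL (w S.vac) t).re + 4 * η) := hG1.add continuous_const
    have h6 := avg_mono (continuous_normsq S L z) hG2 hpt k
    rw [avg_add hG1 (continuous_const (y := 4 * η)), avg_add hre1 hre2, avg_const _ hk] at h6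
    exact h6
  have hfinal := le_of_tendsto_of_tendsto hU hsum hineq
  have h7 : ‖z‖ ^ 2 * ‖p‖ ^ 2 + ‖z'‖ ^ 2 * ‖p‖ ^ 2 ≤ N * (‖z‖ ^ 2 + ‖z'‖ ^ 2) := by
    have h8 : 0 ≤ ‖z‖ ^ 2 + ‖z'‖ ^ 2 := by positivity
    have h9 := mul_le_mul_of_nonneg_right hpN h8
    linarith
  have h10 : 4 * η = η' := by rw [hη]; ring
  linarith

end MD

end Crest.Agent.S0112Lib
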