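import Crest.Prelude.Def_ModularData

set_option autoImplicit false

open Filter MeasureTheory Topology

namespace Crest.Agent.S0112Lib

open Crest.OpAlg

abbrev BCF := BoundedContinuousFunction ℝ ℂ

local notation "⟪" x ", " y "⟫" => inner ℂ x y

variable {H : Type*} [NormedAddCommGroup H] [InnerProductSpace ℂ H] [CompleteSpace H]

/-- Build a bounded continuous function from a compactly supported continuous one. -/
noncomputable def cs (f : ℝ → ℂ) (hf : Continuous f) (hc : HasCompactSupport f) : BCF :=
  BoundedContinuousFunction.ofNormedAddCommGroup f hf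
    (Classical.choose (hc.exists_bound_of_continuous hf))
    (Classical.choose_spec (hc.exists_bound_of_continuous hf))

@[simp] lemma cs_apply (f : ℝ → ℂ) (hf : Continuous f) (hc : HasCompactSupport f) (u : ℝ) :
    cs f hf hc u = f u := rfl

/-- Everything in the support of a compactly supported function is bounded. -/
lemma exists_radius {f : ℝ → ℂ} (hc : HasCompactSupport f) :
    ∃ R : ℝ, 0 < R ∧ ∀ u : ℝ, R ≤ |u| → f u = 0 := by
  obtain ⟨R, hR⟩ := hc.isCompact.isBounded.subset_closedBall (0 : ℝ)
  refine ⟨|R| + 1, by positivity, fun u hu => ?_⟩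
  by_contra hne
  have h1 : u ∈ tsupport f := subset_tsupport f hne
  have h2 := hR h1
  simp only [Metric.mem_closedBall, Real.dist_eq, sub_zero] at h2
  have := le_abs_self R
  linarith

lemma charApply (t u : ℝ) :
    LineCalculus.character t u = Complex.exp (Complex.I * ((t * u : ℝ) : ℂ)) := rfl

lemma character_mul (s t : ℝ) :
    LineCalculus.character s * LineCalculus.character t = LineCalculus.character (s + t) := by
  ext u
  simp only [BoundedContinuousFunction.coe_mul, Pi.mul_apply, charApply, ← Complex.exp_add]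
  congr 1
  push_cast
  ring

lemma character_zero : LineCalculus.character 0 = (1 : BCF) := by
  ext u
  simp [charApply]

lemma star_character (t : ℝ) : star (LineCalculus.character t) = LineCalculus.character (-t) := by
  ext u
  simp only [BoundedContinuousFunction.star_apply, charApply, Complex.star_def,
    ← Complex.exp_conj]
  congr 1
  simp only [map_mul, Complex.conj_I, Complex.conj_ofReal]
  push_cast
  ring

lemma norm_character_le (t : ℝ) : ‖LineCalculus.character t‖ ≤ 1 := by
  rw [BoundedContinuousFunction.norm_le zero_le_one]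
  intro u
  rw [charApply, mul_comm, Complex.norm_exp_ofReal_mul_I]

namespace LC

variable (D : LineCalculus H)

lemma norm_apply_le (f : BCF) : ‖D.apply f‖ ≤ ‖f‖ :=
  NonUnitalStarAlgHom.norm_apply_le D.apply f

lemma norm_apply_apply_le (f : BCF) (x : H) : ‖D.apply f x‖ ≤ ‖f‖ * ‖x‖ :=
  ((D.apply f).le_opNorm x).trans (mul_le_mul_of_nonneg_right (norm_apply_le D f) (norm_nonneg x))

lemma apply_mul_apply (f g : BCF) (x : H) : D.apply f (D.apply g x) = D.apply (f * g) x := by
  rw [map_mul]; rfl

lemma apply_one (x : H) : D.apply 1 x = x := by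
  rw [map_one]; rfl

lemma apply_comm (f g : BCF) (x : H) : D.apply f (D.apply g x) = D.apply g (D.apply f x) := by
  rw [apply_mul_apply, apply_mul_apply, mul_comm]

lemma wave_eq (t : ℝ) : D.wave t = D.apply (LineCalculus.character t) := rfl

lemma wave_wave (s t : ℝ) (x : H) : D.wave s (D.wave t x) = D.wave (s + t) x := by
  simp only [wave_eq, apply_mul_apply, character_mul]

lemma wave_zero (x : H) : D.wave 0 x = x := by
  rw [wave_eq, character_zero, apply_one]

lemma star_wave (t : ℝ) : star (D.wave t) = D.wave (-t) := by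
  rw [wave_eq, wave_eq, ← map_star, star_character]

lemma norm_wave_le (t : ℝ) : ‖D.wave t‖ ≤ 1 :=
  (norm_apply_le D _).trans (norm_character_le t)

lemma norm_wave_apply_le (t : ℝ) (x : H) : ‖D.wave t x‖ ≤ ‖x‖ := by
  have := (D.wave t).le_opNorm x
  have h2 := mul_le_mul_of_nonneg_right (norm_wave_le D t) (norm_nonneg x)
  linarith

lemma norm_wave_apply (t : ℝ) (x : H) : ‖D.wave t x‖ = ‖x‖ := by
  apply le_antisymm (norm_wave_apply_le D t x)
  have := norm_wave_apply_le D (-t) (D.wave t x)
  rwa [wave_wave, neg_add_cancel, wave_zero] at this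

lemma wave_apply_comm (t : ℝ) (f : BCF) (x : H) :
    D.wave t (D.apply f x) = D.apply f (D.wave t x) := by
  rw [wave_eq, apply_comm]

lemma inner_wave (t : ℝ) (x y : H) : ⟪D.wave t x, y⟫ = ⟪x, D.wave (-t) y⟫ := by
  rw [← star_wave, ContinuousLinearMap.star_eq_adjoint, ContinuousLinearMap.adjoint_inner_right]

lemma inner_apply (f : BCF) (x y : H) : ⟪D.apply f x, y⟫ = ⟪x, D.apply (star f) y⟫ := by
  rw [map_star, ContinuousLinearMap.star_eq_adjoint, ContinuousLinearMap.adjoint_inner_right]

/-- The map t ↦ character t * ℓ is norm-continuous for compactly supported ℓ. -/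
lemma continuous_character_mul (ℓ : BCF) (hℓ : HasCompactSupport (ℓ : ℝ → ℂ)) :
    Continuous (fun t : ℝ => LineCalculus.character t * ℓ) := by
  obtain ⟨R, hR, hRz⟩ := exists_radius hℓ
  have hKnn : 0 ≤ R * ‖ℓ‖ := mul_nonneg hR.le (norm_nonneg _)
  have hL : LipschitzWith (R * ‖ℓ‖).toNNReal (fun t : ℝ => LineCalculus.character t * ℓ) := by
    apply LipschitzWith.of_dist_le_mul
    intro s t
    rw [dist_eq_norm, Real.coe_toNNReal _ hKnn, Real.dist_eq,
      BoundedContinuousFunction.norm_le (mul_nonneg hKnn (abs_nonneg _))]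
    intro u
    simp only [BoundedContinuousFunction.coe_sub, BoundedContinuousFunction.coe_mul, Pi.sub_apply,
      Pi.mul_apply]
    by_cases hu : R ≤ |u|
    · rw [hRz u hu]
      simp only [mul_zero, sub_self, norm_zero]
      exact mul_nonneg hKnn (abs_nonneg _)
    · push Not at hu
      have h1 : ‖LineCalculus.character s u - LineCalculus.character t u‖ ≤ |s - t| * R := by
        have h2 : LineCalculus.character s u - LineCalculus.character t u =
            LineCalculus.character t u *
              (Complex.exp (Complex.I * (((s - t) * u : ℝ) : ℂ)) - 1) := by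
          rw [charApply, charApply, mul_sub, ← Complex.exp_add, mul_one]
          congr 2
          push_cast
          ring
        rw [h2, norm_mul]
        have h3 : ‖LineCalculus.character t u‖ = 1 := by
          rw [charApply, mul_comm, Complex.norm_exp_ofReal_mul_I]
        rw [h3, one_mul]
        refine (Real.norm_exp_I_mul_ofReal_sub_one_le).trans ?_
        rw [Real.norm_eq_abs, abs_mul]
        exact mul_le_mul_of_nonneg_left hu.le (abs_nonneg _)
      have h4 : ‖ℓ u‖ ≤ ‖ℓ‖ := ℓ.norm_coe_le_norm u
      rw [← sub_mul, norm_mul]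
      calc _ ≤ (|s - t| * R) * ‖ℓ‖ := mul_le_mul h1 h4 (norm_nonneg _) (by positivity)
        _ = _ := by ring
  exact hL.continuous

lemma continuous_apply_bcf (x : H) : Continuous (fun f : BCF => D.apply f x) := by
  have : LipschitzWith (‖x‖).toNNReal (fun f : BCF => D.apply f x) := by
    apply LipschitzWith.of_dist_le_mul
    intro f g
    rw [dist_eq_norm, ← sub_apply, ← map_sub, dist_eq_norm, Real.coe_toNNReal _ (norm_nonneg x),
      mul_comm]
    exact norm_apply_apply_le D _ x
  exact this.continuous

lemma continuous_wave_apply (x : H) : Continuous (fun t : ℝ => D.wave t x) := by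
  refine continuous_of_uniform_approx_of_continuous ?_
  intro U hU
  obtain ⟨ε, hε, hεU⟩ := Metric.mem_uniformity_dist.1 hU
  obtain ⟨ℓ, hℓc, hℓ⟩ := D.window x (ε / 2) (by linarith)
  refine ⟨fun t => D.wave t (D.apply ℓ x), ?_, ?_⟩
  · have : (fun t : ℝ => D.wave t (D.apply ℓ x)) =
        fun t => D.apply (LineCalculus.character t * ℓ) x := by
      funext t
      rw [wave_eq, apply_mul_apply]
    rw [this]
    exact (continuous_apply_bcf D x).comp (continuous_character_mul ℓ hℓc)
  · intro t
    apply hεU
    rw [dist_eq_norm, ← map_sub]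
    calc _ ≤ ‖x - D.apply ℓ x‖ := norm_wave_apply_le D t _
      _ < ε := by rw [norm_sub_rev]; linarith

/-- t ↦ wave t (y t) is continuous when y is. -/
lemma continuous_wave_comp {y : ℝ → H} (hy : Continuous y) :
    Continuous (fun t : ℝ => D.wave t (y t)) := by
  rw [continuous_iff_continuousAt]
  intro t₀
  have h1 : Tendsto (fun t : ℝ => D.wave t (y t₀)) (𝓝 t₀) (𝓝 (D.wave t₀ (y t₀))) :=
    (continuous_wave_apply D (y t₀)).tendsto t₀
  have h2 : Tendsto (fun t : ℝ => D.wave t (y t) - D.wave t (y t₀)) (𝓝 t₀) (𝓝 0) := by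
    rw [tendsto_zero_iff_norm_tendsto_zero]
    have h3 : Tendsto (fun t : ℝ => ‖y t - y t₀‖) (𝓝 t₀) (𝓝 0) := by
      have := ((hy.tendsto t₀).sub_const (y t₀)).norm
      simpa using this
    refine squeeze_zero (fun t => norm_nonneg _) (fun t => ?_) h3
    rw [← map_sub]
    exact norm_wave_apply_le D t _
  have h4 := h1.add h2
  simp only [add_sub_cancel, add_zero] at h4
  exact h4

/-- A bump function: value one on `[-R,R]`, zero outside `[-R-1,R+1]`, between 0 and 1. -/
noncomputable def trapFun (R : ℝ) (u : ℝ) : ℝ := max 0 (min 1 (R + 1 - |u|))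

lemma trapFun_nonneg (R u : ℝ) : 0 ≤ trapFun R u := le_max_left _ _

lemma trapFun_le_one (R u : ℝ) : trapFun R u ≤ 1 :=
  max_le zero_le_one (min_le_left _ _)

lemma trapFun_eq_one {R u : ℝ} (h : |u| ≤ R) : trapFun R u = 1 := by
  unfold trapFun
  rw [min_eq_left (by linarith), max_eq_right zero_le_one]

lemma trapFun_eq_zero {R u : ℝ} (h : R + 1 ≤ |u|) : trapFun R u = 0 := by
  unfold trapFun
  rw [max_eq_left]
  exact (min_le_right _ _).trans (by linarith)

lemma continuous_trapFun (R : ℝ) : Continuous (trapFun R) := by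
  unfold trapFun
  fun_prop

lemma hasCompactSupport_trapFun (R : ℝ) :
    HasCompactSupport (fun u => (trapFun R u : ℂ)) := by
  apply HasCompactSupport.of_support_subset_isCompact (K := Metric.closedBall 0 (|R| + 1))
    (isCompact_closedBall _ _)
  intro u hu
  by_contra hnot
  simp only [Metric.mem_closedBall, Real.dist_eq, sub_zero, not_le] at hnot
  apply hu
  have : trapFun R u = 0 := by
    apply trapFun_eq_zero
    have := le_abs_self R
    linarith
  simp [this]

noncomputable def trap (R : ℝ) : BCF :=
  cs (fun u => (trapFun R u : ℂ)) (Complex.continuous_ofReal.comp (continuous_trapFun R))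
    (hasCompactSupport_trapFun R)

@[simp] lemma trap_apply (R u : ℝ) : trap R u = (trapFun R u : ℂ) := rfl

lemma norm_trap_le (R : ℝ) : ‖trap R‖ ≤ 1 := by
  rw [BoundedContinuousFunction.norm_le zero_le_one]
  intro u
  rw [trap_apply, Complex.norm_real, Real.norm_eq_abs, abs_of_nonneg (trapFun_nonneg R u)]
  exact trapFun_le_one R u

lemma hasCompactSupport_trap (R : ℝ) : HasCompactSupport (trap R : ℝ → ℂ) :=
  hasCompactSupport_trapFun R

/-- Strong approximation of the identity by uniformly bounded cutoffs. -/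
lemma exists_cutoff (x : H) (ε : ℝ) (hε : 0 < ε) :
    ∃ R : ℝ, ‖D.apply (trap R) x - x‖ < ε := by
  obtain ⟨ℓ, hℓc, hℓ⟩ := D.window x (ε / 2) (by linarith)
  obtain ⟨R, hR, hRz⟩ := exists_radius hℓc
  refine ⟨R, ?_⟩
  have hmul : trap R * ℓ = ℓ := by
    ext u
    simp only [BoundedContinuousFunction.coe_mul, Pi.mul_apply]
    by_cases hu : R ≤ |u|
    · rw [hRz u hu, mul_zero]
    · push Not at hu
      rw [trap_apply, trapFun_eq_one hu.le]
      simp
  have h1 : D.apply (trap R) x - x =
      D.apply (trap R) (x - D.apply ℓ x) + (D.apply ℓ x - x) := by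
    rw [map_sub, apply_mul_apply, hmul]
    abel
  rw [h1]
  have h2 : ‖D.apply (trap R) (x - D.apply ℓ x)‖ ≤ ‖x - D.apply ℓ x‖ := by
    refine (norm_apply_apply_le D _ _).trans ?_
    calc _ ≤ 1 * ‖x - D.apply ℓ x‖ :=
          mul_le_mul_of_nonneg_right (norm_trap_le R) (norm_nonneg _)
      _ = _ := one_mul _
  have h3 : ‖x - D.apply ℓ x‖ = ‖D.apply ℓ x - x‖ := norm_sub_rev _ _
  calc _ ≤ _ := norm_add_le _ _
    _ < ε := by linarith

/-- For a bound on the cut-offs: if every cut-off image is bounded, so is the vector. -/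
lemma norm_le_of_cutoff (x : H) (C : ℝ) (h : ∀ R : ℝ, ‖D.apply (trap R) x‖ ≤ C) : ‖x‖ ≤ C := by
  refine le_of_forall_pos_lt_add fun ε hε => ?_
  obtain ⟨R, hR⟩ := exists_cutoff D x ε hε
  have h1 : ‖x‖ ≤ ‖D.apply (trap R) x‖ + ‖D.apply (trap R) x - x‖ := by
    have := norm_sub_le (D.apply (trap R) x) (D.apply (trap R) x - x)
    simpa using this
  have := h R
  linarith

end LC

end Crest.Agent.S0112Lib
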