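import Crest.Agent.S0112_Smear

set_option autoImplicit false

open Filter MeasureTheory Topology

namespace Crest.Agent.S0112Lib

open Crest.OpAlg

local notation "⟪" x ", " y "⟫" => inner ℂ x y

section avg

variable {E : Type*} [NormedAddCommGroup E] [NormedSpace ℝ E]

/-- Window means, for arbitrary normed-space-valued functions. -/
noncomputable def avg (F : ℝ → E) (k : ℕ) : E := ⨍ t in Set.Icc (-(k : ℝ)) (k : ℝ), F t

lemma windowMean_eq_avg (f : ℝ → ℝ) : windowMean f = avg f := rfl

lemma volReal (k : ℕ) : volume.real (Set.Icc (-(k : ℝ)) (k : ℝ)) = 2 * k := by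
  rw [Real.volume_real_Icc_of_le]
  · ring
  · have : (0 : ℝ) ≤ k := Nat.cast_nonneg k
    linarith

lemma avg_def (F : ℝ → E) (k : ℕ) :
    avg F k = (2 * (k : ℝ))⁻¹ • ∫ t in Set.Icc (-(k : ℝ)) (k : ℝ), F t := by
  rw [avg, setAverage_eq, volReal]

lemma intOn {F : ℝ → E} (hF : Continuous F) (k : ℕ) :
    IntegrableOn F (Set.Icc (-(k : ℝ)) (k : ℝ)) :=
  hF.continuousOn.integrableOn_compact isCompact_Icc

lemma avg_add {F G : ℝ → E} (hF : Continuous F) (hG : Continuous G) (k : ℕ) :
    avg (fun t => F t + G t) k = avg F k + avg G k := by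
  simp only [avg_def]
  rw [integral_add (intOn hF k) (intOn hG k), smul_add]

lemma avg_sub {F G : ℝ → E} (hF : Continuous F) (hG : Continuous G) (k : ℕ) :
    avg (fun t => F t - G t) k = avg F k - avg G k := by
  simp only [avg_def]
  rw [integral_sub (intOn hF k) (intOn hG k), smul_sub]

lemma avg_congr {F G : ℝ → E} (h : ∀ t, F t = G t) (k : ℕ) : avg F k = avg G k := by
  have : F = G := funext h
  rw [this]

lemma avg_const [CompleteSpace E] (c : E) {k : ℕ} (hk : 1 ≤ k) : avg (fun _ => c) k = c := by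
  rw [avg_def, setIntegral_const, volReal, smul_smul]
  have : (k : ℝ) ≠ 0 := by
    have : 0 < k := hk
    positivity
  rw [inv_mul_cancel₀ (by positivity), one_smul]

lemma norm_avg_le {F : ℝ → E} {B : ℝ} (hF : ∀ t, ‖F t‖ ≤ B) (k : ℕ) : ‖avg F k‖ ≤ B := by
  have hB : 0 ≤ B := (norm_nonneg _).trans (hF 0)
  rw [avg_def, norm_smul, Real.norm_eq_abs, abs_of_nonneg (by positivity)]
  by_cases hk : k = 0
  · subst hk
    simpa using hB
  · have hkpos : (0 : ℝ) < k := by positivity
    have h1 : ‖∫ t in Set.Icc (-(k : ℝ)) (k : ℝ), F t‖ ≤ B * (2 * k) := by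
      have := norm_setIntegral_le_of_norm_le_const (μ := volume) (s := Set.Icc (-(k : ℝ)) (k : ℝ))
        (f := F) (C := B) (by simp [Real.volume_Icc]) (fun t _ => hF t)
      rwa [volReal] at this
    calc _ ≤ (2 * (k : ℝ))⁻¹ * (B * (2 * k)) :=
          mul_le_mul_of_nonneg_left h1 (by positivity)
      _ = B := by field_simp

lemma avg_clm {E' : Type*} [NormedAddCommGroup E'] [NormedSpace ℝ E'] [CompleteSpace E]
    [CompleteSpace E'] (L : E →L[ℝ] E') {F : ℝ → E} (hF : Continuous F) (k : ℕ) :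
    avg (fun t => L (F t)) k = L (avg F k) := by
  simp only [avg_def]
  rw [map_smul, ContinuousLinearMap.integral_comp_comm L (intOn hF k)]

lemma avg_mono {F G : ℝ → ℝ} (hF : Continuous F) (hG : Continuous G) (h : ∀ t, F t ≤ G t)
    (k : ℕ) : avg F k ≤ avg G k := by
  simp only [avg_def, smul_eq_mul]
  apply mul_le_mul_of_nonneg_left _ (by positivity)
  exact setIntegral_mono_on (intOn hF k) (intOn hG k) measurableSet_Icc (fun t _ => h t)

lemma avg_const_mul {F : ℝ → ℂ} (c : ℂ) (k : ℕ) :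
    avg (fun t => c * F t) k = c * avg F k := by
  simp only [avg_def]
  rw [integral_const_mul, Complex.real_smul, Complex.real_smul]
  ring

/-- Følner property of the windows. -/
lemma norm_avg_shift_sub_le [CompleteSpace E] {F : ℝ → E} {B : ℝ} (hF : Continuous F)
    (hB : ∀ t, ‖F t‖ ≤ B) (s : ℝ) (k : ℕ) :
    ‖avg (fun t => F (t + s)) k - avg F k‖ ≤ (k : ℝ)⁻¹ * (|s| * B) := by
  have hB0 : 0 ≤ B := (norm_nonneg _).trans (hB 0)
  by_cases hk : k = 0
  · subst hk
    simp [avg_def]
  have hkpos : (0 : ℝ) < k := by positivity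
  have hle : -(k : ℝ) ≤ k := by linarith
  have hii : ∀ G : ℝ → E, ∫ t in Set.Icc (-(k : ℝ)) (k : ℝ), G t = ∫ t in -(k : ℝ)..k, G t := by
    intro G
    rw [integral_Icc_eq_integral_Ioc, intervalIntegral.integral_of_le hle]
  simp only [avg_def]
  rw [← smul_sub, hii, hii, intervalIntegral.integral_comp_add_right]
  rw [intervalIntegral.integral_interval_sub_interval_comm
    (hF.intervalIntegrable _ _) (hF.intervalIntegrable _ _) (hF.intervalIntegrable _ _)]
  rw [norm_smul, Real.norm_eq_abs, abs_of_nonneg (by positivity)]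
  have h1 : ‖∫ t in -(k : ℝ) + s..-(k : ℝ), F t‖ ≤ B * |s| := by
    have := intervalIntegral.norm_integral_le_of_norm_le_const (a := -(k : ℝ) + s)
      (b := -(k : ℝ)) (C := B) (f := F) (fun t _ => hB t)
    simpa using this
  have h2 : ‖∫ t in (k : ℝ) + s..k, F t‖ ≤ B * |s| := by
    have := intervalIntegral.norm_integral_le_of_norm_le_const (a := (k : ℝ) + s)
      (b := (k : ℝ)) (C := B) (f := F) (fun t _ => hB t)
    simpa using this
  have h3 := norm_sub_le (∫ t in -(k : ℝ) + s..-(k : ℝ), F t) (∫ t in (k : ℝ) + s..k, F t)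
  calc _ ≤ (2 * (k : ℝ))⁻¹ * (B * |s| + B * |s|) :=
        mul_le_mul_of_nonneg_left (h3.trans (add_le_add h1 h2)) (by positivity)
    _ = _ := by field_simp; ring

/-- Ultrafilter limits of bounded sequences exist. -/
lemma exists_tendsto_of_bounded (ω : Ultrafilter ℕ) {f : ℕ → ℂ} {B : ℝ} (h : ∀ k, ‖f k‖ ≤ B) :
    ∃ L : ℂ, Tendsto f ω (𝓝 L) := by
  have hc := isCompact_closedBall (0 : ℂ) B
  obtain ⟨L, _, hL⟩ := hc.ultrafilter_le_nhds (ω.map f) (by
    simp only [Ultrafilter.coe_map, le_principal_iff, mem_map]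
    exact Filter.univ_mem' fun k => by simpa using h k)
  exact ⟨L, hL⟩

lemma exists_tendsto_of_bounded_real (ω : Ultrafilter ℕ) {f : ℕ → ℝ} {B : ℝ}
    (h : ∀ k, ‖f k‖ ≤ B) : ∃ L : ℝ, Tendsto f ω (𝓝 L) := by
  have hc := isCompact_closedBall (0 : ℝ) B
  obtain ⟨L, _, hL⟩ := hc.ultrafilter_le_nhds (ω.map f) (by
    simp only [Ultrafilter.coe_map, le_principal_iff, mem_map]
    exact Filter.univ_mem' fun k => by simpa using h k)
  exact ⟨L, hL⟩

lemma tendsto_ultraMean (ω : Ultrafilter ℕ) {f : ℝ → ℝ} {B : ℝ} (hB : ∀ t, ‖f t‖ ≤ B) :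
    Tendsto (avg f) ω (𝓝 (ultraMean ω f)) := by
  obtain ⟨L, hL⟩ := exists_tendsto_of_bounded_real ω (f := avg f) (fun k => norm_avg_le hB k)
  have := hL.limUnder_eq
  rw [ultraMean, windowMean_eq_avg, this]
  exact hL

end avg

variable {H : Type*} [NormedAddCommGroup H] [InnerProductSpace ℂ H] [CompleteSpace H]

namespace MD

variable (S : ModularDatum H)

/-- The correlation function of the flow. -/
noncomputable def corr (D : LineCalculus H) (b : H →L[ℂ] H) (x y : H) (t : ℝ) : ℂ :=
  ⟪x, D.wave t (b (D.wave (-t) y))⟫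

lemma continuous_corr (D : LineCalculus H) (b : H →L[ℂ] H) (x y : H) :
    Continuous (corr D b x y) :=
  continuous_const.inner (LC.continuous_flow_apply D b y)

lemma norm_corr_le (D : LineCalculus H) (b : H →L[ℂ] H) (x y : H) (t : ℝ) :
    ‖corr D b x y t‖ ≤ ‖x‖ * (‖b‖ * ‖y‖) := by
  refine (norm_inner_le_norm _ _).trans ?_
  exact mul_le_mul_of_nonneg_left (LC.norm_flow_apply_le D b y t) (norm_nonneg _)

/-- Weak-operator ultrafilter limit of the flow means. -/
lemma exists_wot_limit (D : LineCalculus H) (ω : Ultrafilter ℕ) (b : H →L[ℂ] H) :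
    ∃ B : H →L[ℂ] H, ∀ x y : H, Tendsto (avg (corr D b x y)) ω (𝓝 ⟪x, B y⟫) := by
  have hex : ∀ x y : H, ∃ L : ℂ, Tendsto (avg (corr D b x y)) ω (𝓝 L) := fun x y =>
    exists_tendsto_of_bounded ω (fun k => norm_avg_le (norm_corr_le D b x y) k)
  choose W hW using hex
  have hcorr_add_left : ∀ x x' y t, corr D b (x + x') y t = corr D b x y t + corr D b x' y t := by
    intro x x' y t; simp [corr]
  have hcorr_add_right : ∀ x y y' t, corr D b x (y + y') t = corr D b x y t + corr D b x y' t := by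
    intro x y y' t; simp [corr]
  have hcorr_smul_left : ∀ (c : ℂ) x y t, corr D b (c • x) y t = (starRingEnd ℂ) c * corr D b x y t := by
    intro c x y t; simp [corr, mul_comm]
  have hcorr_smul_right : ∀ (c : ℂ) x y t, corr D b x (c • y) t = c * corr D b x y t := by
    intro c x y t; simp [corr, mul_comm]
  have hW1 : ∀ x x' y, W (x + x') y = W x y + W x' y := by
    intro x x' y
    refine tendsto_nhds_unique (hW _ _) ?_
    have := (hW x y).add (hW x' y)
    refine this.congr fun k => ?_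
    rw [← avg_add (continuous_corr D b x y) (continuous_corr D b x' y)]
    exact avg_congr (fun t => (hcorr_add_left x x' y t).symm) k
  have hW2 : ∀ (c : ℂ) x y, W (c • x) y = (starRingEnd ℂ) c * W x y := by
    intro c x y
    refine tendsto_nhds_unique (hW _ _) ?_
    have := (hW x y).const_mul ((starRingEnd ℂ) c)
    refine this.congr fun k => ?_
    rw [← avg_const_mul]
    exact avg_congr (fun t => (hcorr_smul_left c x y t).symm) k
  have hW3 : ∀ x y y', W x (y + y') = W x y + W x y' := by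
    intro x y y'
    refine tendsto_nhds_unique (hW _ _) ?_
    have := (hW x y).add (hW x y')
    refine this.congr fun k => ?_
    rw [← avg_add (continuous_corr D b x y) (continuous_corr D b x y')]
    exact avg_congr (fun t => (hcorr_add_right x y y' t).symm) k
  have hW4 : ∀ (c : ℂ) x y, W x (c • y) = c * W x y := by
    intro c x y
    refine tendsto_nhds_unique (hW _ _) ?_
    have := (hW x y).const_mul c
    refine this.congr fun k => ?_
    rw [← avg_const_mul]
    exact avg_congr (fun t => (hcorr_smul_right c x y t).symm) k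
  have hWb : ∀ x y, ‖W x y‖ ≤ ‖b‖ * ‖x‖ * ‖y‖ := by
    intro x y
    have h1 : ∀ k, ‖avg (corr D b x y) k‖ ≤ ‖x‖ * (‖b‖ * ‖y‖) :=
      fun k => norm_avg_le (norm_corr_le D b x y) k
    have h2 := le_of_tendsto (hW x y).norm (Eventually.of_forall h1)
    calc _ ≤ ‖x‖ * (‖b‖ * ‖y‖) := h2
      _ = _ := by ring
  let form : H →ₗ⋆[ℂ] H →ₗ[ℂ] ℂ :=
    LinearMap.mk₂'ₛₗ (starRingEnd ℂ) (RingHom.id ℂ) W hW1
      (fun c x y => by simpa using hW2 c x y) hW3 (fun c x y => by simpa using hW4 c x y)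
  let cform : H →L⋆[ℂ] H →L[ℂ] ℂ := form.mkContinuous₂ ‖b‖ hWb
  let Bsh : H →L[ℂ] H := InnerProductSpace.continuousLinearMapOfBilin cform
  refine ⟨star Bsh, fun x y => ?_⟩
  have h3 : ⟪x, (star Bsh) y⟫ = W x y := by
    rw [ContinuousLinearMap.star_eq_adjoint, ContinuousLinearMap.adjoint_inner_right,
      InnerProductSpace.continuousLinearMapOfBilin_apply]
    rfl
  rw [h3]
  exact hW x y

lemma corr_eq (D : LineCalculus H) (b : H →L[ℂ] H) (x y : H) (t : ℝ) :
    corr D b x y t = ⟪x, (D.wave t * b * D.wave (-t)) y⟫ := rfl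

/-- Mean-ergodic property: means of the flow converge weakly to the state. -/
lemma mean_tendsto (herg : S.Ergodic) (ω : Ultrafilter ℕ) (hω : (ω : Filter ℕ) ≤ atTop)
    {b : H →L[ℂ] H} (hb : b ∈ S.M) (x y : H) :
    Tendsto (avg (corr S.D b x y)) ω (𝓝 (⟪S.vac, b S.vac⟫ * ⟪x, y⟫)) := by
  obtain ⟨B, hB⟩ := exists_wot_limit S.D ω b
  -- B belongs to M
  have hBM : B ∈ S.M := by
    rw [← SetLike.mem_coe, ← S.M.centralizer_centralizer, Set.mem_centralizer_iff]
    intro g hg
    have hcomm : ∀ t : ℝ, g * (S.D.wave t * b * S.D.wave (-t)) = (S.D.wave t * b * S.D.wave (-t)) * g := by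
      intro t
      rw [Set.mem_centralizer_iff] at hg
      have := hg _ (SetLike.mem_coe.2 (S.flow_mem t b hb))
      exact this.symm
    ext y
    apply ext_inner_left ℂ
    intro x
    change ⟪x, g (B y)⟫ = ⟪x, B (g y)⟫
    have h1 : ⟪x, g (B y)⟫ = ⟪star g x, B y⟫ := by
      rw [ContinuousLinearMap.star_eq_adjoint, ContinuousLinearMap.adjoint_inner_left]
    rw [h1]
    refine tendsto_nhds_unique (hB _ _) ?_
    refine (hB x (g y)).congr fun k => avg_congr (fun t => ?_) k
    rw [corr_eq, corr_eq]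
    have h2 : (S.D.wave t * b * S.D.wave (-t)) (g y) = g ((S.D.wave t * b * S.D.wave (-t)) y) :=
      congrArg (fun o : H →L[ℂ] H => o y) (hcomm t).symm
    rw [h2, ContinuousLinearMap.star_eq_adjoint, ContinuousLinearMap.adjoint_inner_left]
  -- B is fixed by the flow
  have hBflow : ∀ s : ℝ, S.flow s B = B := by
    intro s
    ext y
    apply ext_inner_left ℂ
    intro x
    change ⟪x, S.D.wave s (B (S.D.wave (-s) y))⟫ = ⟪x, B y⟫
    have h1 : ⟪x, S.D.wave s (B (S.D.wave (-s) y))⟫ = ⟪S.D.wave (-s) x, B (S.D.wave (-s) y)⟫ := by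
      rw [LC.inner_wave, neg_neg]
    rw [h1]
    have h2 := hB (S.D.wave (-s) x) (S.D.wave (-s) y)
    have h3 := hB x y
    have h4 : ∀ t, corr S.D b (S.D.wave (-s) x) (S.D.wave (-s) y) t = corr S.D b x y (t + s) := by
      intro t
      simp only [corr]
      rw [LC.inner_wave, neg_neg, LC.wave_wave, LC.wave_wave, add_comm s t,
        show -t + -s = -(t + s) by ring]
    have hcont := continuous_corr S.D b x y
    have h5 : Tendsto (fun k : ℕ => avg (fun t => corr S.D b x y (t + s)) k - avg (corr S.D b x y) k)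
        atTop (𝓝 0) := by
      rw [tendsto_zero_iff_norm_tendsto_zero]
      have h6 := norm_avg_shift_sub_le hcont (norm_corr_le S.D b x y) s
      refine squeeze_zero (fun k => norm_nonneg _) h6 ?_
      have := (tendsto_inv_atTop_nhds_zero_nat (𝕜 := ℝ)).mul_const
        (|s| * (‖x‖ * (‖b‖ * ‖y‖)))
      simpa using this
    have h7 := (h5.mono_left hω).add h3
    simp only [sub_add_cancel, zero_add] at h7
    have h8 : Tendsto (avg (fun t => corr S.D b x y (t + s))) ω (𝓝 ⟪S.D.wave (-s) x, B (S.D.wave (-s) y)⟫) := by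
      refine h2.congr fun k => avg_congr h4 k
    exact tendsto_nhds_unique h8 h7
  obtain ⟨c, hc⟩ := herg B hBM hBflow
  -- identify the constant
  have hvac : ⟪S.vac, S.vac⟫ = 1 := by
    rw [inner_self_eq_norm_sq_to_K, S.norm_vac]; simp
  have hcval : c = ⟪S.vac, b S.vac⟫ := by
    have h1 := hB S.vac S.vac
    have h2 : ⟪S.vac, B S.vac⟫ = c := by
      rw [hc]
      simp [S.norm_vac]
    rw [h2] at h1
    have h3 : ∀ t, corr S.D b S.vac S.vac t = ⟪S.vac, b S.vac⟫ := by
      intro t
      simp only [corr]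
      have h5 := LC.inner_wave S.D (-t) S.vac (b S.vac)
      rw [neg_neg, wave_vac] at h5
      rw [wave_vac, ← h5]
    have h4 : Tendsto (avg (corr S.D b S.vac S.vac)) ω (𝓝 ⟪S.vac, b S.vac⟫) := by
      refine tendsto_const_nhds.congr' ?_
      have : ∀ᶠ k : ℕ in (ω : Filter ℕ), 1 ≤ k := hω (eventually_ge_atTop 1)
      filter_upwards [this] with k hk
      rw [avg_congr h3 k, avg_const _ hk]
    exact tendsto_nhds_unique h1 h4
  have h9 := hB x y
  have h10 : ⟪x, B y⟫ = ⟪S.vac, b S.vac⟫ * ⟪x, y⟫ := by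
    rw [hc, ← hcval]
    simp [inner_smul_right]
  rwa [h10] at h9

end MD

end Crest.Agent.S0112Lib
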