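import Crest.Agent.S0112_Vac

set_option autoImplicit false

open Filter MeasureTheory Topology
open scoped FourierTransform

namespace Crest.Agent.S0112Lib

open Crest.OpAlg

local notation "⟪" x ", " y "⟫" => inner ℂ x y

variable {H : Type*} [NormedAddCommGroup H] [InnerProductSpace ℂ H] [CompleteSpace H]

namespace LC

variable (D : LineCalculus H)

lemma continuous_flow_apply (a : H →L[ℂ] H) (x : H) :
    Continuous (fun s : ℝ => D.wave s (a (D.wave (-s) x))) := by
  apply continuous_wave_comp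
  exact a.continuous.comp ((continuous_wave_apply D x).comp continuous_neg)

lemma norm_flow_apply_le (a : H →L[ℂ] H) (x : H) (s : ℝ) :
    ‖D.wave s (a (D.wave (-s) x))‖ ≤ ‖a‖ * ‖x‖ := by
  calc _ ≤ ‖a (D.wave (-s) x)‖ := norm_wave_apply_le D _ _
    _ ≤ ‖a‖ * ‖D.wave (-s) x‖ := a.le_opNorm _
    _ ≤ ‖a‖ * ‖x‖ := mul_le_mul_of_nonneg_left (norm_wave_apply_le D _ _) (norm_nonneg _)

lemma integrable_smul_flow {c : ℝ → ℂ} (hc : Integrable c) (α : ℝ) (a : H →L[ℂ] H) (x : H) :
    Integrable (fun t : ℝ => c t • D.wave (α * t) (a (D.wave (-(α * t)) x))) := by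
  have hcont : Continuous (fun t : ℝ => D.wave (α * t) (a (D.wave (-(α * t)) x))) :=
    (continuous_flow_apply D a x).comp (continuous_const.mul continuous_id)
  exact hc.smul_bdd (‖a‖ * ‖x‖) hcont.aestronglyMeasurable
    (ae_of_all _ fun t => norm_flow_apply_le D a x (α * t))

/-- The smeared flow. -/
noncomputable def smear (c : ℝ → ℂ) (hc : Integrable c) (α : ℝ) (a : H →L[ℂ] H) : H →L[ℂ] H :=
  LinearMap.mkContinuous
    { toFun := fun x => ∫ t : ℝ, c t • D.wave (α * t) (a (D.wave (-(α * t)) x))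
      map_add' := fun x y => by
        rw [← integral_add (integrable_smul_flow D hc α a x) (integrable_smul_flow D hc α a y)]
        congr 1
        funext t
        simp only [map_add, smul_add]
      map_smul' := fun r x => by
        simp only [RingHom.id_apply]
        rw [← integral_smul]
        congr 1
        funext t
        simp only [map_smul, smul_comm r] }
    ((∫ t : ℝ, ‖c t‖) * ‖a‖)
    (fun x => by
      have hb : ∀ t : ℝ, ‖c t • D.wave (α * t) (a (D.wave (-(α * t)) x))‖ ≤ ‖c t‖ * (‖a‖ * ‖x‖) :=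
        fun t => by
          rw [norm_smul]
          exact mul_le_mul_of_nonneg_left (norm_flow_apply_le D a x _) (norm_nonneg _)
      have h1 := norm_integral_le_of_norm_le (hc.norm.mul_const (‖a‖ * ‖x‖)) (ae_of_all _ hb)
      rw [integral_mul_const] at h1
      simp only [mul_assoc] at h1 ⊢
      exact h1)

lemma smear_apply (c : ℝ → ℂ) (hc : Integrable c) (α : ℝ) (a : H →L[ℂ] H) (x : H) :
    smear D c hc α a x = ∫ t : ℝ, c t • D.wave (α * t) (a (D.wave (-(α * t)) x)) := rfl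

lemma norm_smear_le (c : ℝ → ℂ) (hc : Integrable c) (α : ℝ) (a : H →L[ℂ] H) :
    ‖smear D c hc α a‖ ≤ (∫ t : ℝ, ‖c t‖) * ‖a‖ := by
  apply LinearMap.mkContinuous_norm_le
  exact mul_nonneg (integral_nonneg fun t => norm_nonneg _) (norm_nonneg _)

/-- Membership of the smeared element in a von Neumann algebra. -/
lemma smear_mem (M : VonNeumannAlgebra H) (c : ℝ → ℂ) (hc : Integrable c) (α : ℝ)
    (a : H →L[ℂ] H) (hM : ∀ t : ℝ, D.wave t * a * D.wave (-t) ∈ M) :
    smear D c hc α a ∈ M := by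
  rw [← SetLike.mem_coe, ← M.centralizer_centralizer, Set.mem_centralizer_iff]
  intro g hg
  ext x
  have hcomm : ∀ t : ℝ, g ((D.wave t * a * D.wave (-t)) x) = (D.wave t * a * D.wave (-t)) (g x) := by
    intro t
    rw [Set.mem_centralizer_iff] at hg
    have := hg _ (SetLike.mem_coe.2 (hM t))
    exact congrArg (fun o : H →L[ℂ] H => o x) this.symm
  change g (smear D c hc α a x) = smear D c hc α a (g x)
  rw [smear_apply, smear_apply, ← g.integral_comp_comm (integrable_smul_flow D hc α a x)]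
  congr 1
  funext t
  rw [map_smul]
  congr 1
  exact hcomm (α * t)

/-- Integrated functional calculus. -/
lemma integral_wave_of_bounded (c : ℝ → ℂ) (hc : Integrable c) (α : ℝ) (m : BCF)
    (hm : ∀ u : ℝ, m u = ∫ t : ℝ, c t * LineCalculus.character (α * t) u) (x : H) :
    ∫ t : ℝ, c t • D.wave (α * t) x = D.apply m x := by
  have hcwave : ∀ y : H, Integrable (fun t : ℝ => c t • D.wave (α * t) y) := by
    intro y
    have hcont : Continuous (fun t : ℝ => D.wave (α * t) y) :=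
      (continuous_wave_apply D y).comp (continuous_const.mul continuous_id)
    exact hc.smul_bdd ‖y‖ hcont.aestronglyMeasurable
      (ae_of_all _ fun t => norm_wave_apply_le D _ y)
  -- Step 1: for y in the image of a cut-off
  have step1 : ∀ ℓ : BCF, HasCompactSupport (ℓ : ℝ → ℂ) → ∀ y : H,
      ∫ t : ℝ, c t • D.wave (α * t) (D.apply ℓ y) = D.apply m (D.apply ℓ y) := by
    intro ℓ hℓ y
    -- the BCF-valued integrand
    let Ψ : ℝ → BCF := fun t => c t • (LineCalculus.character (α * t) * ℓ)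
    have hcontΨ : Continuous (fun t : ℝ => LineCalculus.character (α * t) * ℓ) :=
      (continuous_character_mul ℓ hℓ).comp (continuous_const.mul continuous_id)
    have hΨint : Integrable Ψ := by
      refine hc.smul_bdd ‖ℓ‖ hcontΨ.aestronglyMeasurable (ae_of_all _ fun t => ?_)
      calc ‖LineCalculus.character (α * t) * ℓ‖ ≤ ‖LineCalculus.character (α * t)‖ * ‖ℓ‖ :=
            norm_mul_le _ _
        _ ≤ 1 * ‖ℓ‖ := mul_le_mul_of_nonneg_right (norm_character_le _) (norm_nonneg _)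
        _ = ‖ℓ‖ := one_mul _
    -- evaluation
    have hΨeval : ∫ t : ℝ, Ψ t = m * ℓ := by
      ext u
      have h1 := (BoundedContinuousFunction.evalCLM ℂ (α := ℝ) (β := ℂ) u).integral_comp_comm hΨint
      have h2 : ∀ f : BCF, (BoundedContinuousFunction.evalCLM ℂ (α := ℝ) (β := ℂ) u) f = f u :=
        fun f => rfl
      rw [h2] at h1
      rw [← h1]
      simp only [h2, BoundedContinuousFunction.coe_mul, Pi.mul_apply, Ψ,
        BoundedContinuousFunction.coe_smul, smul_eq_mul]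
      rw [hm u, ← integral_mul_const]
      congr 1
      funext t
      ring
    -- applying the calculus
    let Λ : BCF →L[ℂ] H := LinearMap.mkContinuous
      { toFun := fun f => D.apply f y
        map_add' := fun f g => by simp [map_add]
        map_smul' := fun r f => by simp [map_smul] } ‖y‖
      (fun f => by rw [mul_comm]; exact norm_apply_apply_le D f y)
    have hΛ : ∀ f, Λ f = D.apply f y := fun f => rfl
    have h2 := Λ.integral_comp_comm hΨint
    rw [hΨeval, hΛ] at h2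
    rw [apply_mul_apply, ← h2]
    congr 1
    funext t
    simp only [Ψ, map_smul, hΛ, wave_eq, apply_mul_apply]
    rfl
  -- Step 2: general x
  rw [← sub_eq_zero, ← norm_eq_zero]
  apply le_antisymm _ (norm_nonneg _)
  apply le_of_forall_pos_le_add
  intro ε hε
  rw [zero_add]
  set K := ‖m‖ + (∫ t : ℝ, ‖c t‖) + 1 with hK
  have hKpos : 0 < K := by
    have : 0 ≤ ∫ t : ℝ, ‖c t‖ := integral_nonneg fun t => norm_nonneg _
    have := norm_nonneg m
    linarith
  obtain ⟨ℓ, hℓc, hℓ⟩ := D.window x (ε / K) (by positivity)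
  have h3 := step1 ℓ hℓc x
  have hdiff : (∫ t : ℝ, c t • D.wave (α * t) x) - D.apply m x =
      (∫ t : ℝ, c t • D.wave (α * t) (x - D.apply ℓ x)) - D.apply m (x - D.apply ℓ x) := by
    have h4 : ∫ t : ℝ, c t • D.wave (α * t) (x - D.apply ℓ x) =
        (∫ t : ℝ, c t • D.wave (α * t) x) - ∫ t : ℝ, c t • D.wave (α * t) (D.apply ℓ x) := by
      rw [← integral_sub (hcwave x) (hcwave _)]
      congr 1
      funext t
      rw [map_sub, smul_sub]
    rw [h4, h3, map_sub]
    abel
  rw [hdiff]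
  set y := x - D.apply ℓ x with hy
  have hyn : ‖y‖ ≤ ε / K := by
    rw [hy, norm_sub_rev]; exact hℓ.le
  have h5 : ‖∫ t : ℝ, c t • D.wave (α * t) y‖ ≤ (∫ t : ℝ, ‖c t‖) * ‖y‖ := by
    have hb : ∀ t : ℝ, ‖c t • D.wave (α * t) y‖ ≤ ‖c t‖ * ‖y‖ := fun t => by
      rw [norm_smul]
      exact mul_le_mul_of_nonneg_left (norm_wave_apply_le D _ _) (norm_nonneg _)
    have h1 := norm_integral_le_of_norm_le (hc.norm.mul_const ‖y‖) (ae_of_all _ hb)
    rwa [integral_mul_const] at h1
  have h6 := norm_apply_apply_le D m y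
  have hfin : (K) * (ε / K) = ε := by field_simp
  calc _ ≤ ‖∫ t : ℝ, c t • D.wave (α * t) y‖ + ‖D.apply m y‖ := norm_sub_le _ _
    _ ≤ (∫ t : ℝ, ‖c t‖) * ‖y‖ + ‖m‖ * ‖y‖ := add_le_add h5 h6
    _ ≤ K * ‖y‖ := by
        have := norm_nonneg y
        rw [hK]; nlinarith
    _ ≤ K * (ε / K) := mul_le_mul_of_nonneg_left hyn hKpos.le
    _ = ε := hfin

end LC

namespace MD

variable (S : ModularDatum H)

lemma smear_vac (c : ℝ → ℂ) (hc : Integrable c) (α : ℝ) (a : H →L[ℂ] H) (m : BCF)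
    (hm : ∀ u : ℝ, m u = ∫ t : ℝ, c t * LineCalculus.character (α * t) u) :
    LC.smear S.D c hc α a S.vac = S.D.apply m (a S.vac) := by
  rw [LC.smear_apply, ← LC.integral_wave_of_bounded S.D c hc α m hm]
  congr 1
  funext t
  rw [wave_vac]

end MD

/-- Existence of an `L¹`-kernel whose Fourier transform is a bump. -/
lemma exists_kernel (r r' : ℝ) (hr : 0 < r) (hrr : r < r') :
    ∃ (c₀ : ℝ → ℂ) (G : ℝ → ℝ), Integrable c₀ ∧ Continuous G ∧ (∀ u, 0 ≤ G u) ∧ (∀ u, G u ≤ 1) ∧
      (∀ u, |u| ≤ r → G u = 1) ∧ (∀ u, r' ≤ |u| → G u = 0) ∧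
      ∀ u : ℝ, ∫ t : ℝ, c₀ t * Complex.exp (Complex.I * ((2 * Real.pi * t * u : ℝ) : ℂ)) =
        (G u : ℂ) := by
  let b : ContDiffBump (0 : ℝ) := ⟨r, r', hr, hrr⟩
  let f : ℝ → ℂ := fun u => ((b u : ℝ) : ℂ)
  have hfs : ContDiff ℝ (⊤ : ℕ∞) f := Complex.ofRealCLM.contDiff.comp b.contDiff
  have hfc : HasCompactSupport f := b.hasCompactSupport.comp_left (g := fun x : ℝ => (x : ℂ)) (by simp)
  let φ : SchwartzMap ℝ ℂ := hfc.toSchwartzMap hfs
  have hφ : ∀ u, φ u = f u := fun u => rfl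
  let F : SchwartzMap ℝ ℂ := 𝓕 φ
  have hF : (F : ℝ → ℂ) = 𝓕 (φ : ℝ → ℂ) := rfl
  refine ⟨F, b, F.integrable, b.continuous, fun u => b.nonneg, fun u => b.le_one, ?_, ?_, ?_⟩
  · intro u hu
    apply b.one_of_mem_closedBall
    simpa [Real.dist_eq] using hu
  · intro u hu
    apply b.zero_of_le_dist
    simpa [Real.dist_eq] using hu
  · intro u
    have hinv := Continuous.fourierInv_fourier_eq (f := (φ : ℝ → ℂ)) φ.continuous φ.integrable
      (by rw [← hF]; exact F.integrable)
    have h1 := congrFun hinv u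
    rw [hφ, Real.fourierInv_eq', ← hF] at h1
    change _ = ((b u : ℝ) : ℂ)
    rw [← (show f u = ((b u : ℝ) : ℂ) from rfl), ← h1]
    congr 1
    funext t
    rw [smul_eq_mul, mul_comm]
    congr 1
    rw [mul_comm Complex.I]
    congr 2
    simp only [RCLike.inner_apply, conj_trivial]
    ring

/-- The bump `u ↦ G((u-s)/δ)` as a bounded continuous function. -/
noncomputable def bump (G : ℝ → ℝ) (hG : Continuous G) (h0 : ∀ u, 0 ≤ G u) (h1 : ∀ u, G u ≤ 1)
    (s δ : ℝ) : BCF :=
  BoundedContinuousFunction.ofNormedAddCommGroup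
    (fun u => (G ((u - s) / δ) : ℂ))
    (Complex.continuous_ofReal.comp (hG.comp ((continuous_id.sub continuous_const).div_const δ)))
    1 (fun u => by
      rw [Complex.norm_real, Real.norm_eq_abs, abs_of_nonneg (h0 _)]
      exact h1 _)

@[simp] lemma bump_apply (G : ℝ → ℝ) (hG : Continuous G) (h0 : ∀ u, 0 ≤ G u) (h1 : ∀ u, G u ≤ 1)
    (s δ u : ℝ) : bump G hG h0 h1 s δ u = (G ((u - s) / δ) : ℂ) := rfl

lemma norm_bump_le (G : ℝ → ℝ) (hG : Continuous G) (h0 : ∀ u, 0 ≤ G u) (h1 : ∀ u, G u ≤ 1)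
    (s δ : ℝ) : ‖bump G hG h0 h1 s δ‖ ≤ 1 := by
  rw [BoundedContinuousFunction.norm_le zero_le_one]
  intro u
  rw [bump_apply, Complex.norm_real, Real.norm_eq_abs, abs_of_nonneg (h0 _)]
  exact h1 _

/-- Localisation: for each bump there is a smearing operation with uniformly bounded norm. -/
lemma exists_localiser (r r' : ℝ) (hr : 0 < r) (hrr : r < r') :
    ∃ (K : ℝ) (G : ℝ → ℝ) (hG : Continuous G) (h0 : ∀ u, 0 ≤ G u) (h1 : ∀ u, G u ≤ 1),
      (∀ u, |u| ≤ r → G u = 1) ∧ (∀ u, r' ≤ |u| → G u = 0) ∧ 0 ≤ K ∧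
      ∀ (S : ModularDatum H) (s δ : ℝ), 0 < δ → ∀ a ∈ S.M, ∃ v ∈ S.M,
        ‖v‖ ≤ K * ‖a‖ ∧ v S.vac = S.D.apply (bump G hG h0 h1 s δ) (a S.vac) := by
  obtain ⟨c₀, G, hc₀, hG, h0, h1, hG1, hG0, hcG⟩ := exists_kernel r r' hr hrr
  refine ⟨∫ t : ℝ, ‖c₀ t‖, G, hG, h0, h1, hG1, hG0, integral_nonneg fun t => norm_nonneg _, ?_⟩
  intro S s δ hδ a ha
  -- coefficient and speed
  let c : ℝ → ℂ := fun t => c₀ t * Complex.exp (Complex.I * ((-(2 * Real.pi * t * (s / δ)) : ℝ) : ℂ))
  have hnorm : ∀ t, ‖c t‖ = ‖c₀ t‖ := by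
    intro t
    simp only [c, norm_mul, mul_comm Complex.I, Complex.norm_exp_ofReal_mul_I, mul_one]
  have hc : Integrable c := by
    refine hc₀.mul_bdd (c := 1) ?_ ?_
    · apply Continuous.aestronglyMeasurable
      fun_prop
    · exact ae_of_all _ fun t => by
        simp only [mul_comm Complex.I, Complex.norm_exp_ofReal_mul_I, le_refl]
  let α : ℝ := 2 * Real.pi / δ
  have hm : ∀ u : ℝ, (bump G hG h0 h1 s δ) u =
      ∫ t : ℝ, c t * LineCalculus.character (α * t) u := by
    intro u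
    rw [bump_apply, ← hcG ((u - s) / δ)]
    congr 1
    funext t
    simp only [c, charApply, α]
    rw [mul_assoc (c₀ t), ← Complex.exp_add]
    congr 2
    rw [← mul_add, ← Complex.ofReal_add]
    congr 2
    field_simp
    ring_nf
  refine ⟨LC.smear S.D c hc α a, LC.smear_mem S.D S.M c hc α a (fun t => S.flow_mem t a ha), ?_,
    MD.smear_vac S c hc α a _ hm⟩
  refine (LC.norm_smear_le S.D c hc α a).trans_eq ?_
  congr 2
  funext t
  exact hnorm t

end Crest.Agent.S0112Lib
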