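import Crest.Agent.S0112_Calc

set_option autoImplicit false

open Filter MeasureTheory Topology

namespace Crest.Agent.S0112Lib

open Crest.OpAlg

local notation "⟪" x ", " y "⟫" => inner ℂ x y

variable {H : Type*} [NormedAddCommGroup H] [InnerProductSpace ℂ H] [CompleteSpace H]

/-- multiply a compactly supported function by `exp(u/2)`. -/
noncomputable def eh (k : BCF) (hk : HasCompactSupport (k : ℝ → ℂ)) : BCF :=
  cs (fun u => k u * ((Real.exp (u / 2) : ℝ) : ℂ))
    (k.continuous.mul (Complex.continuous_ofReal.comp (Real.continuous_exp.comp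
      (continuous_id.div_const 2))))
    hk.mul_right

@[simp] lemma eh_apply (k : BCF) (hk : HasCompactSupport (k : ℝ → ℂ)) (u : ℝ) :
    eh k hk u = k u * ((Real.exp (u / 2) : ℝ) : ℂ) := rfl

lemma hasCompactSupport_eh (k : BCF) (hk : HasCompactSupport (k : ℝ → ℂ)) :
    HasCompactSupport (eh k hk : ℝ → ℂ) := hk.mul_right

lemma hasCompactSupport_star (k : BCF) (hk : HasCompactSupport (k : ℝ → ℂ)) :
    HasCompactSupport (⇑(star k : BCF)) := by
  apply hk.mono
  intro u hu hzero
  apply hu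
  simp [hzero]

/-- An antilinear isometry flips inner products. -/
lemma inner_J_J (J : H ≃ₗᵢ⋆[ℂ] H) (x y : H) : ⟪J x, J y⟫ = ⟪y, x⟫ := by
  have h1 : ∀ a b : H, ‖J a + J b‖ = ‖a + b‖ := fun a b => by
    rw [← map_add, J.norm_map]
  have h2 : ∀ a b : H, ‖J a - J b‖ = ‖a - b‖ := fun a b => by
    rw [← map_sub, J.norm_map]
  have h3 : ∀ a b : H, ‖J a - Complex.I • J b‖ = ‖a + Complex.I • b‖ := fun a b => by
    have : J a - Complex.I • J b = J (a + Complex.I • b) := by
      rw [map_add, map_smulₛₗ]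
      simp [sub_eq_add_neg]
    rw [this, J.norm_map]
  have h4 : ∀ a b : H, ‖J a + Complex.I • J b‖ = ‖a - Complex.I • b‖ := fun a b => by
    have : J a + Complex.I • J b = J (a - Complex.I • b) := by
      rw [map_sub, map_smulₛₗ]
      simp [sub_eq_add_neg]
    rw [this, J.norm_map]
  have e1 := inner_eq_sum_norm_sq_div_four (𝕜 := ℂ) (J x) (J y)
  have e2 := inner_eq_sum_norm_sq_div_four (𝕜 := ℂ) y x
  rw [e1, e2]
  simp only [h1, h2, h3, h4, RCLike.I_to_complex]
  have e3 : ‖y + x‖ = ‖x + y‖ := by rw [add_comm]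
  have e4 : ‖y - x‖ = ‖x - y‖ := norm_sub_rev _ _
  have e5 : ‖y - Complex.I • x‖ = ‖x + Complex.I • y‖ := by
    have : y - Complex.I • x = (-Complex.I) • (x + Complex.I • y) := by
      rw [smul_add, smul_smul]
      simp [sub_eq_add_neg, add_comm]
    rw [this, norm_smul]
    simp
  have e6 : ‖y + Complex.I • x‖ = ‖x - Complex.I • y‖ := by
    have : y + Complex.I • x = Complex.I • (x - Complex.I • y) := by
      rw [smul_sub, smul_smul]
      simp [sub_eq_add_neg, add_comm]
    rw [this, norm_smul]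
    simp
  rw [e3, e4, e5, e6]

namespace MD

variable (S : ModularDatum H)

/-- Pairs in the graph of the Tomita operator. -/
lemma mem_closure_iff (p : H × H) :
    p ∈ closure (Set.range fun a : S.M => ((a : H →L[ℂ] H) S.vac, star (a : H →L[ℂ] H) S.vac)) ↔
      S.D.HalfExp p.1 (S.J p.2) := by
  rw [S.tomita]
  rfl

lemma halfExp_of_mem {a : H →L[ℂ] H} (ha : a ∈ S.M) :
    S.D.HalfExp (a S.vac) (S.J (star a S.vac)) := by
  have h := (mem_closure_iff S (a S.vac, star a S.vac)).1
    (subset_closure ⟨⟨a, ha⟩, rfl⟩)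
  exact h

/-- On the closure, the vacuum expectation relation holds. -/
lemma inner_vac_of_mem_closure {p : H × H}
    (hp : p ∈ closure (Set.range fun a : S.M =>
      ((a : H →L[ℂ] H) S.vac, star (a : H →L[ℂ] H) S.vac))) :
    ⟪p.2, S.vac⟫ = ⟪S.vac, p.1⟫ := by
  have hcl : IsClosed {p : H × H | ⟪p.2, S.vac⟫ = ⟪S.vac, p.1⟫} :=
    isClosed_eq (by fun_prop) (by fun_prop)
  refine (closure_minimal ?_ hcl) hp
  rintro _ ⟨a, rfl⟩
  simp only [Set.mem_setOf_eq]
  rw [ContinuousLinearMap.star_eq_adjoint, ContinuousLinearMap.adjoint_inner_left]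

lemma halfExp_vac : S.D.HalfExp S.vac (S.J S.vac) := by
  have := halfExp_of_mem S (a := 1) S.M.one_mem'
  simpa using this

/-- The core identity: `⟪ξ, k(D) e^{D} ξ⟫ = ⟪ξ, k(D) ξ⟫`. -/
lemma inner_vac_eh_eh (k : BCF) (hk : HasCompactSupport (k : ℝ → ℂ)) :
    ⟪S.vac, S.D.apply (eh (eh k hk) (hasCompactSupport_eh k hk)) S.vac⟫ =
      ⟪S.vac, S.D.apply k S.vac⟫ := by
  set ek := eh k hk with hek
  have hekc : HasCompactSupport (ek : ℝ → ℂ) := hasCompactSupport_eh k hk
  -- (k(D)ξ, J(ek(D)ξ)) is in the closure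
  have h1 : S.D.HalfExp (S.D.apply k S.vac) (S.D.apply ek S.vac) := by
    intro f g hfg
    rw [LC.apply_mul_apply, LC.apply_mul_apply]
    congr 2
    ext u
    simp only [BoundedContinuousFunction.coe_mul, Pi.mul_apply, hfg u, hek, eh_apply]
    ring
  have h2 : (S.D.apply k S.vac, S.J (S.D.apply ek S.vac)) ∈ closure (Set.range fun a : S.M =>
      ((a : H →L[ℂ] H) S.vac, star (a : H →L[ℂ] H) S.vac)) := by
    rw [mem_closure_iff]
    simp only [S.J_J]
    exact h1
  have h3 := inner_vac_of_mem_closure S h2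
  -- Now compute the left-hand side
  have h4 : ⟪S.J (S.D.apply ek S.vac), S.vac⟫ = ⟪S.J S.vac, S.D.apply ek S.vac⟫ := by
    have := inner_J_J S.J (S.D.apply ek S.vac) (S.J S.vac)
    rw [S.J_J] at this
    exact this
  have hstar : HasCompactSupport (⇑(star ek : BCF)) := hasCompactSupport_star ek hekc
  have h5 : S.D.apply (star ek) (S.J S.vac) = S.D.apply (eh (star ek) hstar) S.vac := by
    apply halfExp_vac S
    intro u
    rfl
  have h6 : ⟪S.J S.vac, S.D.apply ek S.vac⟫ =
      ⟪S.D.apply (eh (star ek) hstar) S.vac, S.vac⟫ := by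
    rw [← h5, LC.inner_apply, star_star]
  have h7 : ⟪S.D.apply (eh (star ek) hstar) S.vac, S.vac⟫ =
      ⟪S.vac, S.D.apply (eh ek hekc) S.vac⟫ := by
    have hs : star (eh (star ek) hstar) = eh ek hekc := by
      ext u
      simp only [BoundedContinuousFunction.star_apply, eh_apply, Complex.star_def,
        Complex.conj_ofReal, map_mul, Complex.conj_conj]
    rw [LC.inner_apply, hs]
  rw [← h7, ← h6, ← h4]
  exact h3

/-- Functions vanishing near the origin annihilate the vacuum. -/
lemma apply_vac_eq_zero_of_vanish (n : BCF) (hn : HasCompactSupport (n : ℝ → ℂ))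
    (r : ℝ) (hr : 0 < r) (hv : ∀ u : ℝ, |u| < r → n u = 0) :
    S.D.apply n S.vac = 0 := by
  -- k = |n|² / (e^u - 1)
  let kf : ℝ → ℂ := fun u => star (n u) * n u / ((Real.exp u - 1 : ℝ) : ℂ)
  have hne : ∀ u : ℝ, u ≠ 0 → ((Real.exp u - 1 : ℝ) : ℂ) ≠ 0 := by
    intro u hu
    have : Real.exp u - 1 ≠ 0 := by
      intro h
      have : Real.exp u = 1 := by linarith
      exact hu (Real.exp_eq_one_iff u |>.1 this)
    exact_mod_cast this
  have hnc : Continuous (n : ℝ → ℂ) := n.continuous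
  have hkc : Continuous kf := by
    rw [continuous_iff_continuousAt]
    intro u
    by_cases hu : u = 0
    · subst hu
      have h0 : ∀ᶠ v in 𝓝 (0 : ℝ), kf v = 0 := by
        have : ∀ᶠ v in 𝓝 (0 : ℝ), |v| < r := by
          have : Metric.ball (0 : ℝ) r ∈ 𝓝 (0 : ℝ) := Metric.ball_mem_nhds _ hr
          filter_upwards [this] with v hv
          simpa [Real.dist_eq] using hv
        filter_upwards [this] with v hv'
        simp [kf, hv v hv']
      have h0' : kf 0 = 0 := h0.self_of_nhds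
      have : kf =ᶠ[𝓝 0] fun _ => 0 := h0
      exact (continuousAt_const (y := (0 : ℂ))).congr this.symm
    · apply ContinuousAt.div
      · exact ((continuous_star.comp hnc).mul hnc).continuousAt
      · apply Continuous.continuousAt
        exact Complex.continuous_ofReal.comp (Real.continuous_exp.sub continuous_const)
      · exact hne u hu
  have hksupp : HasCompactSupport kf := by
    apply hn.mono
    intro u hu hzero
    apply hu
    simp [kf, hzero]
  let k : BCF := cs kf hkc hksupp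
  have hk : HasCompactSupport (k : ℝ → ℂ) := hksupp
  have hmain := inner_vac_eh_eh S k hk
  have hkey : eh (eh k hk) (hasCompactSupport_eh k hk) - k = star n * n := by
    ext u
    simp only [BoundedContinuousFunction.coe_sub, Pi.sub_apply, eh_apply,
      BoundedContinuousFunction.coe_mul, Pi.mul_apply, BoundedContinuousFunction.star_apply]
    change kf u * ((Real.exp (u / 2) : ℝ) : ℂ) * ((Real.exp (u / 2) : ℝ) : ℂ) - kf u = _
    by_cases hu : u = 0
    · subst hu
      simp [kf, hv 0 (by simpa using hr)]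
    · have h1 := hne u hu
      have h2 : ((Real.exp (u / 2) : ℝ) : ℂ) * ((Real.exp (u / 2) : ℝ) : ℂ) =
          ((Real.exp u : ℝ) : ℂ) := by
        rw [← Complex.ofReal_mul, ← Real.exp_add]
        congr 2
        ring
      have h3 : ((Real.exp u - 1 : ℝ) : ℂ) = ((Real.exp u : ℝ) : ℂ) - 1 := by
        push_cast; ring
      simp only [kf]
      rw [mul_assoc, h2]
      rw [h3] at h1 ⊢
      field_simp
  have hz : ⟪S.vac, S.D.apply (star n * n) S.vac⟫ = 0 := by
    rw [← hkey, map_sub, sub_apply, inner_sub_right, hmain, sub_self]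
  have hz2 : ⟪S.D.apply n S.vac, S.D.apply n S.vac⟫ = 0 := by
    rw [LC.inner_apply, LC.apply_mul_apply]
    exact hz
  exact inner_self_eq_zero.1 hz2

/-- Spectral support of the vacuum at the origin. -/
lemma apply_vac (f : BCF) : S.D.apply f S.vac = f 0 • S.vac := by
  have hvac : ‖S.vac‖ = 1 := S.norm_vac
  -- e = f - f(0)
  let e : BCF := f - (f 0) • (1 : BCF)
  have he0 : e 0 = 0 := by simp [e]
  have hef : S.D.apply f S.vac = S.D.apply e S.vac + f 0 • S.vac := by
    simp only [e, map_sub, map_smul, map_one, sub_apply, ContinuousLinearMap.smul_apply,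
      ContinuousLinearMap.one_apply]
    abel
  rw [hef]
  suffices h : S.D.apply e S.vac = 0 by rw [h, zero_add]
  rw [← norm_eq_zero]
  apply le_antisymm _ (norm_nonneg _)
  apply le_of_forall_pos_le_add
  intro ε hε
  rw [zero_add]
  set ε₁ := ε / (2 * (‖e‖ + 1)) with hε₁
  have hN : 0 < ‖e‖ + 1 := by positivity
  have hε₁pos : 0 < ε₁ := by positivity
  have hεε : ε₁ * ‖e‖ + ε₁ ≤ ε := by
    have : ε₁ * (‖e‖ + 1) = ε / 2 := by
      rw [hε₁]; field_simp
    nlinarith
  -- continuity at zero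
  have hcont : ContinuousAt (e : ℝ → ℂ) 0 := e.continuous.continuousAt
  obtain ⟨r₀, hr₀, hr₀'⟩ := Metric.continuousAt_iff.1 hcont ε₁ hε₁pos
  set r := r₀ / 2 with hr
  have hrpos : 0 < r := by positivity
  -- the cutoff q
  let q : BCF := BoundedContinuousFunction.ofNormedAddCommGroup
    (fun u => ((LC.trapFun 1 (u / r) : ℝ) : ℂ))
    (Complex.continuous_ofReal.comp ((LC.continuous_trapFun 1).comp (continuous_id.div_const r)))
    1 (fun u => by
      rw [Complex.norm_real, Real.norm_eq_abs, abs_of_nonneg (LC.trapFun_nonneg _ _)]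
      exact LC.trapFun_le_one _ _)
  have hq : ∀ u, q u = ((LC.trapFun 1 (u / r) : ℝ) : ℂ) := fun u => rfl
  have hq1 : ∀ u : ℝ, |u| < r → q u = 1 := by
    intro u hu
    rw [hq, LC.trapFun_eq_one]
    · simp
    · rw [abs_div, abs_of_pos hrpos, div_le_one hrpos]
      exact hu.le
  have hq0 : ∀ u : ℝ, r₀ ≤ |u| → q u = 0 := by
    intro u hu
    rw [hq, LC.trapFun_eq_zero]
    · simp
    · rw [abs_div, abs_of_pos hrpos, le_div_iff₀ hrpos]
      rw [hr]
      linarith
  have hqn : ∀ u, ‖q u‖ ≤ 1 := by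
    intro u
    rw [hq, Complex.norm_real, Real.norm_eq_abs, abs_of_nonneg (LC.trapFun_nonneg _ _)]
    exact LC.trapFun_le_one _ _
  have hpn : ∀ u, ‖(1 - q) u‖ ≤ 1 := by
    intro u
    simp only [BoundedContinuousFunction.coe_sub, Pi.sub_apply, BoundedContinuousFunction.coe_one,
      Pi.one_apply]
    rw [hq]
    have h0 := LC.trapFun_nonneg 1 (u / r)
    have h1 := LC.trapFun_le_one 1 (u / r)
    have : ((1 : ℂ) - ((LC.trapFun 1 (u / r) : ℝ) : ℂ)) = ((1 - LC.trapFun 1 (u / r) : ℝ) : ℂ) := by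
      push_cast; ring
    rw [this, Complex.norm_real, Real.norm_eq_abs, abs_of_nonneg (by linarith)]
    linarith
  -- e = e q + e (1-q)
  have hsplit : e = e * q + e * (1 - q) := by ring
  -- bound for e q
  have hA : ‖e * q‖ ≤ ε₁ := by
    rw [BoundedContinuousFunction.norm_le hε₁pos.le]
    intro u
    simp only [BoundedContinuousFunction.coe_mul, Pi.mul_apply, norm_mul]
    by_cases hu : r₀ ≤ |u|
    · rw [hq0 u hu]; simp [hε₁pos.le]
    · push Not at hu
      have h1 : dist u 0 < r₀ := by simpa [Real.dist_eq] using hu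
      have h2 := hr₀' h1
      rw [he0, dist_zero_right] at h2
      calc _ ≤ ‖e u‖ * 1 := mul_le_mul_of_nonneg_left (hqn u) (norm_nonneg _)
        _ ≤ ε₁ := by rw [mul_one]; exact h2.le
  have hB : ‖e * (1 - q)‖ ≤ ‖e‖ := by
    rw [BoundedContinuousFunction.norm_le (norm_nonneg _)]
    intro u
    simp only [BoundedContinuousFunction.coe_mul, Pi.mul_apply, norm_mul]
    calc _ ≤ ‖e‖ * 1 := mul_le_mul (e.norm_coe_le_norm u) (hpn u) (norm_nonneg _) (norm_nonneg _)
      _ = ‖e‖ := mul_one _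
  -- window
  obtain ⟨ℓ, hℓc, hℓ⟩ := S.D.window S.vac ε₁ hε₁pos
  have hC : S.D.apply (e * (1 - q) * ℓ) S.vac = 0 := by
    apply apply_vac_eq_zero_of_vanish S _ _ r hrpos
    · intro u hu
      simp only [BoundedContinuousFunction.coe_mul, Pi.mul_apply,
        BoundedContinuousFunction.coe_sub, Pi.sub_apply, BoundedContinuousFunction.coe_one,
        Pi.one_apply, hq1 u hu]
      simp
    · exact hℓc.mul_left
  have hD : S.D.apply (e * (1 - q)) S.vac =
      S.D.apply (e * (1 - q)) (S.vac - S.D.apply ℓ S.vac) := by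
    rw [map_sub (S.D.apply (e * (1 - q))), LC.apply_mul_apply, hC, sub_zero]
  calc ‖S.D.apply e S.vac‖ = ‖S.D.apply (e * q) S.vac + S.D.apply (e * (1 - q)) S.vac‖ := by
        rw [← add_apply, ← map_add, ← hsplit]
    _ ≤ ‖S.D.apply (e * q) S.vac‖ + ‖S.D.apply (e * (1 - q)) S.vac‖ := norm_add_le _ _
    _ ≤ ‖e * q‖ * ‖S.vac‖ + ‖e * (1 - q)‖ * ‖S.vac - S.D.apply ℓ S.vac‖ := by
        rw [hD]
        exact add_le_add (LC.norm_apply_apply_le _ _ _) (LC.norm_apply_apply_le _ _ _)
    _ ≤ ε₁ * 1 + ‖e‖ * ε₁ := by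
        rw [hvac]
        have h1 : ‖S.vac - S.D.apply ℓ S.vac‖ ≤ ε₁ := by
          rw [norm_sub_rev]; exact hℓ.le
        have h2 := mul_le_mul hB h1 (norm_nonneg _) (norm_nonneg _)
        have h3 := mul_le_mul_of_nonneg_right hA (zero_le_one (α := ℝ))
        linarith
    _ ≤ ε := by linarith

lemma wave_vac (t : ℝ) : S.D.wave t S.vac = S.vac := by
  rw [LC.wave_eq, apply_vac, charApply]
  simp

lemma wave_mem_flow (t : ℝ) {a : H →L[ℂ] H} (ha : a ∈ S.M) :
    S.D.wave t * a * S.D.wave (-t) ∈ S.M := S.flow_mem t a ha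

/-- The flow acts on `aξ` through the wave. -/
lemma flow_apply_vac (t : ℝ) (a : H →L[ℂ] H) :
    (S.D.wave t * a * S.D.wave (-t)) S.vac = S.D.wave t (a S.vac) := by
  simp only [ContinuousLinearMap.mul_apply, wave_vac]

end MD

end Crest.Agent.S0112Lib
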