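import Crest.Agent.S0112_Mean

set_option autoImplicit false

open Filter MeasureTheory Topology

namespace Crest.Agent.S0112Lib

open Crest.OpAlg

local notation "⟪" x ", " y "⟫" => inner ℂ x y

section expansion

variable {A : Type*} [NormedRing A] [NormedAlgebra ℂ A] [CompleteSpace A]

lemma two_pow_le_factorial (n : ℕ) : (2 : ℝ) ^ (n + 1) ≤ ((n + 3).factorial : ℝ) := by
  have : 2 ^ (n + 1) ≤ (n + 3).factorial := by
    induction n with
    | zero => simp [Nat.factorial]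
    | succ m ih =>
      have h1 : (m + 1 + 3).factorial = (m + 4) * (m + 3).factorial := Nat.factorial_succ (m + 3)
      rw [h1, pow_succ]
      nlinarith [Nat.factorial_pos (m + 3)]
  exact_mod_cast this

/-- Third order Taylor expansion of the exponential. -/
lemma norm_exp_sub_le (x : A) (hx : ‖x‖ ≤ 1) :
    ‖NormedSpace.exp x - (1 + x + (1 / 2 : ℂ) • (x * x))‖ ≤ ‖x‖ ^ 3 := by
  have h0 := NormedSpace.exp_series_hasSum_exp' (𝕂 := ℂ) x
  have h1 := (hasSum_nat_add_iff' (f := fun n => ((n.factorial : ℂ)⁻¹) • x ^ n) 3).2 h0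
  have h2 : ∑ i ∈ Finset.range 3, ((i.factorial : ℂ)⁻¹) • x ^ i = 1 + x + (1 / 2 : ℂ) • (x * x) := by
    simp [Finset.sum_range_succ, Nat.factorial, sq]
  rw [h2] at h1
  have hg : HasSum (fun n : ℕ => ‖x‖ ^ 3 * ((1 / 2 : ℝ) ^ n * (1 / 2))) (‖x‖ ^ 3) := by
    have := (hasSum_geometric_two.mul_right (1 / 2 : ℝ)).mul_left (‖x‖ ^ 3)
    have e : ‖x‖ ^ 3 * ((2 : ℝ) * (1 / 2)) = ‖x‖ ^ 3 := by norm_num
    rwa [e] at this
  refine h1.norm_le_of_bounded hg fun n => ?_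
  rw [norm_smul, norm_inv, Complex.norm_natCast]
  have h3 : ‖x ^ (n + 3)‖ ≤ ‖x‖ ^ 3 := by
    calc ‖x ^ (n + 3)‖ ≤ ‖x‖ ^ (n + 3) := norm_pow_le' x (by omega)
      _ = ‖x‖ ^ n * ‖x‖ ^ 3 := by ring
      _ ≤ 1 * ‖x‖ ^ 3 := mul_le_mul_of_nonneg_right
          (pow_le_one₀ (norm_nonneg _) hx) (by positivity)
      _ = ‖x‖ ^ 3 := one_mul _
  have h4 : ((n + 3).factorial : ℝ)⁻¹ ≤ (1 / 2 : ℝ) ^ n * (1 / 2) := by
    have h5 := two_pow_le_factorial n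
    have h6 : (1 / 2 : ℝ) ^ n * (1 / 2) = ((2 : ℝ) ^ (n + 1))⁻¹ := by
      rw [pow_succ, mul_inv, one_div, inv_pow]
    rw [h6]
    exact inv_anti₀ (by positivity) h5
  calc _ ≤ ((n + 3).factorial : ℝ)⁻¹ * ‖x‖ ^ 3 :=
        mul_le_mul_of_nonneg_left h3 (by positivity)
    _ ≤ (1 / 2 : ℝ) ^ n * (1 / 2) * ‖x‖ ^ 3 :=
        mul_le_mul_of_nonneg_right h4 (by positivity)
    _ = _ := by ring

end expansion

/-- Elementary Hilbert space inequality used for the first-order terms. -/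
lemma real_inner_lower {E : Type*} [NormedAddCommGroup E] [InnerProductSpace ℂ E] (p z : E) :
    ‖p‖ ^ 2 + 2 * (⟪p, z⟫).re ≤ ‖p + z‖ ^ 2 := by
  have h1 := norm_add_sq (𝕜 := ℂ) p z
  simp only [RCLike.re_to_complex] at h1
  rw [h1]
  nlinarith [sq_nonneg ‖z‖]

lemma re_inner_ge {E : Type*} [NormedAddCommGroup E] [InnerProductSpace ℂ E] (p z : E) :
    -(‖p‖ * ‖z‖) ≤ (⟪p, z⟫).re := by
  have h1 := norm_inner_le_norm (𝕜 := ℂ) p z
  have h2 := Complex.abs_re_le_norm (⟪p, z⟫)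
  have h3 := neg_abs_le (⟪p, z⟫).re
  linarith

variable {H : Type*} [NormedAddCommGroup H] [InnerProductSpace ℂ H] [CompleteSpace H]

/-- A skew-adjoint element exponentiates to a unitary. -/
lemma exp_mem_unitary (x : H →L[ℂ] H) (hx : star x = -x) :
    NormedSpace.exp x ∈ unitary (H →L[ℂ] H) := by
  let +nondep : NormedAlgebra ℚ (H →L[ℂ] H) := .restrictScalars ℚ ℂ (H →L[ℂ] H)
  exact NormedSpace.exp_mem_unitary_of_mem_skewAdjoint (skewAdjoint.mem_iff.2 hx)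

lemma exp_mem_vNa (M : VonNeumannAlgebra H) {x : H →L[ℂ] H} (hx : x ∈ M) :
    NormedSpace.exp x ∈ M := by
  rw [← SetLike.mem_coe, ← M.centralizer_centralizer, Set.mem_centralizer_iff]
  intro g hg
  rw [Set.mem_centralizer_iff] at hg
  have h1 : Commute x g := hg x (SetLike.mem_coe.2 hx)
  exact (h1.symm.exp_right).eq

/-- The second variation: with a nearly maximising unitary, the quadratic form controls `‖u(wh)‖²`.
-/
lemma second_variation_aux (L : H →L[ℂ] H) (M : VonNeumannAlgebra H) (ξ : H) (hξ : ‖ξ‖ = 1)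
    (w h : H →L[ℂ] H) (hw : w ∈ M) (hwu : w ∈ unitary (H →L[ℂ] H))
    (hh : h ∈ M) (hsa : star h = h) (τ R ε : ℝ) (hτ : 0 < τ) (hR : 0 ≤ R) (hτR : τ * R ≤ 1)
    (hhR : ‖h‖ ≤ R)
    (hmax : ∀ w' : H →L[ℂ] H, w' ∈ M → w' ∈ unitary (H →L[ℂ] H) →
      ‖L (w' ξ)‖ ^ 2 ≤ ‖L (w ξ)‖ ^ 2 + ε) :
    τ ^ 2 * ‖L (w (h ξ))‖ ^ 2 ≤ ε + τ ^ 2 * (⟪L (w ξ), L (w (h (h ξ)))⟫).re +
      2 * (‖L‖ ^ 2 * (τ * R) ^ 3) + 2 * (τ * R * ‖L‖ ^ 2 * (τ * R) ^ 3) := by
  set C := ‖L‖ with hC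
  have hC0 : 0 ≤ C := norm_nonneg _
  -- the skew adjoint element
  set x : H →L[ℂ] H := ((τ : ℂ) * Complex.I) • h with hx
  have hxstar : star x = -x := by
    rw [hx, star_smul, hsa]
    simp [Complex.conj_ofReal, neg_smul]
  have hxM : x ∈ M := by
    rw [hx]
    exact (M.toStarSubalgebra.toSubalgebra).smul_mem hh _
  have hxn : ‖x‖ ≤ τ * R := by
    rw [hx, norm_smul]
    simp only [norm_mul, Complex.norm_real, Complex.norm_I, mul_one, Real.norm_eq_abs,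
      abs_of_pos hτ]
    exact mul_le_mul_of_nonneg_left hhR hτ.le
  have hxn' : ‖-x‖ ≤ τ * R := by rwa [norm_neg]
  have hxn1 : ‖x‖ ≤ 1 := hxn.trans hτR
  have hxn1' : ‖-x‖ ≤ 1 := hxn'.trans hτR
  -- the two unitaries
  set Up := NormedSpace.exp x with hUp
  set Um := NormedSpace.exp (-x) with hUm
  have hUpM : Up ∈ M := exp_mem_vNa M hxM
  have hUmM : Um ∈ M := exp_mem_vNa M (neg_mem hxM)
  have hUpu : Up ∈ unitary (H →L[ℂ] H) := exp_mem_unitary x hxstar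
  have hUmu : Um ∈ unitary (H →L[ℂ] H) := exp_mem_unitary (-x) (by rw [star_neg, hxstar])
  have hwUp : w * Up ∈ M := mul_mem hw hUpM
  have hwUm : w * Um ∈ M := mul_mem hw hUmM
  have hwUpu : w * Up ∈ unitary (H →L[ℂ] H) := mul_mem hwu hUpu
  have hwUmu : w * Um ∈ unitary (H →L[ℂ] H) := mul_mem hwu hUmu
  have h1 := hmax _ hwUp hwUpu
  have h2 := hmax _ hwUm hwUmu
  -- remainder operators
  set rp := Up - (1 + x + (1 / 2 : ℂ) • (x * x)) with hrp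
  set rm := Um - (1 + (-x) + (1 / 2 : ℂ) • ((-x) * (-x))) with hrm
  have hrpn : ‖rp‖ ≤ (τ * R) ^ 3 :=
    (norm_exp_sub_le x hxn1).trans (pow_le_pow_left₀ (norm_nonneg _) hxn 3)
  have hrmn : ‖rm‖ ≤ (τ * R) ^ 3 :=
    (norm_exp_sub_le (-x) hxn1').trans (pow_le_pow_left₀ (norm_nonneg _) hxn' 3)
  have hww : ∀ y : H, ‖w y‖ ≤ ‖y‖ := by
    intro y
    have := ContinuousLinearMap.norm_map_of_mem_unitary hwu y
    exact this.le
  -- the vectors
  set p := L (w ξ) with hp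
  set v := L (w (h ξ)) with hv
  set q := L (w (h (h ξ))) with hq
  set ep := L (w (rp ξ)) with hep
  set em := L (w (rm ξ)) with hem
  have hepn : ‖ep‖ ≤ C * (τ * R) ^ 3 := by
    calc ‖ep‖ ≤ C * ‖w (rp ξ)‖ := L.le_opNorm _
      _ ≤ C * ‖rp ξ‖ := mul_le_mul_of_nonneg_left (hww _) hC0
      _ ≤ C * (‖rp‖ * ‖ξ‖) := mul_le_mul_of_nonneg_left (rp.le_opNorm _) hC0
      _ ≤ C * (τ * R) ^ 3 := by rw [hξ, mul_one]; exact mul_le_mul_of_nonneg_left hrpn hC0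
  have hemn : ‖em‖ ≤ C * (τ * R) ^ 3 := by
    calc ‖em‖ ≤ C * ‖w (rm ξ)‖ := L.le_opNorm _
      _ ≤ C * ‖rm ξ‖ := mul_le_mul_of_nonneg_left (hww _) hC0
      _ ≤ C * (‖rm‖ * ‖ξ‖) := mul_le_mul_of_nonneg_left (rm.le_opNorm _) hC0
      _ ≤ C * (τ * R) ^ 3 := by rw [hξ, mul_one]; exact mul_le_mul_of_nonneg_left hrmn hC0
  have hpn : ‖p‖ ≤ C := by
    calc ‖p‖ ≤ C * ‖w ξ‖ := L.le_opNorm _
      _ ≤ C * ‖ξ‖ := mul_le_mul_of_nonneg_left (hww _) hC0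
      _ = C := by rw [hξ, mul_one]
  have hvn : ‖v‖ ≤ C * R := by
    calc ‖v‖ ≤ C * ‖w (h ξ)‖ := L.le_opNorm _
      _ ≤ C * ‖h ξ‖ := mul_le_mul_of_nonneg_left (hww _) hC0
      _ ≤ C * (‖h‖ * ‖ξ‖) := mul_le_mul_of_nonneg_left (h.le_opNorm _) hC0
      _ ≤ C * R := by rw [hξ, mul_one]; exact mul_le_mul_of_nonneg_left hhR hC0
  -- expansion of the vectors
  set s : ℂ := ((τ ^ 2 / 2 : ℝ) : ℂ) with hs
  set i : ℂ := (τ : ℂ) * Complex.I with hi
  have hIsq : i * i = -((τ : ℂ) ^ 2) := by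
    have : Complex.I * Complex.I = -1 := Complex.I_mul_I
    calc _ = (τ : ℂ) ^ 2 * (Complex.I * Complex.I) := by rw [hi]; ring
      _ = _ := by rw [this]; ring
  have hxx : x * x = (-((τ : ℂ) ^ 2)) • (h * h) := by
    rw [hx, smul_mul_smul_comm, hIsq]
  have hhalf : (1 / 2 : ℂ) * (-((τ : ℂ) ^ 2)) = -s := by rw [hs]; push_cast; ring
  have hx1 : ∀ y, x y = i • h y := fun y => rfl
  have hxx1 : ∀ y, (x * x) y = (-((τ : ℂ) ^ 2)) • h (h y) := by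
    intro y; rw [hxx]; rfl
  have eUp : Up ξ = ξ + i • h ξ - s • h (h ξ) + rp ξ := by
    have e1 : Up = 1 + x + (1 / 2 : ℂ) • (x * x) + rp := by rw [hrp]; abel
    conv_lhs => rw [e1]
    change ξ + x ξ + (1 / 2 : ℂ) • (x * x) ξ + rp ξ = _
    rw [hx1, hxx1, smul_smul, hhalf, neg_smul, sub_eq_add_neg]
  have eUm : Um ξ = ξ - i • h ξ - s • h (h ξ) + rm ξ := by
    have e1 : Um = 1 + (-x) + (1 / 2 : ℂ) • ((-x) * (-x)) + rm := by rw [hrm]; abel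
    conv_lhs => rw [e1, neg_mul_neg]
    change ξ + (-(x ξ)) + (1 / 2 : ℂ) • (x * x) ξ + rm ξ = _
    rw [hx1, hxx1, smul_smul, hhalf, neg_smul]
    abel
  have evalp : L ((w * Up) ξ) = (p - s • q + ep) + i • v := by
    change L (w (Up ξ)) = _
    rw [eUp]
    simp only [map_add, map_sub, map_smul]
    rw [← hp, ← hv, ← hq, ← hep]
    abel
  have evalm : L ((w * Um) ξ) = (p - s • q + em) - i • v := by
    change L (w (Um ξ)) = _
    rw [eUm]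
    simp only [map_add, map_sub, map_smul]
    rw [← hp, ← hv, ← hq, ← hem]
    abel
  -- the parallelogram identity
  set e := (1 / 2 : ℂ) • (ep + em) with he
  set f := (1 / 2 : ℂ) • (ep - em) with hf
  set AA := p - s • q + e with hAA
  set BB := i • v + f with hBB
  have e3 : L ((w * Up) ξ) = AA + BB := by
    rw [evalp, hAA, hBB, he, hf]
    module
  have e4 : L ((w * Um) ξ) = AA - BB := by
    rw [evalm, hAA, hBB, he, hf]
    module
  rw [e3] at h1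
  rw [e4] at h2
  have hpar := parallelogram_law_with_norm ℂ AA BB
  have hsum : ‖AA‖ ^ 2 + ‖BB‖ ^ 2 ≤ ‖p‖ ^ 2 + ε := by
    linarith
  -- bounds
  have hen : ‖e‖ ≤ C * (τ * R) ^ 3 := by
    rw [he, norm_smul]
    have : ‖(1 / 2 : ℂ)‖ = 1 / 2 := by simp
    rw [this]
    have := norm_add_le ep em
    linarith
  have hfn : ‖f‖ ≤ C * (τ * R) ^ 3 := by
    rw [hf, norm_smul]
    have : ‖(1 / 2 : ℂ)‖ = 1 / 2 := by simp
    rw [this]
    have := norm_sub_le ep em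
    linarith
  have hTR0 : 0 ≤ (τ * R) ^ 3 := by positivity
  have hlowA : ‖p‖ ^ 2 - τ ^ 2 * (⟪p, q⟫).re - 2 * (C ^ 2 * (τ * R) ^ 3) ≤ ‖AA‖ ^ 2 := by
    have e5 : AA = p + ((-s) • q + e) := by
      rw [hAA]; module
    have h3 := real_inner_lower p ((-s) • q + e)
    rw [← e5] at h3
    have e6 : (⟪p, (-s) • q + e⟫).re = -(τ ^ 2 / 2) * (⟪p, q⟫).re + (⟪p, e⟫).re := by
      rw [inner_add_right, inner_smul_right, Complex.add_re]
      congr 1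
      rw [hs, ← Complex.ofReal_neg, Complex.re_ofReal_mul]
    rw [e6] at h3
    have h4 := re_inner_ge p e
    have h5 : ‖p‖ * ‖e‖ ≤ C * (C * (τ * R) ^ 3) := mul_le_mul hpn hen (norm_nonneg _) hC0
    have h6 : C * (C * (τ * R) ^ 3) = C ^ 2 * (τ * R) ^ 3 := by ring
    rw [h6] at h5
    linarith
  have hlowB : τ ^ 2 * ‖v‖ ^ 2 - 2 * (τ * R * C ^ 2 * (τ * R) ^ 3) ≤ ‖BB‖ ^ 2 := by
    have h3 := real_inner_lower (i • v) f
    rw [← hBB] at h3
    have h4 := re_inner_ge (i • v) f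
    have hiv : ‖i • v‖ = τ * ‖v‖ := by
      rw [norm_smul, hi]
      simp [abs_of_pos hτ]
    rw [hiv] at h3 h4
    have h5 : τ * ‖v‖ * ‖f‖ ≤ τ * (C * R) * (C * (τ * R) ^ 3) := by
      apply mul_le_mul _ hfn (norm_nonneg _) (by positivity)
      exact mul_le_mul_of_nonneg_left hvn hτ.le
    have h6 : τ * (C * R) * (C * (τ * R) ^ 3) = τ * R * C ^ 2 * (τ * R) ^ 3 := by ring
    rw [h6] at h5
    have h7 : (τ * ‖v‖) ^ 2 = τ ^ 2 * ‖v‖ ^ 2 := by ring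
    rw [h7] at h3
    linarith
  linarith

/-- Quantified form of the second variation. -/
lemma second_variation (L : H →L[ℂ] H) (M : VonNeumannAlgebra H) (ξ : H) (hξ : ‖ξ‖ = 1)
    (R : ℝ) (hR : 0 ≤ R) (η : ℝ) (hη : 0 < η) :
    ∃ ε : ℝ, 0 < ε ∧ ∀ w : H →L[ℂ] H, w ∈ M → w ∈ unitary (H →L[ℂ] H) →
      (∀ w' : H →L[ℂ] H, w' ∈ M → w' ∈ unitary (H →L[ℂ] H) →
        ‖L (w' ξ)‖ ^ 2 ≤ ‖L (w ξ)‖ ^ 2 + ε) →
      ∀ h : H →L[ℂ] H, h ∈ M → star h = h → ‖h‖ ≤ R →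
        ‖L (w (h ξ))‖ ^ 2 ≤ (⟪L (w ξ), L (w (h (h ξ)))⟫).re + η := by
  set C := ‖L‖ with hC
  set D := 2 * C ^ 2 * R ^ 3 + 2 * C ^ 2 * R ^ 4 + 1 with hD
  have hD1 : 0 < D := by positivity
  set τ := min (min (1 / (R + 1)) 1) (η / (2 * D)) with hτ
  have hτ0 : 0 < τ := by positivity
  have hτ1 : τ ≤ 1 := (min_le_left _ _).trans (min_le_right _ _)
  have hτ2 : τ ≤ 1 / (R + 1) := (min_le_left _ _).trans (min_le_left _ _)
  have hτ3 : τ ≤ η / (2 * D) := min_le_right _ _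
  have hτR : τ * R ≤ 1 := by
    have h1 : τ * (R + 1) ≤ 1 := by
      rw [le_div_iff₀ (by positivity)] at hτ2
      exact hτ2
    nlinarith
  refine ⟨τ ^ 2 * (η / 2), by positivity, ?_⟩
  intro w hw hwu hmax h hh hsa hhR
  have hmain := second_variation_aux L M ξ hξ w h hw hwu hh hsa τ R (τ ^ 2 * (η / 2)) hτ0 hR hτR
    hhR hmax
  have hDτ : D * τ ≤ η / 2 := by
    rw [le_div_iff₀ (by positivity)] at hτ3
    nlinarith
  have hle : 2 * C ^ 2 * R ^ 3 * τ + 2 * C ^ 2 * R ^ 4 * τ ^ 2 ≤ D * τ := by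
    have h1 : τ ^ 2 ≤ τ := by nlinarith
    have h2 : 0 ≤ 2 * C ^ 2 * R ^ 4 := by positivity
    have h3 : 2 * C ^ 2 * R ^ 4 * τ ^ 2 ≤ 2 * C ^ 2 * R ^ 4 * τ :=
      mul_le_mul_of_nonneg_left h1 h2
    rw [hD]
    nlinarith
  have hτsq : 0 < τ ^ 2 := by positivity
  have e1 : 2 * (C ^ 2 * (τ * R) ^ 3) + 2 * (τ * R * C ^ 2 * (τ * R) ^ 3) =
      τ ^ 2 * (2 * C ^ 2 * R ^ 3 * τ + 2 * C ^ 2 * R ^ 4 * τ ^ 2) := by ring
  have h5 : τ ^ 2 * ‖L (w (h ξ))‖ ^ 2 ≤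
      τ ^ 2 * ((⟪L (w ξ), L (w (h (h ξ)))⟫).re + η) := by
    have h6 : τ ^ 2 * (2 * C ^ 2 * R ^ 3 * τ + 2 * C ^ 2 * R ^ 4 * τ ^ 2) ≤ τ ^ 2 * (η / 2) :=
      mul_le_mul_of_nonneg_left (hle.trans hDτ) hτsq.le
    have h7 : τ ^ 2 * ((⟪L (w ξ), L (w (h (h ξ)))⟫).re + η) =
      τ ^ 2 * (η / 2) + τ ^ 2 * (⟪L (w ξ), L (w (h (h ξ)))⟫).re + τ ^ 2 * (η / 2) := by ring
    rw [h7]
    rw [← hC] at hmain
    linarith
  exact le_of_mul_le_mul_left h5 hτsq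

/-- A non-commutative little Grothendieck inequality. -/
lemma gt_inequality (L : H →L[ℂ] H) (M : VonNeumannAlgebra H) (ξ : H)
    (w : H →L[ℂ] H) (hw : w ∈ M) (hwu : w ∈ unitary (H →L[ℂ] H)) (R η : ℝ)
    (hsv : ∀ h : H →L[ℂ] H, h ∈ M → star h = h → ‖h‖ ≤ R →
        ‖L (w (h ξ))‖ ^ 2 ≤ (⟪L (w ξ), L (w (h (h ξ)))⟫).re + η)
    (b : H →L[ℂ] H) (hb : b ∈ M) (hbR : ‖b‖ ≤ R) :
    ‖L (b ξ)‖ ^ 2 ≤ (⟪L (w ξ), L (w (star b (b ξ)))⟫).re +
      (⟪L (w ξ), L (b (star b (w ξ)))⟫).re + 4 * η := by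
  have hww : w * star w = 1 := Unitary.mul_star_self_of_mem hwu
  have hsw : star w ∈ M := star_mem hw
  have hswu : star w ∈ unitary (H →L[ℂ] H) := Unitary.star_mem hwu
  set c := star w * b with hc
  set d := star c with hd
  have hcM : c ∈ M := mul_mem hsw hb
  have hdM : d ∈ M := star_mem hcM
  have hcn : ‖c‖ ≤ R := by
    rw [hc, CStarRing.norm_mem_unitary_mul _ hswu]
    exact hbR
  have hdn : ‖d‖ ≤ R := by rwa [hd, norm_star]
  set h₁ := (1 / 2 : ℂ) • (c + d) with hh₁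
  set h₂ := (-(Complex.I / 2)) • (c - d) with hh₂
  have hh₁M : h₁ ∈ M := (M.toStarSubalgebra.toSubalgebra).smul_mem (add_mem hcM hdM) _
  have hh₂M : h₂ ∈ M := (M.toStarSubalgebra.toSubalgebra).smul_mem (sub_mem hcM hdM) _
  have hh₁s : star h₁ = h₁ := by
    rw [hh₁, star_smul, star_add, hd, star_star, add_comm]
    congr 1
    simp
  have hh₂s : star h₂ = h₂ := by
    rw [hh₂, star_smul, star_sub, hd, star_star]
    have : star (-(Complex.I / 2)) = Complex.I / 2 := by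
      simp
      ring
    rw [this, ← neg_sub, smul_neg, neg_smul]
  have hsc : ‖(1 / 2 : ℂ)‖ = 1 / 2 := by simp
  have hsc2 : ‖(-(Complex.I / 2))‖ = 1 / 2 := by simp
  have hh₁n : ‖h₁‖ ≤ R := by
    rw [hh₁, norm_smul, hsc]
    have := norm_add_le c d
    linarith
  have hh₂n : ‖h₂‖ ≤ R := by
    rw [hh₂, norm_smul, hsc2]
    have := norm_sub_le c d
    linarith
  have hc12 : c = h₁ + Complex.I • h₂ := by
    have e : Complex.I * (-(Complex.I / 2)) = 1 / 2 := by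
      have : Complex.I * Complex.I = -1 := Complex.I_mul_I
      calc _ = -(Complex.I * Complex.I) / 2 := by ring
        _ = _ := by rw [this]; norm_num
    rw [hh₁, hh₂, smul_smul, e]
    module
  have hsq : h₁ * h₁ + h₂ * h₂ = (1 / 2 : ℂ) • (d * c + c * d) := by
    have e : (-(Complex.I / 2)) * (-(Complex.I / 2)) = -(1 / 4) := by
      have : Complex.I * Complex.I = -1 := Complex.I_mul_I
      calc _ = (Complex.I * Complex.I) / 4 := by ring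
        _ = _ := by rw [this]; norm_num
    rw [hh₁, hh₂, smul_mul_smul_comm, smul_mul_smul_comm, e]
    simp only [mul_add, add_mul, mul_sub, sub_mul]
    module
  have hdc : d * c = star b * b := by
    rw [hd, hc, star_mul, star_star]
    calc star b * w * (star w * b) = star b * (w * star w) * b := by noncomm_ring
      _ = star b * b := by rw [hww, mul_one]
  have hwcd : w * (c * d) = b * star b * w := by
    rw [hd, hc, star_mul, star_star]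
    calc w * (star w * b * (star b * w)) = (w * star w) * b * star b * w := by noncomm_ring
      _ = b * star b * w := by rw [hww, one_mul]
  -- vectors
  have hbv : L (b ξ) = L (w (h₁ ξ)) + Complex.I • L (w (h₂ ξ)) := by
    have : b = w * c := by
      rw [hc, ← mul_assoc, hww, one_mul]
    have e2 : (w * c) ξ = w (h₁ ξ) + Complex.I • w (h₂ ξ) := by
      change w (c ξ) = _
      rw [hc12]
      change w (h₁ ξ + Complex.I • h₂ ξ) = _
      simp only [map_add, map_smul]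
    conv_lhs => rw [this, e2]
    simp only [map_add, map_smul]
  have hpar := parallelogram_law_with_norm ℂ (L (w (h₁ ξ))) (Complex.I • L (w (h₂ ξ)))
  have hIn : ‖Complex.I • L (w (h₂ ξ))‖ = ‖L (w (h₂ ξ))‖ := by
    rw [norm_smul]; simp
  have hfirst : ‖L (b ξ)‖ ^ 2 ≤ 2 * ‖L (w (h₁ ξ))‖ ^ 2 + 2 * ‖L (w (h₂ ξ))‖ ^ 2 := by
    rw [hbv]
    rw [hIn] at hpar
    nlinarith [mul_self_nonneg ‖L (w (h₁ ξ)) - Complex.I • L (w (h₂ ξ))‖]
  have h1 := hsv h₁ hh₁M hh₁s hh₁n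
  have h2 := hsv h₂ hh₂M hh₂s hh₂n
  -- combine
  have hcomb : (⟪L (w ξ), L (w (h₁ (h₁ ξ)))⟫).re + (⟪L (w ξ), L (w (h₂ (h₂ ξ)))⟫).re =
      (1 / 2) * ((⟪L (w ξ), L (w (star b (b ξ)))⟫).re + (⟪L (w ξ), L (b (star b (w ξ)))⟫).re) := by
    have e3 : L (w (h₁ (h₁ ξ))) + L (w (h₂ (h₂ ξ))) =
        (1 / 2 : ℂ) • (L (w (star b (b ξ))) + L (b (star b (w ξ)))) := by
      have e4 : (h₁ * h₁ + h₂ * h₂) ξ = (1 / 2 : ℂ) • ((d * c) ξ + (c * d) ξ) := by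
        rw [hsq]; rfl
      have e5 : h₁ (h₁ ξ) + h₂ (h₂ ξ) = (h₁ * h₁ + h₂ * h₂) ξ := rfl
      have e6 : w ((c * d) ξ) = b (star b (w ξ)) := by
        have := congrArg (fun o : H →L[ℂ] H => o ξ) hwcd
        exact this
      have e7 : w ((d * c) ξ) = w (star b (b ξ)) := by rw [hdc]; rfl
      rw [← map_add, ← map_add, e5, e4, map_smul, map_add, e6, e7, map_smul, map_add]
    have e8 : ⟪L (w ξ), L (w (h₁ (h₁ ξ)))⟫ + ⟪L (w ξ), L (w (h₂ (h₂ ξ)))⟫ =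
        (1 / 2 : ℂ) * (⟪L (w ξ), L (w (star b (b ξ)))⟫ + ⟪L (w ξ), L (b (star b (w ξ)))⟫) := by
      rw [← inner_add_right, e3, inner_smul_right, inner_add_right]
    have e9 := congrArg Complex.re e8
    rw [Complex.add_re] at e9
    rw [e9]
    have e10 : (1 / 2 : ℂ) = ((1 / 2 : ℝ) : ℂ) := by push_cast; ring
    rw [e10, Complex.re_ofReal_mul, Complex.add_re]
  linarith

end Crest.Agent.S0112Lib
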