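import Crest.Statements.S0166
import Crest.Agent.Lib.DepthSpaces
import Crest.Agent.Lib.DiamondGen

set_option autoImplicit false
open Crest Crest.AnalysisR

namespace Crest.Agent.S0166


open Crest.Agent.Lib.AsympBasic Crest.Agent.Lib.TreeCore Crest.Agent.Lib.L2Sum
open Crest.Agent.Lib.DepthSpaces Crest.Agent.Lib.DiamondGen
open Crest.AnalysisR.TreePotential Filter Topology

/-- The space: the `ℓ²`-sum of the depth-`d` subspaces of the global model. -/
abbrev EE : Type := lp (fun d => ↥(XX d)) 2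

noncomputable instance instNACGEE : NormedAddCommGroup EE := inferInstance

noncomputable instance instNSEE : NormedSpace ℝ EE := inferInstance

noncomputable instance instCSEE : CompleteSpace EE := inferInstance

local notation "G" => PotentialModel.global

/-- Basis vectors in the sum. -/
noncomputable def uu (d : ℕ) (s : List ℕ) (h : s.length ≤ d) : EE :=
  inj (X := fun d => ↥(XX d)) d ⟨e G s, e_mem d h⟩

/-- Potential vectors in the sum. -/
noncomputable def pp (d : ℕ) (s : List ℕ) (h : s.length ≤ d) : EE :=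
  inj (X := fun d => ↥(XX d)) d ⟨potV G s, potV_mem d h⟩

lemma norm_uu (d : ℕ) (s : List ℕ) (h : s.length ≤ d) : ‖uu d s h‖ = ‖e G s‖ :=
  norm_inj (X := fun d => ↥(XX d)) d _

lemma norm_pp (d : ℕ) (s : List ℕ) (h : s.length ≤ d) : ‖pp d s h‖ = ‖potV G s‖ :=
  norm_inj (X := fun d => ↥(XX d)) d _

lemma pp_cons (d : ℕ) (n : ℕ) (s : List ℕ) (h : (n :: s).length ≤ d) (h' : s.length ≤ d) :
    pp d s h' + uu d (n :: s) h = pp d (n :: s) h := by
  unfold pp uu
  rw [← map_add]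
  congr 1

lemma weak_null_uu (d : ℕ) (s : List ℕ) (h : ∀ k : ℕ, (k :: s).length ≤ d) (ψ : EE →L[ℝ] ℝ) :
    Tendsto (fun k => ψ (uu d (k :: s) (h k))) atTop (𝓝 0) := by
  refine tendsto_zero_of_l2_upper (fun k => uu d (k :: s) (h k)) 1 (fun B a => ?_) ψ
  have e1 : ∑ n ∈ B, a n • uu d (n :: s) (h n) =
      inj (X := fun d => ↥(XX d)) d (∑ n ∈ B, a n • (⟨e G (n :: s), e_mem d (h n)⟩ : XX d)) := by
    rw [map_sum]
    refine Finset.sum_congr rfl fun n _ => ?_
    rw [map_smul]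
    rfl
  rw [e1, norm_inj]
  have e2 : ‖∑ n ∈ B, a n • (⟨e G (n :: s), e_mem d (h n)⟩ : XX d)‖ =
      ‖∑ n ∈ B, a n • e G (n :: s)‖ := by
    have : ((∑ n ∈ B, a n • (⟨e G (n :: s), e_mem d (h n)⟩ : XX d) : XX d) :
        Mod G) = ∑ n ∈ B, a n • e G (n :: s) := by
      rw [Submodule.coe_sum]
      rfl
    rw [← this]
    rfl
  rw [e2]
  exact norm_sum_sibling_le s B a

theorem TC_EE : TC EE := TC_lp2 TC_XX

theorem reflexive_EE : Function.Surjective (NormedSpace.inclusionInDoubleDual ℝ EE) :=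
  reflexive_lp2 reflexive_XX

/-- The midpoint estimate used for all three moduli. -/
lemma key_mod (t : ℝ) (ht : 0 < t) (x : EE) (hx : ‖x‖ = 1) (η : ℝ) (hη : 0 < η) :
    ∃ F : Set EE, Cof F ∧ ∀ y ∈ F, ‖y‖ = 1 →
      Real.sqrt (1 + t ^ 2 / 4) - 1 - η ≤ (‖x + t • y‖ + ‖x - t • y‖) / 2 - 1 := by
  obtain ⟨F, hF, hFy⟩ := TC_EE x 0 (2 * η) (by positivity)
  refine ⟨F, hF, fun y hy hyn => ?_⟩
  have h1 := hFy (t • y) (hF.smul_mem t hy)
  simp only [add_zero, sub_zero] at h1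
  have h2 : ‖t • y‖ = t := by
    rw [norm_smul, hyn, mul_one, Real.norm_eq_abs, abs_of_pos ht]
  rw [h2, hx] at h1
  have h3 : (1 : ℝ) ^ 2 + t ^ 2 / 4 = 1 + t ^ 2 / 4 := by ring
  rw [h3] at h1
  linarith

/-- Unbundled form of the statement. -/
theorem result_aux :
    (TopologicalSpace.SeparableSpace EE ∧ ¬ FiniteDimensional ℝ EE) ∧
    Function.Surjective (NormedSpace.inclusionInDoubleDual ℝ EE) ∧
    (∀ t : ℝ, 0 < t →
      (∀ x : EE, ‖x‖ = 1 → ∀ η : ℝ, 0 < η → ∃ F : Set EE, Cof F ∧ ∀ y ∈ F, ‖y‖ = 1 →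
        Real.sqrt (1 + t ^ 2 / 12) - 1 - η ≤ (‖x + t • y‖ + ‖x - t • y‖) / 2 - 1) ∧
      (∀ x : EE, ‖x‖ = 1 → ∀ η : ℝ, 0 < η → ∃ F : Set EE, Cof F ∧ ∀ y ∈ F, ‖y‖ = 1 →
        (Real.sqrt (1 + t ^ 2 / 4) - 1) / 2 - η ≤ (‖x + t • y‖ + ‖x - t • y‖) / 2 - 1) ∧
      (∀ x : EE, ‖x‖ = 1 → ∀ η : ℝ, 0 < η → ∃ F : Set EE, Cof F ∧ ∀ y ∈ F, ‖y‖ = 1 →
        Real.sqrt (1 + t ^ 2 / 4) - 1 - η ≤ max ‖x + t • y‖ ‖x - t • y‖ - 1)) ∧
    (∀ N : EE → ℝ, IsEquivNorm' N → ¬ IsAUC' N) ∧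
    (∀ (k : ℕ) (f : Crest.AnalysisR.DiamondVertex k → EE) (D : ℝ),
      (∃ s : ℝ, 0 < s ∧ ∀ u v : Crest.AnalysisR.DiamondVertex k,
        s * ((Crest.AnalysisR.diamondDist k u v : ℕ) : ℝ) ≤ ‖f u - f v‖ ∧
        ‖f u - f v‖ ≤ D * s * ((Crest.AnalysisR.diamondDist k u v : ℕ) : ℝ)) →
      1 + (k : ℝ) / 4 ≤ D ^ 2) := by
  refine ⟨⟨separable_lp2 separable_XX, ?_⟩, reflexive_EE, ?_, ?_, ?_⟩
  · refine not_finiteDimensional_of_weakly_null (l := atTop)
      (fun k => uu 1 (k :: []) (by simp)) one_pos (fun k => ?_)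
      (weak_null_uu 1 [] (by simp))
    rw [norm_uu]
    exact one_le_norm_e (by simp)
  · intro t ht
    have hr : 1 ≤ Real.sqrt (1 + t ^ 2 / 4) := by
      rw [Real.one_le_sqrt]
      have : 0 ≤ t ^ 2 := sq_nonneg t
      linarith
    have hr12 : Real.sqrt (1 + t ^ 2 / 12) ≤ Real.sqrt (1 + t ^ 2 / 4) := by
      apply Real.sqrt_le_sqrt
      have : 0 ≤ t ^ 2 := sq_nonneg t
      linarith
    refine ⟨fun x hx η hη => ?_, fun x hx η hη => ?_, fun x hx η hη => ?_⟩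
    · obtain ⟨F, hF, h⟩ := key_mod t ht x hx η hη
      exact ⟨F, hF, fun y hy hyn => by linarith [h y hy hyn]⟩
    · obtain ⟨F, hF, h⟩ := key_mod t ht x hx η hη
      exact ⟨F, hF, fun y hy hyn => by linarith [h y hy hyn]⟩
    · obtain ⟨F, hF, h⟩ := key_mod t ht x hx η hη
      refine ⟨F, hF, fun y hy hyn => ?_⟩
      have h1 := h y hy hyn
      have h2 : ‖x + t • y‖ ≤ max ‖x + t • y‖ ‖x - t • y‖ := le_max_left _ _
      have h3 : ‖x - t • y‖ ≤ max ‖x + t • y‖ ‖x - t • y‖ := le_max_right _ _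
      linarith
  · intro N hN
    refine no_auc_of_tree N hN
      (fun n => {x | ∃ (d : ℕ) (s : List ℕ) (h : s.length ≤ d), s ≠ [] ∧ s.length + n ≤ d ∧
        x = pp d s h}) (κ := 1) (m := 1) (M := 1) one_pos one_pos ?_ ?_ ?_
    · intro n
      exact ⟨_, n + 1, [0], by simp, by simp, by simp; omega, rfl⟩
    · rintro n _ ⟨d, s, h, hs, -, rfl⟩
      rw [norm_pp, norm_potV hs]
      exact ⟨le_rfl, le_rfl⟩
    · rintro n _ ⟨d, s, h, hs, hn, rfl⟩ F hF ε hε
      have hk : ∀ k : ℕ, (k :: s).length ≤ d := fun k => by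
        simp only [List.length_cons]
        omega
      obtain ⟨k, y, hy, hlt⟩ := (hF.eventually_near (l := atTop)
        (fun k => uu d (k :: s) (hk k)) (weak_null_uu d s hk) hε).exists
      refine ⟨uu d (k :: s) (hk k), y, hy, hlt, ?_, d, k :: s, hk k, by simp, ?_, ?_⟩
      · rw [norm_uu]
        exact one_le_norm_e (by simp)
      · simp only [List.length_cons]
        omega
      · exact pp_cons d k s (hk k) h
  · rintro k f D ⟨s, hs, hf⟩
    exact distortion_bound reflexive_EE TC_EE k f D s hs hf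

/-- There is a real Banach space (RealBanach record) that is separable, infinite-dimensional and reflexive, whose given norm has at every t > 0 averaged midpoint asymptotic modulus at least √(1 + t²/12) - 1 and at least (√(1 + t²/4) - 1)/2 and maximum-based midpoint modulus at least √(1 + t²/4) - 1, on which no equivalent norm is asymptotically uniformly convex, and in which for every k every map of the depth-k countably branching diamond graph of distortion at most D has 1 + k/4 ≤ D². -/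
theorem result :
    ∃ E : Crest.AnalysisR.RealBanach, E.IsSeparableInfiniteDim ∧ E.IsReflexive ∧
      (∀ t : ℝ, 0 < t → E.MidpointModulusGE E.norm t (Real.sqrt (1 + t ^ 2 / 12) - 1) ∧
        E.MidpointModulusGE E.norm t ((Real.sqrt (1 + t ^ 2 / 4) - 1) / 2) ∧
        E.MaxMidpointModulusGE E.norm t (Real.sqrt (1 + t ^ 2 / 4) - 1)) ∧
      (∀ N : E.X → ℝ, E.IsEquivNorm N → ¬ E.IsAUC N) ∧
      ∀ (k : ℕ) (f : Crest.AnalysisR.DiamondVertex k → E.X) (D : ℝ),
        E.HasDistortionLE k f D → 1 + (k : ℝ) / 4 ≤ D ^ 2 := by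
  obtain ⟨h1, h2, h3, h4, h5⟩ := result_aux
  refine ⟨⟨EE, inferInstance, inferInstance, inferInstance⟩, h1, h2, ?_, ?_, ?_⟩
  · intro t ht
    obtain ⟨a, b, c⟩ := h3 t ht
    exact ⟨a, b, c⟩
  · exact h4
  · exact h5

end Crest.Agent.S0166
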