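import Crest.Statements.S0167
import Crest.Agent.Lib.AsympBasic
import Crest.Agent.Lib.Daugavet

set_option autoImplicit false
open Crest Crest.AnalysisR

namespace Crest.Agent.S0167


open Crest.Agent.Lib.AsympBasic Crest.Agent.Lib.Daugavet
open Crest.AnalysisR.L1Subspace MeasureTheory Filter Topology

section Measure

variable {Ω : Type} [MeasurableSpace Ω] {P : Measure Ω} [IsProbabilityMeasure P]

/-- sign of a representative -/
noncomputable def signOf (g : Lp ℝ 1 P) : Ω → ℝ := fun z => if 0 ≤ (g : Ω → ℝ) z then 1 else -1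

lemma measurable_coe (g : Lp ℝ 1 P) : Measurable (g : Ω → ℝ) :=
  (Lp.stronglyMeasurable g).measurable

lemma signOf_measurable (g : Lp ℝ 1 P) : Measurable (signOf g) :=
  Measurable.ite (measurableSet_le measurable_const (measurable_coe g)) measurable_const
    measurable_const

lemma signOf_abs (g : Lp ℝ 1 P) (z : Ω) : |signOf g z| = 1 := by
  unfold signOf
  split_ifs <;> simp

lemma signOf_mul (g : Lp ℝ 1 P) (z : Ω) : (g : Ω → ℝ) z * signOf g z = |(g : Ω → ℝ) z| := by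
  unfold signOf
  split_ifs with h
  · rw [mul_one, abs_of_nonneg h]
  · rw [abs_of_neg (not_le.1 h)]
    ring

lemma integrable_mul_sign (f g : Lp ℝ 1 P) :
    Integrable (fun z => (f : Ω → ℝ) z * signOf g z) P :=
  (L1.integrable_coeFn f).mul_bdd (c := 1) (signOf_measurable g).aestronglyMeasurable
    (Eventually.of_forall fun z => by rw [Real.norm_eq_abs, signOf_abs])

/-- pairing with the sign of `g` as a bounded functional on `L¹` -/
noncomputable def pairSign (g : Lp ℝ 1 P) : Lp ℝ 1 P →L[ℝ] ℝ :=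
  LinearMap.mkContinuous
    { toFun := fun f => ∫ z, (f : Ω → ℝ) z * signOf g z ∂P
      map_add' := fun f₁ f₂ => by
        rw [← integral_add (integrable_mul_sign f₁ g) (integrable_mul_sign f₂ g)]
        refine integral_congr_ae ?_
        filter_upwards [Lp.coeFn_add f₁ f₂] with z hz
        rw [hz, Pi.add_apply, add_mul]
      map_smul' := fun c f => by
        simp only [RingHom.id_apply, smul_eq_mul]
        rw [← integral_const_mul]
        refine integral_congr_ae ?_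
        filter_upwards [Lp.coeFn_smul c f] with z hz
        rw [hz, Pi.smul_apply, smul_eq_mul, mul_assoc] }
    1
    (fun f => by
      simp only [LinearMap.coe_mk, AddHom.coe_mk, one_mul]
      rw [L1.norm_eq_integral_norm, Real.norm_eq_abs]
      refine (abs_integral_le_integral_abs).trans (integral_mono (integrable_mul_sign f g).abs
        (L1.integrable_coeFn f).norm fun z => ?_)
      simp only [abs_mul, signOf_abs, mul_one, Real.norm_eq_abs]
      exact le_rfl)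

lemma pairSign_apply (g f : Lp ℝ 1 P) :
    pairSign g f = ∫ z, (f : Ω → ℝ) z * signOf g z ∂P := rfl

/-- absolute continuity of the integral -/
lemma abs_cont {x₀ : Ω → ℝ} (hx : Integrable x₀ P) {ζ : ℝ} (hζ : 0 < ζ) :
    ∃ δ : ℝ, 0 < δ ∧ ∀ B : Set Ω, P B < ENNReal.ofReal δ → ∫ z in B, |x₀ z| ∂P < ζ := by
  obtain ⟨δ₀, hδ₀, h⟩ := exists_pos_setLIntegral_lt_of_measure_lt (μ := P)
    (f := fun z => ‖x₀ z‖ₑ) hx.2.ne (ε := ENNReal.ofReal ζ) (by simp [hζ])
  obtain ⟨r, hr0, hr⟩ := ENNReal.lt_iff_exists_nnreal_btwn.1 hδ₀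
  have hrpos : 0 < (r : ℝ) := by exact_mod_cast hr0
  refine ⟨r, hrpos, fun B hB => ?_⟩
  have hB' : P B < δ₀ := by
    refine lt_trans hB ?_
    rwa [ENNReal.ofReal_coe_nnreal]
  have h1 := h B hB'
  rw [← ofReal_integral_norm_eq_lintegral_enorm hx.restrict] at h1
  have h2 := (ENNReal.ofReal_lt_ofReal_iff hζ).1 h1
  simpa [Real.norm_eq_abs] using h2

/-- mass of `f` on the exceptional set -/
lemma mass_lower {f g : Lp ℝ 1 P} {B : Set Ω} (hB : MeasurableSet B) {a : ℝ} (ha : 0 < a)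
    (hnear : ∀ z, z ∉ B → |(f : Ω → ℝ) z - (g : Ω → ℝ) z| ≤ a)
    (h0 : ∫ z, (f : Ω → ℝ) z * signOf g z ∂P = 0) (h1 : ∫ z, |(f : Ω → ℝ) z| ∂P = 1) :
    1 / 2 - a ≤ ∫ z in B, |(f : Ω → ℝ) z| ∂P := by
  have hf := L1.integrable_coeFn f
  have hfs := integrable_mul_sign f g
  have hfabs : Integrable (fun z => |(f : Ω → ℝ) z|) P := hf.abs
  have hsplit := integral_add_compl hB hfs
  have hsplit2 := integral_add_compl hB hfabs
  set I := ∫ z in B, |(f : Ω → ℝ) z| ∂P with hI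
  set J := ∫ z in Bᶜ, |(f : Ω → ℝ) z| ∂P with hJ
  have hB1 : -I ≤ ∫ z in B, (f : Ω → ℝ) z * signOf g z ∂P := by
    rw [hI, ← integral_neg]
    refine setIntegral_mono_on hfabs.neg.integrableOn hfs.integrableOn hB fun z _ => ?_
    have := neg_abs_le ((f : Ω → ℝ) z * signOf g z)
    rw [abs_mul, signOf_abs, mul_one] at this
    exact this
  have hB2 : J - 2 * a ≤ ∫ z in Bᶜ, (f : Ω → ℝ) z * signOf g z ∂P := by
    have hconst : Integrable (fun z : Ω => |(f : Ω → ℝ) z| - 2 * a) P :=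
      hfabs.sub (integrable_const _)
    have h2 : ∫ z in Bᶜ, (|(f : Ω → ℝ) z| - 2 * a) ∂P ≤
        ∫ z in Bᶜ, (f : Ω → ℝ) z * signOf g z ∂P := by
      refine setIntegral_mono_on hconst.integrableOn hfs.integrableOn hB.compl fun z hz => ?_
      have h3 := hnear z hz
      have h4 := signOf_mul g z
      have h5 := signOf_abs g z
      have h6 : (f : Ω → ℝ) z * signOf g z = |(g : Ω → ℝ) z| +
          ((f : Ω → ℝ) z - (g : Ω → ℝ) z) * signOf g z := by
        rw [← h4]; ring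
      have h7 : -a ≤ ((f : Ω → ℝ) z - (g : Ω → ℝ) z) * signOf g z := by
        have := neg_abs_le (((f : Ω → ℝ) z - (g : Ω → ℝ) z) * signOf g z)
        rw [abs_mul, h5, mul_one] at this
        linarith
      have h8 : |(f : Ω → ℝ) z| ≤ |(g : Ω → ℝ) z| + a := by
        have : (f : Ω → ℝ) z = (g : Ω → ℝ) z + ((f : Ω → ℝ) z - (g : Ω → ℝ) z) := by ring
        calc |(f : Ω → ℝ) z| = |(g : Ω → ℝ) z + ((f : Ω → ℝ) z - (g : Ω → ℝ) z)| := by
              rw [← this]
          _ ≤ |(g : Ω → ℝ) z| + |(f : Ω → ℝ) z - (g : Ω → ℝ) z| := abs_add_le _ _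
          _ ≤ |(g : Ω → ℝ) z| + a := by gcongr
      rw [h6]
      linarith
    have h3 : ∫ z in Bᶜ, (|(f : Ω → ℝ) z| - 2 * a) ∂P = J - 2 * a * P.real Bᶜ := by
      rw [integral_sub hfabs.integrableOn (integrable_const _), setIntegral_const]
      simp [hJ, mul_comm]
    have h4 : P.real Bᶜ ≤ 1 := measureReal_le_one
    have h5 : 2 * a * P.real Bᶜ ≤ 2 * a := by
      have : 0 ≤ 2 * a := by positivity
      nlinarith
    rw [h3] at h2
    linarith
  rw [h0] at hsplit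
  rw [h1] at hsplit2
  linarith

/-- the integral comparison -/
lemma sum_lower {x₀ f : Ω → ℝ} (hx : Integrable x₀ P) (hf : Integrable f P) {t : ℝ} (ht : 0 < t)
    {B : Set Ω} (hB : MeasurableSet B) :
    2 * (∫ z, |x₀ z| ∂P - ∫ z in B, |x₀ z| ∂P) + 2 * t * ∫ z in B, |f z| ∂P ≤
      ∫ z, |x₀ z + t * f z| ∂P + ∫ z, |x₀ z - t * f z| ∂P := by
  have h1 : Integrable (fun z => |x₀ z + t * f z|) P := (hx.add (hf.const_mul t)).abs
  have h2 : Integrable (fun z => |x₀ z - t * f z|) P := (hx.sub (hf.const_mul t)).abs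
  have hxabs : Integrable (fun z => |x₀ z|) P := hx.abs
  have hfabs : Integrable (fun z => |f z|) P := hf.abs
  have hsum : Integrable (fun z => |x₀ z + t * f z| + |x₀ z - t * f z|) P := h1.add h2
  rw [← integral_add h1 h2, ← integral_add_compl hB hsum]
  have hp1 : ∀ z, 2 * t * |f z| ≤ |x₀ z + t * f z| + |x₀ z - t * f z| := by
    intro z
    have : |(x₀ z + t * f z) - (x₀ z - t * f z)| ≤ |x₀ z + t * f z| + |x₀ z - t * f z| :=
      abs_sub _ _
    have h3 : (x₀ z + t * f z) - (x₀ z - t * f z) = 2 * t * f z := by ring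
    rw [h3, abs_mul, abs_of_pos (by positivity : 0 < 2 * t)] at this
    exact this
  have hp2 : ∀ z, 2 * |x₀ z| ≤ |x₀ z + t * f z| + |x₀ z - t * f z| := by
    intro z
    have : |(x₀ z + t * f z) + (x₀ z - t * f z)| ≤ |x₀ z + t * f z| + |x₀ z - t * f z| :=
      abs_add_le _ _
    have h3 : (x₀ z + t * f z) + (x₀ z - t * f z) = 2 * x₀ z := by ring
    rw [h3, abs_mul, abs_of_pos (by positivity : (0 : ℝ) < 2)] at this
    exact this
  have h3 : 2 * t * ∫ z in B, |f z| ∂P ≤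
      ∫ z in B, (|x₀ z + t * f z| + |x₀ z - t * f z|) ∂P := by
    rw [← integral_const_mul]
    exact setIntegral_mono_on (hfabs.const_mul _).integrableOn hsum.integrableOn hB
      fun z _ => hp1 z
  have h4 : 2 * ∫ z in Bᶜ, |x₀ z| ∂P ≤
      ∫ z in Bᶜ, (|x₀ z + t * f z| + |x₀ z - t * f z|) ∂P := by
    rw [← integral_const_mul]
    exact setIntegral_mono_on (hxabs.const_mul _).integrableOn hsum.integrableOn hB.compl
      fun z _ => hp2 z
  have h5 := integral_add_compl hB hxabs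
  have h6 : ∫ z, |x₀ z| ∂P - ∫ z in B, |x₀ z| ∂P = ∫ z in Bᶜ, |x₀ z| ∂P := by linarith
  rw [h6]
  linarith

/-- norm of a combination in `L¹` -/
lemma norm_add_smul (f₁ f₂ : Lp ℝ 1 P) (t : ℝ) :
    ‖f₁ + t • f₂‖ = ∫ z, |(f₁ : Ω → ℝ) z + t * (f₂ : Ω → ℝ) z| ∂P := by
  rw [L1.norm_eq_integral_norm]
  refine integral_congr_ae ?_
  filter_upwards [Lp.coeFn_add f₁ (t • f₂), Lp.coeFn_smul t f₂] with z h1 h2
  rw [h1, Pi.add_apply, h2, Pi.smul_apply, smul_eq_mul, Real.norm_eq_abs]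

lemma norm_sub_smul (f₁ f₂ : Lp ℝ 1 P) (t : ℝ) :
    ‖f₁ - t • f₂‖ = ∫ z, |(f₁ : Ω → ℝ) z - t * (f₂ : Ω → ℝ) z| ∂P := by
  rw [L1.norm_eq_integral_norm]
  refine integral_congr_ae ?_
  filter_upwards [Lp.coeFn_sub f₁ (t • f₂), Lp.coeFn_smul t f₂] with z h1 h2
  rw [h1, Pi.sub_apply, h2, Pi.smul_apply, smul_eq_mul, Real.norm_eq_abs]

lemma norm_eq_integral_abs (f : Lp ℝ 1 P) : ‖f‖ = ∫ z, |(f : Ω → ℝ) z| ∂P := by
  rw [L1.norm_eq_integral_norm]
  rfl

/-- the midpoint lower bound `t/2` -/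
theorem midpoint_lower (E : Submodule ℝ (Lp ℝ 1 P))
    (htb : UnitBallTotallyBoundedInMeasure P E) (x : E) (hx : ‖x‖ = 1) {t η : ℝ} (ht : 0 < t)
    (hη : 0 < η) :
    ∃ F : Set E, Cof F ∧ ∀ y ∈ F, ‖y‖ = 1 → t / 2 - η ≤ (‖x + t • y‖ + ‖x - t • y‖) / 2 - 1 := by
  classical
  have hxi := L1.integrable_coeFn (x : Lp ℝ 1 P)
  obtain ⟨δ, hδ, hab⟩ := abs_cont hxi (half_pos hη)
  set ε' : ℝ := min δ (η / (2 * t)) with hε'
  have hε'pos : 0 < ε' := lt_min hδ (by positivity)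
  obtain ⟨s, hs, hnet⟩ := htb ε' hε'pos
  let ψ : Lp ℝ 1 P → E →L[ℝ] ℝ := fun g => (pairSign g).comp E.subtypeL
  refine ⟨{y : E | ∀ g ∈ s, ψ g y = 0}, cof_biInter_ker s ψ, fun y hy hyn => ?_⟩
  -- the net point
  have hyn' : ‖(y : Lp ℝ 1 P)‖ ≤ 1 := by
    have : ‖(y : Lp ℝ 1 P)‖ = ‖y‖ := rfl
    rw [this, hyn]
  obtain ⟨g, hg, hdist⟩ := hnet y y.2 hyn'
  have hne : {a : ℝ | 0 < a ∧ P {z | a < |((y : Lp ℝ 1 P) : Ω → ℝ) z - (g : Ω → ℝ) z|} <
      ENNReal.ofReal a}.Nonempty := by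
    refine ⟨2, by norm_num, ?_⟩
    calc P _ ≤ 1 := prob_le_one
      _ < ENNReal.ofReal 2 := by
        rw [← ENNReal.ofReal_one]
        exact (ENNReal.ofReal_lt_ofReal_iff (by norm_num)).2 (by norm_num)
  obtain ⟨a, ⟨ha, haP⟩, haε⟩ := exists_lt_of_csInf_lt hne hdist
  set f : Lp ℝ 1 P := (y : Lp ℝ 1 P) with hf
  set B : Set Ω := {z | a < |(f : Ω → ℝ) z - (g : Ω → ℝ) z|} with hB
  have hBm : MeasurableSet B :=
    measurableSet_lt measurable_const ((measurable_coe f).sub (measurable_coe g)).abs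
  have hnear : ∀ z, z ∉ B → |(f : Ω → ℝ) z - (g : Ω → ℝ) z| ≤ a := fun z hz => not_lt.1 hz
  have h0 : ∫ z, (f : Ω → ℝ) z * signOf g z ∂P = 0 := hy g hg
  have h1 : ∫ z, |(f : Ω → ℝ) z| ∂P = 1 := by
    rw [← norm_eq_integral_abs]; exact hyn
  have hmass := mass_lower hBm ha hnear h0 h1
  -- exceptional set has small measure
  have haδ : a < δ := haε.trans_le (min_le_left _ _)
  have hBδ : P B < ENNReal.ofReal δ :=
    haP.trans ((ENNReal.ofReal_lt_ofReal_iff hδ).2 haδ)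
  have hζ := hab B hBδ
  have hlow := sum_lower hxi (L1.integrable_coeFn f) ht hBm
  have hxn : ∫ z, |((x : Lp ℝ 1 P) : Ω → ℝ) z| ∂P = 1 := by
    rw [← norm_eq_integral_abs]; exact hx
  rw [hxn, ← norm_add_smul, ← norm_sub_smul] at hlow
  have hc1 : ‖x + t • y‖ = ‖(x : Lp ℝ 1 P) + t • f‖ := rfl
  have hc2 : ‖x - t • y‖ = ‖(x : Lp ℝ 1 P) - t • f‖ := rfl
  rw [hc1, hc2]
  have hta : t * a ≤ η / 2 := by
    have h2 : a ≤ η / (2 * t) := (haε.trans_le (min_le_right _ _)).le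
    calc t * a ≤ t * (η / (2 * t)) := by gcongr
      _ = η / 2 := by field_simp
  have h3 : 2 * t * (1 / 2 - a) ≤ 2 * t * ∫ z in B, |(f : Ω → ℝ) z| ∂P := by
    gcongr
  nlinarith

end Measure

section Generic

variable {X : Type*} [NormedAddCommGroup X] [NormedSpace ℝ X]

lemma max_arith {t : ℝ} (ht : 0 < t) :
    (1 + t + max 1 (t - 1)) / 2 - 1 = max (t / 2) (t - 1) := by
  rcases le_total t 2 with h | h
  · rw [max_eq_left (by linarith), max_eq_left (by linarith)]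
    ring
  · rw [max_eq_right (by linarith), max_eq_right (by linarith)]
    ring

lemma max_arith2 (t : ℝ) : max 1 (t - 1) - 1 = max 0 (t - 2) := by
  rcases le_total t 2 with h | h
  · rw [max_eq_left (by linarith), max_eq_left (by linarith)]
    ring
  · rw [max_eq_right (by linarith), max_eq_right (by linarith)]
    ring

theorem midpoint_upper (hD : HasDaugavetProperty X) {t : ℝ} (ht : 0 < t) {x : X} (hx : ‖x‖ = 1)
    {F : Set X} (hF : Cof F) {η : ℝ} (hη : 0 < η) :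
    ∃ y ∈ F, ‖y‖ = 1 ∧ (‖x + t • y‖ + ‖x - t • y‖) / 2 - 1 ≤ max (t / 2) (t - 1) + η := by
  obtain ⟨y, hyF, hyn, hy⟩ := exists_anti_aligned hD hx hF (η := η / t) (by positivity)
  refine ⟨y, hyF, hyn, ?_⟩
  have h1 := hy t ht
  have h2 : t * (η / t) = η := by field_simp
  rw [h2] at h1
  have h3 : ‖x + t • y‖ ≤ 1 + t := by
    refine (norm_add_le _ _).trans ?_
    rw [hx, norm_smul, hyn, mul_one, Real.norm_eq_abs, abs_of_pos ht]
  rw [← max_arith ht]
  linarith

theorem oneSided_upper (hD : HasDaugavetProperty X) {t : ℝ} (ht : 0 < t) {x : X} (hx : ‖x‖ = 1)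
    {F : Set X} (hF : Cof F) {η : ℝ} (hη : 0 < η) :
    ∃ y ∈ F, ‖y‖ = 1 ∧ ‖x + t • y‖ - 1 ≤ max 0 (t - 2) + η := by
  obtain ⟨y, hyF, hyn, hy⟩ := exists_anti_aligned hD hx hF (η := η / t) (by positivity)
  refine ⟨-y, hF.neg_mem hyF, by rw [norm_neg]; exact hyn, ?_⟩
  have h1 := hy t ht
  have h2 : t * (η / t) = η := by field_simp
  rw [h2] at h1
  rw [smul_neg, ← sub_eq_add_neg, ← max_arith2]
  linarith

theorem oneSided_lower {t : ℝ} (ht : 0 < t) {x : X} (hx : ‖x‖ = 1) {η : ℝ} (hη : 0 < η) :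
    ∃ F : Set X, Cof F ∧ ∀ y ∈ F, ‖y‖ = 1 → max 0 (t - 2) - η ≤ ‖x + t • y‖ - 1 := by
  obtain ⟨g, hg, hgx⟩ := exists_dual_vector'' ℝ x
  simp only [RCLike.ofReal_real_eq_id, id_eq] at hgx
  refine ⟨{y | g y = 0}, cof_ker g, fun y hy hyn => ?_⟩
  have hy0 : g y = 0 := hy
  have h1 : 1 ≤ ‖x + t • y‖ := by
    have h2 := (le_abs_self _).trans (g.le_opNorm (x + t • y))
    rw [map_add, map_smul, hy0, smul_zero, add_zero, hgx, hx] at h2
    nlinarith [norm_nonneg (x + t • y)]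
  have h2 : t - 1 ≤ ‖x + t • y‖ := by
    have h3 : ‖t • y‖ ≤ ‖x + t • y‖ + ‖x‖ := by
      have := norm_sub_le (x + t • y) x
      simpa using this
    rw [norm_smul, hyn, mul_one, Real.norm_eq_abs, abs_of_pos ht, hx] at h3
    linarith
  have h3 : max 0 (t - 2) ≤ ‖x + t • y‖ - 1 := max_le (by linarith) (by linarith)
  linarith

theorem midpoint_trivial {t : ℝ} (ht : 0 < t) {x y : X} (hyn : ‖y‖ = 1) :
    t - 1 ≤ (‖x + t • y‖ + ‖x - t • y‖) / 2 - 1 := by
  have h1 : ‖(x + t • y) - (x - t • y)‖ ≤ ‖x + t • y‖ + ‖x - t • y‖ := norm_sub_le _ _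
  have h2 : (x + t • y) - (x - t • y) = (2 * t) • y := by
    rw [mul_smul, two_smul]; abel
  rw [h2, norm_smul, hyn, mul_one, Real.norm_eq_abs, abs_of_pos (by positivity)] at h1
  linarith

/-- The no-AUC conclusion for Daugavet spaces. -/
theorem no_auc_of_daugavet (hD : HasDaugavetProperty X) (hne : ∃ x : X, ‖x‖ = 1)
    (N : X → ℝ) (hN : IsEquivNorm' N) : ¬ IsAUC' N := by
  obtain ⟨x₀, hx₀⟩ := hne
  refine no_auc_of_tree N hN (fun _ => {x : X | ‖x‖ = 1}) (κ := 1 / 2) (m := 1) (M := 1)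
    (by norm_num) one_pos (fun _ => ⟨x₀, hx₀⟩) ?_ ?_
  · intro n x hx
    have hx' : ‖x‖ = 1 := hx
    rw [hx']
    exact ⟨le_rfl, le_rfl⟩
  · intro n x hx F hF ε hε
    have hx' : ‖x‖ = 1 := hx
    obtain ⟨g, hg, hgx⟩ := exists_dual_vector'' ℝ x
    simp only [RCLike.ofReal_real_eq_id, id_eq] at hgx
    set η : ℝ := min (ε / 2) (1 / 4) with hη
    have hηpos : 0 < η := lt_min (half_pos hε) (by norm_num)
    have hη1 : η ≤ ε / 2 := min_le_left _ _
    have hη2 : η ≤ 1 / 4 := min_le_right _ _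
    obtain ⟨y, ⟨hyF, hyg⟩, hyn, hy⟩ := exists_anti_aligned hD hx' (hF.inter (cof_ker g)) hηpos
    have hyg' : g y = 0 := hyg
    have h1 := hy 1 one_pos
    simp only [one_smul, sub_self, one_mul] at h1
    rw [max_eq_left (by norm_num : (0 : ℝ) ≤ 1)] at h1
    set n' : ℝ := ‖x - y‖ with hn'
    have hlow : 1 ≤ n' := by
      have h2 := (le_abs_self _).trans (g.le_opNorm (x - y))
      rw [map_sub, hyg', sub_zero, hgx, hx'] at h2
      nlinarith [norm_nonneg (x - y)]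
    have hnpos : 0 < n' := by linarith
    set x' : X := n'⁻¹ • (x - y) with hx'def
    have hx'n : ‖x'‖ = 1 := by
      rw [hx'def, norm_smul, norm_inv, norm_norm, inv_mul_cancel₀ hnpos.ne']
    have hclose : ‖(x' - x) - (-y)‖ ≤ η := by
      have h2 : (x' - x) - (-y) = (n'⁻¹ - 1) • (x - y) := by
        rw [hx'def, sub_smul, one_smul]
        abel
      rw [h2, norm_smul, Real.norm_eq_abs, ← hn']
      have h3 : |n'⁻¹ - 1| * n' = |(n'⁻¹ - 1) * n'| := by
        rw [abs_mul, abs_of_pos hnpos]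
      rw [h3, sub_mul, inv_mul_cancel₀ hnpos.ne', one_mul, abs_le]
      constructor <;> linarith
    refine ⟨x' - x, -y, hF.neg_mem hyF, by linarith, ?_, ?_⟩
    · have h2 : ‖-y‖ ≤ ‖x' - x‖ + ‖(x' - x) - (-y)‖ := by
        have := norm_sub_le (x' - x) ((x' - x) - (-y))
        simpa using this
      rw [norm_neg, hyn] at h2
      linarith
    · show ‖x + (x' - x)‖ = 1
      rw [add_sub_cancel, hx'n]

end Generic

/-- Unbundled form of the statement. -/
theorem result_aux {Ω : Type} [MeasurableSpace Ω] {P : MeasureTheory.Measure Ω}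
    [MeasureTheory.IsProbabilityMeasure P]
    (E : Submodule ℝ (MeasureTheory.Lp ℝ 1 P)) (hinf : ¬ FiniteDimensional ℝ E)
    (htb : UnitBallTotallyBoundedInMeasure P E) (hD : HasDaugavetProperty E) :
    (∀ t : ℝ, 0 < t →
      (∀ x : E, ‖x‖ = 1 → ∀ η : ℝ, 0 < η → ∃ F : Set E, Cof F ∧ ∀ y ∈ F, ‖y‖ = 1 →
        max (t / 2) (t - 1) - η ≤ (‖x + t • y‖ + ‖x - t • y‖) / 2 - 1) ∧
      (∀ x : E, ‖x‖ = 1 → ∀ F : Set E, Cof F → ∀ η : ℝ, 0 < η → ∃ y ∈ F, ‖y‖ = 1 ∧
        (‖x + t • y‖ + ‖x - t • y‖) / 2 - 1 ≤ max (t / 2) (t - 1) + η) ∧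
      (∀ x : E, ‖x‖ = 1 → ∀ η : ℝ, 0 < η → ∃ F : Set E, Cof F ∧ ∀ y ∈ F, ‖y‖ = 1 →
        max 0 (t - 2) - η ≤ ‖x + t • y‖ - 1) ∧
      (∀ x : E, ‖x‖ = 1 → ∀ F : Set E, Cof F → ∀ η : ℝ, 0 < η → ∃ y ∈ F, ‖y‖ = 1 ∧
        ‖x + t • y‖ - 1 ≤ max 0 (t - 2) + η)) ∧
    ∀ N : E → ℝ, IsEquivNorm' N → ¬ IsAUC' N := by
  refine ⟨fun t ht => ⟨?_, ?_, ?_, ?_⟩, ?_⟩
  · intro x hx η hη
    obtain ⟨F, hF, hFy⟩ := midpoint_lower E htb x hx ht hη
    refine ⟨F, hF, fun y hy hyn => ?_⟩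
    rcases max_cases (t / 2) (t - 1) with ⟨h1, _⟩ | ⟨h1, _⟩
    · rw [h1]; exact hFy y hy hyn
    · rw [h1]
      have := midpoint_trivial ht (x := x) hyn
      linarith
  · intro x hx F hF η hη
    exact midpoint_upper hD ht hx hF hη
  · intro x hx η hη
    exact oneSided_lower ht hx hη
  · intro x hx F hF η hη
    exact oneSided_upper hD ht hx hF hη
  · intro N hN
    have hnt : Nontrivial E := by
      by_contra h
      rw [not_nontrivial_iff_subsingleton] at h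
      exact hinf inferInstance
    obtain ⟨w, hw⟩ := exists_ne (0 : E)
    have hwpos : 0 < ‖w‖ := norm_pos_iff.2 hw
    refine no_auc_of_daugavet hD ⟨‖w‖⁻¹ • w, ?_⟩ N hN
    rw [norm_smul, norm_inv, norm_norm, inv_mul_cancel₀ hwpos.ne']

/-- Let E be an infinite-dimensional closed subspace of the real L¹ of a probability space whose closed unit ball is totally bounded for convergence in measure and whose norm has the Daugavet property. Then at every unit x ∈ E and every t > 0 the averaged midpoint quantity sup_F inf_y ((‖x+ty‖+‖x-ty‖)/2 - 1) equals max(t/2, t-1) and the one-sided one sup_F inf_y (‖x+ty‖ - 1) equals max(0, t-2), as matching lower and upper bounds, and E admits no equivalent asymptotically uniformly convex norm. -/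
theorem result (Ω : Type) [MeasurableSpace Ω] (P : MeasureTheory.Measure Ω) [MeasureTheory.IsProbabilityMeasure P]
    (E : Submodule ℝ (MeasureTheory.Lp ℝ 1 P)) (hcl : IsClosed (E : Set (MeasureTheory.Lp ℝ 1 P)))
    (hinf : ¬ FiniteDimensional ℝ E)
    (htb : Crest.AnalysisR.L1Subspace.UnitBallTotallyBoundedInMeasure P E)
    (hD : Crest.AnalysisR.L1Subspace.HasDaugavetProperty E) :
    (∀ t : ℝ, 0 < t →
      (Crest.AnalysisR.L1Subspace.toRealBanach P E hcl).MidpointModulusGE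
          (Crest.AnalysisR.L1Subspace.toRealBanach P E hcl).norm t (max (t / 2) (t - 1)) ∧
        (Crest.AnalysisR.L1Subspace.toRealBanach P E hcl).MidpointModulusLE
          (Crest.AnalysisR.L1Subspace.toRealBanach P E hcl).norm t (max (t / 2) (t - 1)) ∧
        (Crest.AnalysisR.L1Subspace.toRealBanach P E hcl).OneSidedModulusGE
          (Crest.AnalysisR.L1Subspace.toRealBanach P E hcl).norm t (max 0 (t - 2)) ∧
        (Crest.AnalysisR.L1Subspace.toRealBanach P E hcl).OneSidedModulusLE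
          (Crest.AnalysisR.L1Subspace.toRealBanach P E hcl).norm t (max 0 (t - 2))) ∧
      ∀ N : E → ℝ, (Crest.AnalysisR.L1Subspace.toRealBanach P E hcl).IsEquivNorm N →
        ¬ (Crest.AnalysisR.L1Subspace.toRealBanach P E hcl).IsAUC N := by
  exact result_aux E hinf htb hD

end Crest.Agent.S0167
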