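import Crest.Statements.S0168
import Crest.Agent.Lib.TreeCore

set_option autoImplicit false
open Crest Crest.AnalysisR

namespace Crest.Agent.S0168


open Crest.Agent.Lib.AsympBasic Crest.Agent.Lib.TreeCore
open Crest.AnalysisR.TreePotential Filter Topology

/-- Unbundled form of the statement. -/
theorem result_aux (m : PotentialModel) :
    (TopologicalSpace.SeparableSpace (Mod m) ∧ ¬ FiniteDimensional ℝ (Mod m)) ∧
    (∀ t : ℝ, 0 < t → t < 1 → ∀ x : Mod m, ‖x‖ = 1 → ∀ η : ℝ, 0 < η →
      ∃ F : Set (Mod m), Cof F ∧ ∀ y ∈ F, ‖y‖ = 1 →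
        Real.sqrt (1 + t ^ 2 / 4) - 1 - η ≤ (‖x + t • y‖ + ‖x - t • y‖) / 2 - 1) ∧
    ∀ N : Mod m → ℝ, IsEquivNorm' N → ¬ IsAUC' N := by
  refine ⟨⟨separable_mod m, ?_⟩, ?_, ?_⟩
  · exact not_finiteDimensional_of_weakly_null (l := atTop) (fun n => e m (n :: []))
      one_pos (fun n => one_le_norm_e (by simp)) (weak_null_sibling [])
  · intro t ht _ x hx η hη
    obtain ⟨F, hF, hFy⟩ := twoCentre x (0 : Mod m) (η := 2 * η) (by positivity)
    refine ⟨F, hF, fun y hy hyn => ?_⟩
    have h1 := hFy (t • y) (hF.smul_mem t hy)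
    simp only [add_zero, sub_zero] at h1
    have h2 : ‖t • y‖ = t := by
      rw [norm_smul, hyn, mul_one, Real.norm_eq_abs, abs_of_pos ht]
    rw [h2, hx] at h1
    have h3 : (1 : ℝ) ^ 2 + t ^ 2 / 4 = 1 + t ^ 2 / 4 := by ring
    rw [h3] at h1
    linarith
  · intro N hN
    refine no_auc_of_tree N hN (fun _ => {x | ∃ s : List ℕ, s ≠ [] ∧ x = potV m s}) (κ := 1)
      (m := 1) (M := 1) one_pos one_pos (fun _ => ⟨_, [0], by simp, rfl⟩) ?_ ?_
    · rintro n _ ⟨s, hs, rfl⟩
      rw [norm_potV hs]
      exact ⟨le_rfl, le_rfl⟩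
    · rintro n _ ⟨s, hs, rfl⟩ F hF ε hε
      obtain ⟨k, y, hy, hlt⟩ := (hF.eventually_near (l := atTop) (fun k => e m (k :: s))
        (weak_null_sibling s) hε).exists
      exact ⟨e m (k :: s), y, hy, hlt, one_le_norm_e (by simp), k :: s, by simp, rfl⟩

/-- For each of the four bounded-potential coordinate models on the countably branching tree (rootless sibling, rooted sibling, antichain, global), the generated space, namely the closure of the span of the coordinate vectors in the supremum norm over the model's tests, is separable and infinite-dimensional, its norm has at every unit centre and every 0 < t < 1 averaged midpoint asymptotic quantity at least √(1 + t²/4) - 1, and no equivalent norm on it is asymptotically uniformly convex. -/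
theorem result
    (m : Crest.AnalysisR.TreePotential.PotentialModel) :
    (Crest.AnalysisR.TreePotential.modelBanach m).IsSeparableInfiniteDim ∧
      (∀ t : ℝ, 0 < t → t < 1 →
        (Crest.AnalysisR.TreePotential.modelBanach m).MidpointModulusGE
          (Crest.AnalysisR.TreePotential.modelBanach m).norm t (Real.sqrt (1 + t ^ 2 / 4) - 1)) ∧
      ∀ N : (Crest.AnalysisR.TreePotential.modelBanach m).X → ℝ,
        (Crest.AnalysisR.TreePotential.modelBanach m).IsEquivNorm N →
          ¬ (Crest.AnalysisR.TreePotential.modelBanach m).IsAUC N := by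
  exact result_aux m

end Crest.Agent.S0168
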