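import Crest.Statements.S0169
import Crest.Agent.Lib.AsympBasic
-- import your own Crest.Agent.* helpers here

set_option autoImplicit false
open MeasureTheory ProbabilityTheory
open Crest Crest.AnalysisR

namespace Crest.Agent.S0169

open Crest.Agent.Lib.AsympBasic
open Crest.AnalysisR.TreeProduct
open Filter Topology

/-- the non-root vertices on the root path of a vertex -/
def pathSet : List ℕ → Finset (List ℕ)
  | [] => ∅
  | a :: v => insert (a :: v) (pathSet v)

lemma length_le_of_mem_pathSet {v u : List ℕ} (h : u ∈ pathSet v) : u.length ≤ v.length := by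
  induction v with
  | nil => simp [pathSet] at h
  | cons a v ih =>
    simp only [pathSet, Finset.mem_insert] at h
    rcases h with rfl | h
    · exact le_rfl
    · exact (ih h).trans (Nat.le_succ _)

lemma cons_not_mem_pathSet (a : ℕ) (v : List ℕ) : a :: v ∉ pathSet v := by
  intro h
  have := length_le_of_mem_pathSet h
  simp at this

section
set_option linter.unusedSectionVars false
variable {Ω : Type} [MeasurableSpace Ω]

lemma pathProduct_eq_prod (W : List ℕ → Ω → ℝ) (v : List ℕ) :
    pathProduct W v = ∏ u ∈ pathSet v, W u := by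
  induction v with
  | nil => funext z; simp [pathProduct, pathSet]
  | cons a v ih =>
    funext z
    simp only [pathProduct, pathSet, Finset.prod_insert (cons_not_mem_pathSet a v), Pi.mul_apply]
    rw [ih, mul_comm]

lemma measurable_pathProduct {W : List ℕ → Ω → ℝ} (h : ∀ v, Measurable (W v)) (v : List ℕ) :
    Measurable (pathProduct W v) := by
  induction v with
  | nil => exact measurable_const
  | cons a v ih => exact ih.mul (h _)

variable {ν : Measure ℝ} [IsProbabilityMeasure ν] {μ : Measure Ω} [IsProbabilityMeasure μ]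
  {W : List ℕ → Ω → ℝ}

lemma integrable_id_of_mean (hmean : ∫ x, x ∂ν = 1) : Integrable (fun x : ℝ => x) ν := by
  by_contra h
  rw [integral_undef h] at hmean
  exact zero_ne_one hmean

lemma integrable_sub_sq (hmean : ∫ x, x ∂ν = 1) (hm2 : Integrable (fun x : ℝ => x ^ 2) ν) :
    Integrable (fun x : ℝ => (x - 1) ^ 2) ν := by
  have h1 := integrable_id_of_mean hmean
  have : (fun x : ℝ => (x - 1) ^ 2) = fun x : ℝ => x ^ 2 - 2 * x + 1 := by
    funext x; ring
  rw [this]
  exact (hm2.sub (h1.const_mul 2)).add (integrable_const _)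

lemma dist_pos_of_not_dirac (hnc : ∀ c : ℝ, ν ≠ Measure.dirac c) (hmean : ∫ x, x ∂ν = 1) :
    0 < ∫ x, |x - 1| ∂ν := by
  have h1 := integrable_id_of_mean hmean
  have hint : Integrable (fun x : ℝ => |x - 1|) ν := (h1.sub (integrable_const _)).abs
  have hnn : 0 ≤ fun x : ℝ => |x - 1| := fun x => abs_nonneg _
  refine lt_of_le_of_ne (integral_nonneg hnn) fun h0 => hnc 1 ?_
  have h2 := (integral_eq_zero_iff_of_nonneg hnn hint).1 h0.symm
  have hnull : ν {x : ℝ | x ≠ 1} = 0 := by
    have : {x : ℝ | x ≠ 1} = {x : ℝ | ¬ (|x - 1| = 0)} := by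
      ext x
      simp [sub_eq_zero]
    rw [this]
    exact h2
  refine Measure.ext fun s hs => ?_
  by_cases hmem : (1 : ℝ) ∈ s
  · rw [Measure.dirac_apply_of_mem hmem]
    refine (prob_compl_eq_zero_iff hs).1 (measure_mono_null ?_ hnull)
    intro x hx hx1
    exact hx (hx1 ▸ hmem)
  · rw [Measure.dirac_apply' _ hs, Set.indicator_of_notMem hmem]
    refine measure_mono_null ?_ hnull
    intro x hx hx1
    exact hmem (hx1 ▸ hx)

variable (hW : IsRealization ν μ W)
include hW

lemma integrable_comp {φ : ℝ → ℝ} (hφ : Integrable φ ν) (hφm : Measurable φ) {u : List ℕ}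
    (hu : u ≠ []) : Integrable (fun z => φ (W u z)) μ := by
  have := hW.2.2 u hu
  rw [← this] at hφ
  exact (integrable_map_measure hφm.aestronglyMeasurable (hW.1 u).aemeasurable).1 hφ

lemma integral_comp {φ : ℝ → ℝ} (hφm : Measurable φ) {u : List ℕ}
    (hu : u ≠ []) : ∫ z, φ (W u z) ∂μ = ∫ x, φ x ∂ν := by
  have := hW.2.2 u hu
  rw [← this]
  exact (integral_map (hW.1 u).aemeasurable hφm.aestronglyMeasurable).symm

lemma pos_ae (hpos : ν (Set.Ioi 0) = 1) {u : List ℕ} (hu : u ≠ []) :
    ∀ᵐ z ∂μ, 0 < W u z := by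
  have hν : ∀ᵐ x ∂ν, 0 < x := by
    have h0 : ν (Set.Ioi (0 : ℝ))ᶜ = 0 := (prob_compl_eq_zero_iff measurableSet_Ioi).2 hpos
    have : (Set.Ioi (0 : ℝ))ᶜ = {x : ℝ | ¬ 0 < x} := by
      ext x; simp
    rw [this] at h0
    exact h0
  rw [← hW.2.2 u hu] at hν
  exact ae_of_ae_map (hW.1 u).aemeasurable hν

/-- the path products are integrable, nonnegative, of mean one -/
lemma path_props (hmean : ∫ x, x ∂ν = 1) (hpos : ν (Set.Ioi 0) = 1) (v : List ℕ) :
    Integrable (pathProduct W v) μ ∧ ∫ z, pathProduct W v z ∂μ = 1 ∧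
      ∀ᵐ z ∂μ, 0 ≤ pathProduct W v z := by
  induction v with
  | nil =>
    refine ⟨?_, ?_, ?_⟩
    · exact integrable_const (1 : ℝ)
    · simp [pathProduct]
    · exact Eventually.of_forall fun z => by simp [pathProduct]
  | cons a v ih =>
    obtain ⟨h₁, h₂, h₃⟩ := ih
    have hne : a :: v ≠ [] := by simp
    have hindep : IndepFun (pathProduct W v) (W (a :: v)) μ := by
      rw [pathProduct_eq_prod]
      exact hW.2.1.indepFun_finsetProd_of_notMem hW.1 (cons_not_mem_pathSet a v)
    have hW1 : Integrable (W (a :: v)) μ :=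
      integrable_comp hW (integrable_id_of_mean hmean) measurable_id hne
    have hfun : pathProduct W (a :: v) = pathProduct W v * W (a :: v) := rfl
    refine ⟨?_, ?_, ?_⟩
    · rw [hfun]
      exact hindep.integrable_mul h₁ hW1
    · have := hindep.integral_fun_mul_eq_mul_integral h₁.aestronglyMeasurable
        hW1.aestronglyMeasurable
      have h4 : ∫ z, W (a :: v) z ∂μ = 1 :=
        (integral_comp hW (φ := fun x => x) measurable_id hne).trans hmean
      simp only [hfun, Pi.mul_apply]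
      rw [this, h₂, h4, one_mul]
    · filter_upwards [h₃, pos_ae hW hpos hne] with z hz1 hz2
      simp only [hfun, Pi.mul_apply]
      exact mul_nonneg hz1 hz2.le

omit hW in
/-- `(∫|S|)² ≤ ∫S²` on a probability space. -/
lemma integral_abs_le_sqrt {S : Ω → ℝ} (hS : Integrable S μ) (hS2 : Integrable (fun z => S z ^ 2) μ) :
    ∫ z, |S z| ∂μ ≤ Real.sqrt (∫ z, S z ^ 2 ∂μ) := by
  set c := ∫ z, |S z| ∂μ with hc
  have habs : Integrable (fun z => |S z|) μ := hS.abs
  have h0 : 0 ≤ ∫ z, (|S z| - c) ^ 2 ∂μ := integral_nonneg fun z => sq_nonneg _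
  have hexp : ∀ z, (|S z| - c) ^ 2 = S z ^ 2 - 2 * c * |S z| + c ^ 2 := by
    intro z
    have : |S z| ^ 2 = S z ^ 2 := sq_abs _
    ring_nf
    rw [this]
    ring
  have hcomp : ∫ z, (|S z| - c) ^ 2 ∂μ = ∫ z, S z ^ 2 ∂μ - c ^ 2 := by
    simp_rw [hexp]
    have h1 : Integrable (fun z => S z ^ 2 - 2 * c * |S z|) μ := hS2.sub (habs.const_mul _)
    rw [integral_add h1 (integrable_const _),
      integral_sub hS2 (habs.const_mul _), integral_const_mul, ← hc]
    simp
    ring
  rw [hcomp] at h0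
  exact Real.le_sqrt_of_sq_le (by linarith)

/-- the centred increments -/
lemma sum_sq_bound (hmean : ∫ x, x ∂ν = 1) (hm2 : Integrable (fun x : ℝ => x ^ 2) ν)
    (v : List ℕ) (A : Finset ℕ) (a : ℕ → ℝ) :
    ∫ z, |∑ m ∈ A, a m * (W (m :: v) z - 1)| ∂μ ≤
      Real.sqrt (∫ x, (x - 1) ^ 2 ∂ν) * Real.sqrt (∑ m ∈ A, a m ^ 2) := by
  classical
  have hne : ∀ m : ℕ, m :: v ≠ [] := fun m => by simp
  set D : ℕ → Ω → ℝ := fun m z => W (m :: v) z - 1 with hD
  have hDmeas : ∀ m, Measurable (D m) := fun m => (hW.1 _).sub measurable_const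
  have hDsq : ∀ m, Integrable (fun z => D m z ^ 2) μ := fun m =>
    integrable_comp hW (φ := fun x => (x - 1) ^ 2) (integrable_sub_sq hmean hm2)
      (by fun_prop) (hne m)
  have hDL2 : ∀ m, MemLp (D m) 2 μ := fun m =>
    (memLp_two_iff_integrable_sq (hDmeas m).aestronglyMeasurable).2 (hDsq m)
  have hDint : ∀ m, Integrable (D m) μ := fun m => (hDL2 m).integrable (by norm_num)
  have hDmean : ∀ m, ∫ z, D m z ∂μ = 0 := by
    intro m
    have h1 : ∫ z, W (m :: v) z ∂μ = 1 :=
      (integral_comp hW (φ := fun x => x) measurable_id (hne m)).trans hmean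
    have h2 : Integrable (W (m :: v)) μ :=
      integrable_comp hW (integrable_id_of_mean hmean) measurable_id (hne m)
    simp only [hD]
    rw [integral_sub h2 (integrable_const _), h1]
    simp
  have hprod : ∀ m m', Integrable (fun z => D m z * D m' z) μ := fun m m' =>
    (hDL2 m).integrable_mul (hDL2 m')
  have hoff : ∀ m m', m ≠ m' → ∫ z, D m z * D m' z ∂μ = 0 := by
    intro m m' hmm
    have hi : IndepFun (W (m :: v)) (W (m' :: v)) μ :=
      hW.2.1.indepFun (fun h => hmm (List.cons.inj h).1)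
    have hi2 : IndepFun (D m) (D m') μ :=
      hi.comp (φ := fun x => x - 1) (ψ := fun x => x - 1) (by fun_prop) (by fun_prop)
    rw [hi2.integral_fun_mul_eq_mul_integral (hDint m).aestronglyMeasurable
      (hDint m').aestronglyMeasurable, hDmean m]
    simp
  have hdiag : ∀ m, ∫ z, D m z * D m z ∂μ = ∫ x, (x - 1) ^ 2 ∂ν := by
    intro m
    have := integral_comp hW (φ := fun x => (x - 1) ^ 2) (by fun_prop) (hne m)
    rw [← this]
    refine integral_congr_ae (Eventually.of_forall fun z => ?_)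
    simp [hD, pow_two]
  set S : Ω → ℝ := fun z => ∑ m ∈ A, a m * D m z with hS
  have hSint : Integrable S μ :=
    integrable_finsetSum _ fun m _ => (hDint m).const_mul _
  have hSsq : (fun z => S z ^ 2) = fun z => ∑ m ∈ A, ∑ m' ∈ A, a m * a m' * (D m z * D m' z) := by
    funext z
    simp only [hS, pow_two]
    rw [Finset.sum_mul_sum]
    refine Finset.sum_congr rfl fun m _ => Finset.sum_congr rfl fun m' _ => by ring
  have hSsqint : Integrable (fun z => S z ^ 2) μ := by
    rw [hSsq]
    exact integrable_finsetSum _ fun m _ => integrable_finsetSum _ fun m' _ =>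
      (hprod m m').const_mul _
  have hSsqval : ∫ z, S z ^ 2 ∂μ = (∫ x, (x - 1) ^ 2 ∂ν) * ∑ m ∈ A, a m ^ 2 := by
    rw [hSsq, integral_finsetSum _ (fun m _ => integrable_finsetSum _ fun m' _ =>
      (hprod m m').const_mul _), Finset.mul_sum]
    refine Finset.sum_congr rfl fun m hm => ?_
    rw [integral_finsetSum _ (fun m' _ => (hprod m m').const_mul _)]
    rw [Finset.sum_eq_single m]
    · rw [integral_const_mul, hdiag]
      ring
    · intro m' _ hne'
      rw [integral_const_mul, hoff m m' hne'.symm]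
      simp
    · intro h
      exact absurd hm h
  have := integral_abs_le_sqrt hSint hSsqint
  rw [hSsqval, Real.sqrt_mul (integral_nonneg fun x => sq_nonneg _)] at this
  exact this

/-- independence of a path product and a combination of centred child multipliers -/
lemma indep_path_sum (v : List ℕ) (A : Finset ℕ) (a : ℕ → ℝ) :
    IndepFun (pathProduct W v) (fun z => ∑ m ∈ A, a m * (W (m :: v) z - 1)) μ := by
  classical
  set B : Finset (List ℕ) := A.image (fun m => m :: v) with hB
  have hdisj : Disjoint (pathSet v) B := by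
    rw [Finset.disjoint_left]
    intro u hu hu'
    rw [hB, Finset.mem_image] at hu'
    obtain ⟨m, _, rfl⟩ := hu'
    exact cons_not_mem_pathSet m v hu
  have h := hW.2.1.indepFun_finset (pathSet v) B hdisj hW.1
  set φ : ((i : pathSet v) → ℝ) → ℝ := fun f => ∏ i, f i with hφ
  set ψ : ((i : B) → ℝ) → ℝ := fun f => ∑ i, a (i.1.headD 0) * (f i - 1) with hψ
  have hφm : Measurable φ := by
    simp only [hφ]
    exact Finset.measurable_prod _ fun i _ => measurable_pi_apply i
  have hψm : Measurable ψ := by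
    simp only [hψ]
    refine Finset.measurable_sum _ fun i _ => ?_
    exact ((measurable_pi_apply i).sub measurable_const).const_mul _
  have := h.comp hφm hψm
  convert this using 1
  · funext z
    simp only [Function.comp, hφ]
    rw [pathProduct_eq_prod, Finset.prod_apply]
    exact (Finset.prod_coe_sort (pathSet v) (fun u => W u z)).symm
  · funext z
    simp only [Function.comp, hψ]
    rw [Finset.sum_coe_sort B (fun u => a (u.headD 0) * (W u z - 1)), hB,
      Finset.sum_image (fun x _ y _ h => (List.cons.inj h).1)]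
    simp

/-- `L¹` classes of the path products -/
noncomputable def cl (hmean : ∫ x, x ∂ν = 1) (hpos : ν (Set.Ioi 0) = 1) (v : List ℕ) :
    Lp ℝ 1 μ :=
  (memLp_one_iff_integrable.2 (path_props hW hmean hpos v).1).toLp _

lemma cl_coe (hmean : ∫ x, x ∂ν = 1) (hpos : ν (Set.Ioi 0) = 1) (v : List ℕ) :
    (cl hW hmean hpos v : Ω → ℝ) =ᵐ[μ] pathProduct W v :=
  MemLp.coeFn_toLp _

lemma cl_mem (hmean : ∫ x, x ∂ν = 1) (hpos : ν (Set.Ioi 0) = 1) (v : List ℕ) :
    cl hW hmean hpos v ∈ productSpan μ W :=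
  Submodule.le_topologicalClosure _ (Submodule.subset_span ⟨v, cl_coe hW hmean hpos v⟩)

lemma norm_cl (hmean : ∫ x, x ∂ν = 1) (hpos : ν (Set.Ioi 0) = 1) (v : List ℕ) :
    ‖cl hW hmean hpos v‖ = 1 := by
  rw [L1.norm_eq_integral_norm]
  have h := path_props hW hmean hpos v
  rw [← h.2.1]
  refine integral_congr_ae ?_
  filter_upwards [cl_coe hW hmean hpos v, h.2.2] with z hz hz2
  rw [hz, Real.norm_eq_abs, abs_of_nonneg hz2]

lemma combo_coe (hmean : ∫ x, x ∂ν = 1) (hpos : ν (Set.Ioi 0) = 1) (v : List ℕ) (A : Finset ℕ)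
    (a : ℕ → ℝ) :
    ((∑ m ∈ A, a m • (cl hW hmean hpos (m :: v) - cl hW hmean hpos v) : Lp ℝ 1 μ) : Ω → ℝ)
      =ᵐ[μ] fun z => pathProduct W v z * ∑ m ∈ A, a m * (W (m :: v) z - 1) := by
  classical
  induction A using Finset.induction_on with
  | empty =>
    simp only [Finset.sum_empty, mul_zero]
    exact Lp.coeFn_zero _ _ _
  | insert m A hm ih =>
    rw [Finset.sum_insert hm]
    have h1 := Lp.coeFn_add (a m • (cl hW hmean hpos (m :: v) - cl hW hmean hpos v))
      (∑ m ∈ A, a m • (cl hW hmean hpos (m :: v) - cl hW hmean hpos v))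
    have h2 := Lp.coeFn_smul (a m) (cl hW hmean hpos (m :: v) - cl hW hmean hpos v)
    have h3 := Lp.coeFn_sub (cl hW hmean hpos (m :: v)) (cl hW hmean hpos v)
    filter_upwards [h1, h2, h3, ih, cl_coe hW hmean hpos (m :: v), cl_coe hW hmean hpos v]
      with z h1 h2 h3 h4 h5 h6
    rw [h1, Pi.add_apply, h2, Pi.smul_apply, h3, Pi.sub_apply, h4, h5, h6, Finset.sum_insert hm]
    simp only [pathProduct, smul_eq_mul]
    ring

lemma norm_combo (hmean : ∫ x, x ∂ν = 1) (hpos : ν (Set.Ioi 0) = 1) (v : List ℕ) (A : Finset ℕ)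
    (a : ℕ → ℝ) :
    ‖(∑ m ∈ A, a m • (cl hW hmean hpos (m :: v) - cl hW hmean hpos v) : Lp ℝ 1 μ)‖ =
      ∫ z, |∑ m ∈ A, a m * (W (m :: v) z - 1)| ∂μ := by
  rw [L1.norm_eq_integral_norm]
  have h := path_props hW hmean hpos v
  have hi := indep_path_sum hW v A a
  have hSm : Measurable (fun z => ∑ m ∈ A, a m * (W (m :: v) z - 1)) :=
    Finset.measurable_sum _ fun m _ => ((hW.1 _).sub measurable_const).const_mul _
  have hi2 : IndepFun (fun z => |pathProduct W v z|)
      (fun z => |∑ m ∈ A, a m * (W (m :: v) z - 1)|) μ :=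
    hi.comp (φ := fun x => |x|) (ψ := fun x => |x|) measurable_abs measurable_abs
  have h1 := hi2.integral_fun_mul_eq_mul_integral
    (measurable_pathProduct hW.1 v).abs.aestronglyMeasurable hSm.abs.aestronglyMeasurable
  have h2 : ∫ z, |pathProduct W v z| ∂μ = 1 := by
    rw [← h.2.1]
    refine integral_congr_ae ?_
    filter_upwards [h.2.2] with z hz
    exact abs_of_nonneg hz
  have h3 : ∫ z, ‖((∑ m ∈ A, a m • (cl hW hmean hpos (m :: v) - cl hW hmean hpos v) : Lp ℝ 1 μ) :
      Ω → ℝ) z‖ ∂μ = ∫ z, |pathProduct W v z| * |∑ m ∈ A, a m * (W (m :: v) z - 1)| ∂μ := by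
    refine integral_congr_ae ?_
    filter_upwards [combo_coe hW hmean hpos v A a] with z hz
    rw [hz, Real.norm_eq_abs, abs_mul]
  rw [h3, h1, h2, one_mul]

end

/-- The theorem for the path product span. -/
theorem result_aux {ν : Measure ℝ} [IsProbabilityMeasure ν] (hpos : ν (Set.Ioi 0) = 1)
    (hnc : ∀ c : ℝ, ν ≠ Measure.dirac c) (hmean : ∫ x, x ∂ν = 1)
    (hm2 : Integrable (fun x : ℝ => x ^ 2) ν)
    {Ω : Type} [MeasurableSpace Ω] {μ : Measure Ω} [IsProbabilityMeasure μ]
    {W : List ℕ → Ω → ℝ} (hW : IsRealization ν μ W) :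
    ¬ FiniteDimensional ℝ (productSpan μ W) ∧
      ∀ N : (productSpan μ W) → ℝ, IsEquivNorm' N → ¬ IsAUC' N := by
  set κ := ∫ x, |x - 1| ∂ν with hκdef
  have hκ : 0 < κ := dist_pos_of_not_dirac hnc hmean
  set τ := Real.sqrt (∫ x, (x - 1) ^ 2 ∂ν) with hτ
  let x : List ℕ → productSpan μ W := fun v => ⟨cl hW hmean hpos v, cl_mem hW hmean hpos v⟩
  let u : List ℕ → ℕ → productSpan μ W := fun v m => x (m :: v) - x v
  have hxnorm : ∀ v, ‖x v‖ = 1 := fun v => norm_cl hW hmean hpos v
  have hcombo : ∀ (v : List ℕ) (A : Finset ℕ) (a : ℕ → ℝ),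
      ‖∑ m ∈ A, a m • u v m‖ ≤ τ * Real.sqrt (∑ m ∈ A, a m ^ 2) := by
    intro v A a
    have h1 : ((∑ m ∈ A, a m • u v m : productSpan μ W) : Lp ℝ 1 μ) =
        ∑ m ∈ A, a m • (cl hW hmean hpos (m :: v) - cl hW hmean hpos v) := by
      simp [u, x]
    have h2 : ‖∑ m ∈ A, a m • u v m‖ =
        ‖(∑ m ∈ A, a m • (cl hW hmean hpos (m :: v) - cl hW hmean hpos v) : Lp ℝ 1 μ)‖ := by
      rw [← h1]; rfl
    rw [h2, norm_combo]
    exact sum_sq_bound hW hmean hm2 v A a
  have hunorm : ∀ v m, κ ≤ ‖u v m‖ := by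
    intro v m
    have h1 : ((u v m : productSpan μ W) : Lp ℝ 1 μ) =
        ∑ m' ∈ ({m} : Finset ℕ), (1 : ℝ) • (cl hW hmean hpos (m' :: v) - cl hW hmean hpos v) := by
      simp [u, x]
    have h2 : ‖u v m‖ = ‖(∑ m' ∈ ({m} : Finset ℕ),
        (1 : ℝ) • (cl hW hmean hpos (m' :: v) - cl hW hmean hpos v) : Lp ℝ 1 μ)‖ := by
      rw [← h1]; rfl
    rw [h2, norm_combo]
    have h3 := integral_comp hW (φ := fun x => |x - 1|) (by fun_prop) (u := m :: v) (by simp)
    simp only [Finset.sum_singleton, one_mul]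
    rw [h3]
  have hweak : ∀ (v : List ℕ) (ψ : productSpan μ W →L[ℝ] ℝ),
      Tendsto (fun m => ψ (u v m)) atTop (𝓝 0) := fun v ψ =>
    tendsto_zero_of_l2_upper (u v) τ (hcombo v) ψ
  refine ⟨?_, ?_⟩
  · exact not_finiteDimensional_of_weakly_null (l := atTop) (u []) hκ (hunorm []) (hweak [])
  · intro N hN
    refine no_auc_of_tree N hN (fun _ => Set.range x) (κ := κ) (m := 1) (M := 1) hκ one_pos
      (fun _ => ⟨x [], [], rfl⟩) ?_ ?_
    · rintro n _ ⟨v, rfl⟩
      rw [hxnorm v]
      exact ⟨le_rfl, le_rfl⟩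
    · rintro n _ ⟨v, rfl⟩ F hF ε hε
      obtain ⟨m, y, hy, hlt⟩ := (hF.eventually_near (l := atTop) (u v) (hweak v) hε).exists
      refine ⟨u v m, y, hy, hlt, hunorm v m, ⟨m :: v, ?_⟩⟩
      simp [u]

/-- Let ν be a Borel probability law on ℝ carried by (0,∞), not a point mass, with mean 1 and finite second moment, and W an independent family of real random variables on a probability space indexed by the vertices of the countably branching tree (finite lists of naturals; root [], parent of a :: v is v), each non-root one with law ν. Then the closed linear span in L¹ of the path products ∏_{root ≺ u ≼ v} W_u is infinite-dimensional and has no equivalent asymptotically uniformly convex norm. -/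
theorem result (ν : Measure ℝ) [IsProbabilityMeasure ν] (hpos : ν (Set.Ioi 0) = 1)
    (hnc : ∀ c : ℝ, ν ≠ Measure.dirac c) (hmean : ∫ x, x ∂ν = 1)
    (hm2 : Integrable (fun x : ℝ => x ^ 2) ν)
    (Ω : Type) [MeasurableSpace Ω] (μ : Measure Ω) [IsProbabilityMeasure μ]
    (W : List ℕ → Ω → ℝ) (hW : Crest.AnalysisR.TreeProduct.IsRealization ν μ W) :
    ¬ FiniteDimensional ℝ (Crest.AnalysisR.TreeProduct.productSpan μ W) ∧
      ∀ N : (Crest.AnalysisR.TreeProduct.spanBanach μ W).X → ℝ,
        (Crest.AnalysisR.TreeProduct.spanBanach μ W).IsEquivNorm N →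
          ¬ (Crest.AnalysisR.TreeProduct.spanBanach μ W).IsAUC N := by
  exact result_aux hpos hnc hmean hm2 hW

end Crest.Agent.S0169
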