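import Crest.Statements.S0175
import Crest.Agent.Lib.MultiMarg.Density

set_option autoImplicit false
open MeasureTheory
open scoped ENNReal ContDiff
open Crest.AnalysisR.OT
open Crest Crest.AnalysisR Crest.AnalysisR.OT

namespace Crest.Agent.S0175

/-- For every d ≥ 2 and s > 0 there is a smooth, compactly supported, nonnegative ρ on ℝᵈ with integral 1 and smooth square root such that, for μ = ρ dx and the cost summing ‖xᵢ - xⱼ‖^(-s) over the three pairs of a triple: some coupling with all three marginals μ has finite cost, minimal among all such couplings; every pair of Borel maps T₂, T₃ pushing μ to itself gives the plan x ↦ (x, T₂ x, T₃ x) strictly larger cost; and such pairs have costs arbitrarily close to that minimum. -/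
theorem result
    (d : ℕ) (hd : 2 ≤ d) (s : ℝ) (hs : 0 < s) :
    ∃ ρ : EuclideanSpace ℝ (Fin d) → ℝ, (∀ x, 0 ≤ ρ x) ∧ ContDiff ℝ ∞ ρ ∧ HasCompactSupport ρ ∧
      ContDiff ℝ ∞ (fun x => Real.sqrt (ρ x)) ∧ ∫ x, ρ x = 1 ∧
      ∃ π₀ : Measure (EuclideanSpace ℝ (Fin d) × EuclideanSpace ℝ (Fin d) × EuclideanSpace ℝ (Fin d)),
        IsCoupling₃ (measOfDensity ρ) π₀ ∧ ∫⁻ p, tripleCost s p ∂π₀ < ⊤ ∧
        (∀ π : Measure (EuclideanSpace ℝ (Fin d) × EuclideanSpace ℝ (Fin d) × EuclideanSpace ℝ (Fin d)), IsCoupling₃ (measOfDensity ρ) π →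
          ∫⁻ p, tripleCost s p ∂π₀ ≤ ∫⁻ p, tripleCost s p ∂π) ∧
        (∀ T₂ T₃ : EuclideanSpace ℝ (Fin d) → EuclideanSpace ℝ (Fin d), Measurable T₂ → Measurable T₃ →
          (measOfDensity ρ).map T₂ = measOfDensity ρ → (measOfDensity ρ).map T₃ = measOfDensity ρ →
          ∫⁻ p, tripleCost s p ∂π₀ < ∫⁻ x, tripleCost s (x, T₂ x, T₃ x) ∂(measOfDensity ρ)) ∧
        (∀ ε : ℝ≥0∞, 0 < ε → ∃ T₂ T₃ : EuclideanSpace ℝ (Fin d) → EuclideanSpace ℝ (Fin d), Measurable T₂ ∧ Measurable T₃ ∧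
          (measOfDensity ρ).map T₂ = measOfDensity ρ ∧ (measOfDensity ρ).map T₃ = measOfDensity ρ ∧
          ∫⁻ x, tripleCost s (x, T₂ x, T₃ x) ∂(measOfDensity ρ) < ∫⁻ p, tripleCost s p ∂π₀ + ε) := by
  classical
  have hd0 : 0 < d := by omega
  have hd1 : 1 < d := by omega
  let i0 : Fin d := ⟨0, hd0⟩
  let i1 : Fin d := ⟨1, hd1⟩
  have hne : i0 ≠ i1 := by
    intro h
    have := congrArg Fin.val h
    simp [i0, i1] at this
  let q : EuclideanSpace ℝ (Fin d) := EuclideanSpace.single i0 (1 : ℝ)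
  let q' : EuclideanSpace ℝ (Fin d) := EuclideanSpace.single i1 (1 : ℝ)
  have hq : ‖q‖ = 1 := by simp [q]
  have hq' : ‖q'‖ = 1 := by simp [q']
  have horth : inner ℝ q q' = 0 := by
    simp [q, q', EuclideanSpace.inner_single_left, hne]
  let R : EuclideanSpace ℝ (Fin d) ≃ₗᵢ[ℝ] EuclideanSpace ℝ (Fin d) :=
    LinearIsometryEquiv.piLpCongrLeft 2 ℝ ℝ (Equiv.swap i0 i1)
  have hR : R q = q' := by
    simp only [R, q, q']
    rw [EuclideanSpace.piLpCongrLeft_single]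
    simp
  obtain ⟨ε, f₁, g₁, f₂, g₂, fi₁, gi₁, fi₂, gi₂, u, K, C⟩ :=
    Crest.Agent.Lib.MultiMarg.exists_cert hs hq hq' horth R hR
  haveI : NeZero d := ⟨hd0.ne'⟩
  obtain ⟨ρ, ν, Y, h0, hsm, hcpt, hsq, hint, hμ, hfin, hna, hν0, hYc, hYU, hνY⟩ :=
    Crest.Agent.Lib.MultiMarg.exists_density C
  have hν : ∀ᵐ x ∂ν, x ∈ Metric.ball (0 : EuclideanSpace ℝ (Fin d)) ε := by
    filter_upwards [hνY] with x hx using hYU hx
  have hfintop := Crest.Agent.Lib.MultiMarg.lintegral_piOf_lt_top C ν hν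
  refine ⟨ρ, h0, hsm, hcpt, hsq, hint, Crest.Agent.Lib.MultiMarg.piOf ν f₁ g₁ f₂ g₂, ?_, hfintop,
    ?_, ?_, ?_⟩
  · rw [hμ]
    exact Crest.Agent.Lib.MultiMarg.isCoupling_piOf ν C.mf₁ C.mg₁ C.mf₂ C.mg₂
  · intro π hπ
    rw [hμ] at hπ
    exact Crest.Agent.Lib.MultiMarg.piOf_le C ν hν hπ
  · intro T₂ T₃ hT₂ hT₃ h₂ h₃
    rw [hμ] at h₂ h₃ ⊢
    exact Crest.Agent.Lib.MultiMarg.monge_strict C ν hν hν0 hT₂ hT₃ h₂ h₃
  · intro ε' hε'
    rw [hμ]
    exact Crest.Agent.Lib.MultiMarg.monge_approx C ν hYc hYU hνY hfintop hε'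

end Crest.Agent.S0175
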