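import Crest.Statements.S0222
import Crest.Agent.Lib.Thorp.FinalGlue
import Crest.Agent.Lib.Thorp.BFinal
import Crest.Agent.Lib.Thorp.BNumTail
import Crest.Agent.Lib.Thorp.GapLink

set_option autoImplicit false
open Crest Crest.ProbabilityR

namespace Crest.Agent.S0222

/-- Shuffle a deck of `n = 2 * 2 ^ d` cards `1600 * (d + 1)` times, that is `1600 * log₂ n` times. The total variation distance between the law of the resulting arrangement of the whole deck and the uniform law on all arrangements tends to `0` as `d → ∞`. -/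
theorem result :
    Filter.Tendsto (fun d : ℕ => Crest.ProbabilityR.Shuffle.tvFromUniform (2 ^ d) (1600 * (d + 1)))
      Filter.atTop (nhds 0) := by
  refine Crest.Agent.Lib.Thorp.FinalGlue.tendsto_of_inputs ?_ ?_ ?_
  · intro k r hr
    exact Crest.Agent.Lib.Thorp.FinalGlue.NormBd.mono' (by norm_num) (by norm_num)
      (Crest.Agent.Lib.Thorp.NormBd_bA_gap k r hr)
  · intro k t hk ht
    exact Crest.Agent.Lib.Thorp.BFinal.hsmall_of (β := 3 / 1000) (by norm_num) le_rfl
      Crest.Agent.Lib.Thorp.bnum_tail k t hk ht
  · intro k hk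
    exact Crest.Agent.Lib.Thorp.BFinal.htop_of (β := 3 / 1000) (by norm_num) le_rfl
      Crest.Agent.Lib.Thorp.bnum_tail k hk

end Crest.Agent.S0222
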