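import Crest.Statements.S0223
-- import your own Crest.Agent.* helpers here

set_option autoImplicit false
set_option linter.unusedSimpArgs false
open Crest Crest.ProbabilityR

namespace Crest.Agent.S0223

open Crest.ProbabilityR.Shuffle

lemma stepPos_injective (m : ℕ) (c : Fin m → Bool) : Function.Injective (stepPos m c) := by
  intro x y hxy
  have hx := x.isLt
  have hy := y.isLt
  have h := congrArg Fin.val hxy
  simp only [stepPos] at h
  have hm : 0 < m := by omega
  have hxm : x.val % m < m := Nat.mod_lt _ hm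
  have hym : y.val % m < m := Nat.mod_lt _ hm
  have hu : x.val % m = y.val % m := by
    split_ifs at h <;> omega
  have hfin : (⟨x.val % m, hxm⟩ : Fin m) = ⟨y.val % m, hym⟩ := Fin.ext hu
  have hb : (decide (m ≤ x.val)) = (decide (m ≤ y.val)) := by
    have h2 : (if xor (decide (m ≤ x.val)) (c ⟨x.val % m, Nat.mod_lt _ (by have hx := x.isLt; omega)⟩) then 1 else 0)
        = (if xor (decide (m ≤ y.val)) (c ⟨y.val % m, Nat.mod_lt _ (by have hx := y.isLt; omega)⟩) then 1 else 0) := by
      omega
    simp only [hfin] at h2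
    by_cases h3 : m ≤ x.val <;> by_cases h4 : m ≤ y.val <;> simp [h3, h4] at h2 ⊢
    all_goals (cases hc : c ⟨y.val % m, hym⟩ <;> simp [hc] at h2)
  have hxv : x.val = x.val % m + (if m ≤ x.val then m else 0) := by
    split_ifs with h3
    · have : x.val % m = x.val - m := by
        rw [Nat.mod_eq_sub_mod h3, Nat.mod_eq_of_lt (by omega)]
      omega
    · simp [Nat.mod_eq_of_lt (by omega : x.val < m)]
  have hyv : y.val = y.val % m + (if m ≤ y.val then m else 0) := by
    split_ifs with h3
    · have : y.val % m = y.val - m := by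
        rw [Nat.mod_eq_sub_mod h3, Nat.mod_eq_of_lt (by omega)]
      omega
    · simp [Nat.mod_eq_of_lt (by omega : y.val < m)]
  have hb' : (m ≤ x.val) ↔ (m ≤ y.val) := by
    simpa using hb
  apply Fin.ext
  by_cases h3 : m ≤ x.val
  · have h4 := hb'.mp h3
    rw [if_pos h3] at hxv
    rw [if_pos h4] at hyv
    omega
  · have h4 : ¬ m ≤ y.val := fun h => h3 (hb'.mpr h)
    rw [if_neg h3] at hxv
    rw [if_neg h4] at hyv
    omega

lemma iterPos_injective (m t : ℕ) (cs : Fin t → Fin m → Bool) : Function.Injective (iterPos m t cs) := by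
  induction t with
  | zero => exact fun _ _ h => h
  | succ t ih =>
    intro x y h
    exact ih _ (stepPos_injective m _ h)

lemma iterPos_bijective (m t : ℕ) (cs : Fin t → Fin m → Bool) : Function.Bijective (iterPos m t cs) :=
  Finite.injective_iff_bijective.mp (iterPos_injective m t cs)

theorem result (d t : ℕ) :
    1 - (2 : ℝ) ^ (2 ^ d * t) / ((2 * 2 ^ d).factorial : ℝ)
      ≤ Crest.ProbabilityR.Shuffle.tvFromUniform (2 ^ d) t := by
  classical
  set m := 2 ^ d with hm
  set N : ℝ := ((2 * m).factorial : ℝ) with hN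
  have hN0 : 0 < N := by rw [hN]; exact_mod_cast Nat.factorial_pos _
  set u : ℝ := 1 / N with hu
  let toPerm : (Fin t → Fin m → Bool) → Equiv.Perm (Fin (2 * m)) := fun cs =>
    Equiv.ofBijective _ (iterPos_bijective m t cs)
  have hcardΩ : Fintype.card (Fin t → Fin m → Bool) = 2 ^ (m * t) := by
    simp [Fintype.card_fun, ← pow_mul, mul_comm]
  set Ωc : ℝ := (Fintype.card (Fin t → Fin m → Bool) : ℝ) with hΩc
  have hΩ0 : 0 < Ωc := by
    rw [hΩc, hcardΩ]
    positivity
  let P : Equiv.Perm (Fin (2 * m)) → ℝ := fun g =>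
    Crest.FinProb.uniformProb {cs : Fin t → Fin m → Bool | iterPos m t cs = ⇑g}
  have hPdef : ∀ g, P g = ((Finset.univ.filter fun cs => toPerm cs = g).card : ℝ) / Ωc := by
    intro g
    simp only [P, Crest.FinProb.uniformProb]
    congr 3
    ext cs
    simp only [Finset.mem_filter, Finset.mem_univ, true_and, Set.mem_ofPred_eq]
    constructor
    · intro h
      exact Equiv.ext fun x => congrFun h x
    · intro h
      rw [← h]
      rfl
  have hsum : ∑ g, P g = 1 := by
    simp only [hPdef]
    rw [← Finset.sum_div, ← Nat.cast_sum]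
    have := Finset.card_eq_sum_card_fiberwise (f := toPerm) (s := Finset.univ) (t := Finset.univ)
      (fun _ _ => Finset.mem_univ _)
    rw [← this]
    simp only [Finset.card_univ]
    exact div_self hΩ0.ne'
  set A := Finset.univ.image toPerm with hA
  have hAcard : ((A.card : ℕ) : ℝ) ≤ 2 ^ (m * t) := by
    have h1 : A.card ≤ Fintype.card (Fin t → Fin m → Bool) := Finset.card_image_le
    rw [hcardΩ] at h1
    exact_mod_cast h1
  have hP0 : ∀ g, g ∉ A → P g = 0 := by
    intro g hg
    rw [hPdef]
    have : (Finset.univ.filter fun cs => toPerm cs = g) = ∅ := by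
      apply Finset.filter_eq_empty_iff.mpr
      intro cs _ h
      exact hg (Finset.mem_image.mpr ⟨cs, Finset.mem_univ _, h⟩)
    rw [this]
    simp
  have hsumA : ∑ g ∈ A, P g = 1 := by
    rw [← hsum]
    refine Finset.sum_subset (Finset.subset_univ _) fun g _ hg => hP0 g hg
  have hN1 : ((Fintype.card (Equiv.Perm (Fin (2 * m))) : ℕ) : ℝ) = N := by
    rw [hN, Fintype.card_perm, Fintype.card_fin]
  have h1 : ∑ g ∈ A, |P g - u| ≥ 1 - A.card * u := by
    calc ∑ g ∈ A, |P g - u| ≥ ∑ g ∈ A, (P g - u) := Finset.sum_le_sum fun g _ => le_abs_self _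
      _ = 1 - A.card * u := by
        rw [Finset.sum_sub_distrib, hsumA]
        simp
  have h2 : ∑ g ∈ Aᶜ, |P g - u| = 1 - A.card * u := by
    have : ∀ g ∈ Aᶜ, |P g - u| = u := by
      intro g hg
      rw [hP0 g (Finset.mem_compl.mp hg), zero_sub, abs_neg, abs_of_pos]
      rw [hu]; positivity
    rw [Finset.sum_congr rfl this]
    simp only [Finset.sum_const, nsmul_eq_mul]
    rw [Finset.card_compl, Nat.cast_sub (Finset.card_le_univ A), hN1, sub_mul, hu]
    field_simp
  have h3 : ∑ g, |P g - u| = ∑ g ∈ A, |P g - u| + ∑ g ∈ Aᶜ, |P g - u| :=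
    (Finset.sum_add_sum_compl A _).symm
  have hmain : tvFromUniform m t = (1 / 2) * ∑ g, |P g - u| := rfl
  rw [hmain, h3, h2]
  have hu0 : 0 < u := by rw [hu]; positivity
  have h4 : (A.card : ℝ) * u ≤ 2 ^ (m * t) * u := mul_le_mul_of_nonneg_right hAcard hu0.le
  have h5 : (2 : ℝ) ^ (m * t) / N = 2 ^ (m * t) * u := by
    rw [hu]; ring
  rw [h5]
  linarith

end Crest.Agent.S0223
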