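import Crest.Statements.S0324
import Crest.Agent.Lib.Tet.Finite
import Crest.Agent.Lib.Tet.Assemble

set_option autoImplicit false
open MeasureTheory
open scoped ENNReal
open Crest Crest.GeometryTopology Crest.GeometryTopology.Convex

namespace Crest.Agent.S0324

open Crest.Agent.Lib.Tet

/-- The regular tetrahedron `K` with vertices `(±1, 0, 0)`, `(0, ±1, √2)` is covered by finitely many cylinders `Bᵢ + ℝ uᵢ`, each with unit direction `uᵢ` and base `Bᵢ` a triangle (convex hull of three points) in the plane `uᵢ^⊥`, whose total base area `∑ᵢ area(Bᵢ)` is smaller, by a positive margin, than half the area of the orthogonal projection of `K` onto `v^⊥` for every unit vector `v`; areas are 2-dimensional Hausdorff measure. -/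
theorem result :
    ∃ (m : ℕ) (u p q r : Fin m → EuclideanSpace ℝ (Fin 3)),
      (∀ i, ‖u i‖ = 1) ∧
      (∀ i, inner ℝ (p i) (u i) = 0 ∧ inner ℝ (q i) (u i) = 0 ∧ inner ℝ (r i) (u i) = 0) ∧
      convexHull ℝ {!₂[1, 0, 0], !₂[-1, 0, 0], !₂[0, 1, Real.sqrt 2], !₂[0, -1, Real.sqrt 2]} ⊆
        ⋃ i, {x : EuclideanSpace ℝ (Fin 3) | ∃ b ∈ convexHull ℝ {p i, q i, r i}, ∃ t : ℝ, x = b + t • u i} ∧
      ∃ δ : ℝ, 0 < δ ∧ ∀ v : EuclideanSpace ℝ (Fin 3), ‖v‖ = 1 →
        ∑ i, (μH[(2 : ℝ)] (convexHull ℝ {p i, q i, r i})).toReal + δ ≤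
          (μH[(2 : ℝ)] ((fun y => y - inner ℝ y v • v) '' convexHull ℝ {!₂[1, 0, 0], !₂[-1, 0, 0], !₂[0, 1, Real.sqrt 2], !₂[0, -1, Real.sqrt 2]})).toReal / 2 := by
  obtain ⟨u, p, q, r, hu, hperp, hcov, hA⟩ :=
    exists_cover_exact (ε := 1 / 2000) (by norm_num) le_rfl
  refine ⟨_, u, p, q, r, hu, hperp, hcov, ?_⟩
  have hs := sqrt2_pos
  have hc := hausCst_pos
  set A : ℝ := ∑ i, (μHE[2] (convexHull ℝ ({p i, q i, r i} : Set E3))).toReal with hAdef
  have hA1 : A ≤ Real.sqrt 2 * (1 / 2 - 1 / 10 ^ 10) := by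
    have h1 := (abs_le.1 hA).2
    have h2 : A / Real.sqrt 2 ≤ 1 / 2 - 1 / 10 ^ 10 := by
      norm_num at h1 ⊢
      linarith
    rw [div_le_iff₀ hs] at h2
    linarith
  have hsumeq : ∑ i, (μH[(2 : ℝ)] (convexHull ℝ {p i, q i, r i})).toReal = A / hausCst := by
    rw [hAdef, Finset.sum_div]
    refine Finset.sum_congr rfl fun i _ => ?_
    rw [toReal_muHE, mul_div_assoc, mul_comm, div_mul_cancel₀ _ hc.ne']
  refine ⟨Real.sqrt 2 * (1 / 10 ^ 10) / hausCst, by positivity, fun v hv => ?_⟩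
  have hfin : μHE[2] ((fun y => y - inner ℝ y v • v) '' tetK) ≠ ⊤ :=
    (proj_image_lt_top hv (isBounded_convexHull.2 (by
      exact (Set.toFinite _).isBounded))).ne
  have hlow : Real.sqrt 2 ≤ (μHE[2] ((fun y => y - inner ℝ y v • v) '' tetK)).toReal :=
    (ENNReal.ofReal_le_iff_le_toReal hfin).1 (min_proj_ge hv)
  have hright : (μH[(2 : ℝ)] ((fun y => y - inner ℝ y v • v) '' tetK)).toReal =
      (μHE[2] ((fun y => y - inner ℝ y v • v) '' tetK)).toReal / hausCst := by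
    rw [toReal_muHE, mul_comm, mul_div_assoc, div_self hc.ne', mul_one]
  show ∑ i, (μH[(2 : ℝ)] (convexHull ℝ {p i, q i, r i})).toReal + _ ≤
    (μH[(2 : ℝ)] ((fun y => y - inner ℝ y v • v) '' tetK)).toReal / 2
  rw [hsumeq, hright, ← add_div, div_div, mul_comm hausCst, ← div_div,
    div_le_div_iff_of_pos_right hc]
  linarith

end Crest.Agent.S0324
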