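import Crest.Statements.S0326
import Crest.Agent.Lib.CylV.Main

set_option autoImplicit false
open MeasureTheory
open scoped ENNReal
open Crest Crest.GeometryTopology Crest.GeometryTopology.Convex

namespace Crest.Agent.S0326

/-- Let D ⊂ ℝ² be compact, V : ℝ² → ℝ² be C¹ on an open set containing D, and L, h > 0, with tr DV(p) = 0 and −1/L² < det DV(p) ≤ 0 for p ∈ D. Let E ⊂ ℝ × ℝ² be the ruled set of points (s, p + s V(p)), p ∈ D, −L ≤ s ≤ L. For every ε > 0, finitely many squares Tᵢ = cᵢ + [0,1]aᵢ + [0,1]bᵢ (aᵢ ⊥ bᵢ of equal nonzero length) and velocities gᵢ ∈ ℝ² exist whose sheared cylinders {(s, ξ) : ξ ∈ Tᵢ + s gᵢ} cover E, with ∑ᵢ area(Tᵢ) J(gᵢ) ≤ ∫_D J(V(p)) dp + ε, where J(g) = (1 + g₁² + h² g₂²)^(−1/2). -/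
theorem result
    (D : Set (EuclideanSpace ℝ (Fin 2))) (hD : IsCompact D)
    (V : EuclideanSpace ℝ (Fin 2) → EuclideanSpace ℝ (Fin 2)) (U : Set (EuclideanSpace ℝ (Fin 2)))
    (hU : IsOpen U) (hDU : D ⊆ U) (hV : ContDiffOn ℝ 1 V U) (L h : ℝ) (hL : 0 < L) (hh : 0 < h)
    (htr : ∀ p ∈ D, LinearMap.trace ℝ _ (fderiv ℝ V p).toLinearMap = 0)
    (hdet : ∀ p ∈ D, -(L ^ 2)⁻¹ < LinearMap.det (fderiv ℝ V p).toLinearMap ∧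
      LinearMap.det (fderiv ℝ V p).toLinearMap ≤ 0)
    (ε : ℝ) (hε : 0 < ε) :
    ∃ (k : ℕ) (c a b g : Fin k → EuclideanSpace ℝ (Fin 2)),
      (∀ i, a i ≠ 0 ∧ ‖b i‖ = ‖a i‖ ∧ inner ℝ (a i) (b i) = 0) ∧
      {z : ℝ × EuclideanSpace ℝ (Fin 2) | ∃ p ∈ D, abs z.1 ≤ L ∧ z.2 = p + z.1 • V p} ⊆
        ⋃ i, {z : ℝ × EuclideanSpace ℝ (Fin 2) | ∃ x ∈ Set.Icc (0 : ℝ) 1, ∃ y ∈ Set.Icc (0 : ℝ) 1,
          z.2 = c i + x • a i + y • b i + z.1 • g i} ∧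
      ∑ i, ‖a i‖ ^ 2 / Real.sqrt (1 + (g i 0) ^ 2 + h ^ 2 * (g i 1) ^ 2) ≤
        (∫ p in D, 1 / Real.sqrt (1 + (V p 0) ^ 2 + h ^ 2 * (V p 1) ^ 2)) + ε := by
  classical
  obtain ⟨ι, F, c, a, b, g, hframe, hcov, hsum⟩ :=
    Crest.Agent.Lib.CylV.main_cover (h := h) hD hU hDU hV hL htr hdet hε
  let e := F.equivFin
  refine ⟨F.card, fun i => c (e.symm i), fun i => a (e.symm i), fun i => b (e.symm i),
    fun i => g (e.symm i), fun i => hframe _, ?_, ?_⟩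
  · rintro ⟨s, ξ⟩ ⟨p, hp, hs, hz⟩
    obtain ⟨t, ht, x, hx, y, hy, hxy⟩ := hcov p hp s hs
    refine Set.mem_iUnion.2 ⟨e ⟨t, ht⟩, x, hx, y, hy, ?_⟩
    simp only [Equiv.symm_apply_apply]
    have hz' : ξ = p + s • V p := hz
    rw [hz']
    exact hxy
  · have hs : ∑ i, ‖a (e.symm i)‖ ^ 2 /
          Real.sqrt (1 + (g (e.symm i) 0) ^ 2 + h ^ 2 * (g (e.symm i) 1) ^ 2) =
        ∑ t ∈ F, ‖a t‖ ^ 2 / Real.sqrt (1 + (g t 0) ^ 2 + h ^ 2 * (g t 1) ^ 2) := by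
      rw [← Finset.sum_coe_sort F]
      exact Equiv.sum_comp e.symm (fun t : F => ‖a t‖ ^ 2 /
        Real.sqrt (1 + (g t 0) ^ 2 + h ^ 2 * (g t 1) ^ 2))
    rw [hs]
    exact hsum

end Crest.Agent.S0326
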