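import Crest.Statements.S0327
import Crest.Agent.Lib.Tet.Strip

set_option autoImplicit false
open MeasureTheory
open scoped ENNReal
open Crest Crest.GeometryTopology Crest.GeometryTopology.Convex

namespace Crest.Agent.S0327

open Crest.Agent.Lib.Tet Set

lemma final_arith {ι : Type*} [Fintype ι] (F G : ι → ℝ) (hF : ∀ i, 0 ≤ F i) {L η : ℝ} (hL : 0 < L)
    (hη : 0 < η) (hG : ∀ i, L ≤ G i) (hS : ∑ i, F i ≤ L * (1 / 2 - η)) :
    ∑ i, F i / G i < 1 / 2 := by
  have h1 : ∑ i, F i / G i ≤ ∑ i, F i / L :=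
    Finset.sum_le_sum fun i _ => div_le_div_of_nonneg_left (hF i) hL (hG i)
  rw [← Finset.sum_div] at h1
  have h2 : (∑ i, F i) / L ≤ 1 / 2 - η := by
    rw [div_le_iff₀ hL]; linarith
  linarith

/-- Let K ⊂ ℝ³ be a regular tetrahedron (convex hull of four points with equal pairwise distances ℓ > 0); areas are Lebesgue-normalised 2-dimensional Hausdorff measure, π_v y = y − ⟪y, v⟫ v. (1) Finitely many cylinders Bᵢ + ℝ uᵢ, ‖uᵢ‖ = 1, with parallelogram bases Bᵢ = cᵢ + [0,1]aᵢ + [0,1]bᵢ in uᵢ^⊥ cover K, ∑ᵢ area(Bᵢ) being below half of area(π_v K) by a positive margin for all unit v, and ∑ᵢ area(Bᵢ)/area(π_{uᵢ} K) < 1/2. (2) The same with bounded relatively open subsets of the uᵢ^⊥ as bases. -/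
theorem result
    (w : Fin 4 → EuclideanSpace ℝ (Fin 3)) (ℓ : ℝ) (hℓ : 0 < ℓ)
    (hw : ∀ i j, i ≠ j → dist (w i) (w j) = ℓ) :
    (∃ (k : ℕ) (u c a b : Fin k → EuclideanSpace ℝ (Fin 3)),
      (∀ i, ‖u i‖ = 1) ∧
      (∀ i, inner ℝ (c i) (u i) = 0 ∧ inner ℝ (a i) (u i) = 0 ∧ inner ℝ (b i) (u i) = 0) ∧
      convexHull ℝ (Set.range w) ⊆ ⋃ i, {x : EuclideanSpace ℝ (Fin 3) |
        ∃ s ∈ Set.Icc (0 : ℝ) 1, ∃ t ∈ Set.Icc (0 : ℝ) 1, ∃ τ : ℝ, x = c i + s • a i + t • b i + τ • u i} ∧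
      (∃ δ : ℝ, 0 < δ ∧ ∀ v : EuclideanSpace ℝ (Fin 3), ‖v‖ = 1 →
        (∑ i, (μHE[2] {x : EuclideanSpace ℝ (Fin 3) |
            ∃ s ∈ Set.Icc (0 : ℝ) 1, ∃ t ∈ Set.Icc (0 : ℝ) 1, x = c i + s • a i + t • b i}).toReal) + δ ≤
          (μHE[2] ((fun y => y - inner ℝ y v • v) '' convexHull ℝ (Set.range w))).toReal / 2) ∧
      ∑ i, (μHE[2] {x : EuclideanSpace ℝ (Fin 3) |
            ∃ s ∈ Set.Icc (0 : ℝ) 1, ∃ t ∈ Set.Icc (0 : ℝ) 1, x = c i + s • a i + t • b i}).toReal /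
          (μHE[2] ((fun y => y - inner ℝ y (u i) • u i) '' convexHull ℝ (Set.range w))).toReal < 1 / 2) ∧
    (∃ (k : ℕ) (u : Fin k → EuclideanSpace ℝ (Fin 3)) (B : Fin k → Set (EuclideanSpace ℝ (Fin 3))),
      (∀ i, ‖u i‖ = 1) ∧
      (∀ i, Bornology.IsBounded (B i) ∧ ∃ O : Set (EuclideanSpace ℝ (Fin 3)), IsOpen O ∧
        B i = O ∩ {x | inner ℝ x (u i) = 0}) ∧
      convexHull ℝ (Set.range w) ⊆
        ⋃ i, {x : EuclideanSpace ℝ (Fin 3) | ∃ y ∈ B i, ∃ τ : ℝ, x = y + τ • u i} ∧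
      (∃ δ : ℝ, 0 < δ ∧ ∀ v : EuclideanSpace ℝ (Fin 3), ‖v‖ = 1 →
        (∑ i, (μHE[2] (B i)).toReal) + δ ≤
          (μHE[2] ((fun y => y - inner ℝ y v • v) '' convexHull ℝ (Set.range w))).toReal / 2) ∧
      ∑ i, (μHE[2] (B i)).toReal /
          (μHE[2] ((fun y => y - inner ℝ y (u i) • u i) '' convexHull ℝ (Set.range w))).toReal < 1 / 2) := by
  have hρ : 0 < ℓ / 2 := by positivity
  obtain ⟨Q, d, hK⟩ := exists_similarity w hℓ hw
  rw [← hK]
  have hs := sqrt2_pos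
  set L : ℝ := (ℓ / 2) ^ 2 * Real.sqrt 2 with hL
  have hLpos : 0 < L := by positivity
  have hlow : ∀ v : EuclideanSpace ℝ (Fin 3), ‖v‖ = 1 → L ≤
      (μHE[2] ((fun y => y - inner ℝ y v • v) '' ((fun x => (ℓ / 2) • Q x + d) '' tetK))).toReal :=
    fun v hv => proj_sim_lower Q d hρ hv
  obtain ⟨N, u, p, q, r, hu, hperp, hcov, hA⟩ := triangle_cover_sim Q d hρ
  have hA' : (∑ i, (μHE[2] (convexHull ℝ ({p i, q i, r i} : Set E3))).toReal) ≤
      L * (1 / 2 - 1 / 10 ^ 10) := by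
    rw [hL]; linarith
  constructor
  · -- parallelogram bases
    have hm : 0 < 10 ^ 10 := by norm_num
    set m : ℕ := 10 ^ 10 with hmdef
    have hmR : (m : ℝ) = 10 ^ 10 := by rw [hmdef]; norm_num
    set e : Fin N × Fin m ≃ Fin (N * m) := finProdFinEquiv with he
    -- the area bound
    have hsum : ∑ j : Fin (N * m), (μHE[2] {x : EuclideanSpace ℝ (Fin 3) |
          ∃ s ∈ Icc (0 : ℝ) 1, ∃ t ∈ Icc (0 : ℝ) 1, x =
            stripC (p (e.symm j).1) (q (e.symm j).1) m (e.symm j).2 +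
            s • stripA (p (e.symm j).1) (q (e.symm j).1) m +
            t • stripB (p (e.symm j).1) (r (e.symm j).1) m (e.symm j).2}).toReal ≤
        L * (1 / 2 - 1 / (2 * 10 ^ 10)) := by
      rw [← e.sum_comp, Fintype.sum_prod_type]
      simp only [Equiv.symm_apply_apply]
      have h1 : ∀ i : Fin N, ∑ k : Fin m, (μHE[2] {x : EuclideanSpace ℝ (Fin 3) |
          ∃ s ∈ Icc (0 : ℝ) 1, ∃ t ∈ Icc (0 : ℝ) 1, x =
            stripC (p i) (q i) m k + s • stripA (p i) (q i) m +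
            t • stripB (p i) (r i) m k}).toReal ≤
          (1 + 1 / 10 ^ 10) * (μHE[2] (convexHull ℝ ({p i, q i, r i} : Set E3))).toReal := by
        intro i
        refine le_trans (Finset.sum_le_sum fun k _ => toReal_parallelogram_le _ _ _) ?_
        rw [strip_area_sum _ _ _ hm, hmR]
        exact mul_le_mul_of_nonneg_left (triangle_area_ge _ _ _) (by norm_num)
      refine le_trans (Finset.sum_le_sum fun i _ => h1 i) ?_
      rw [← Finset.mul_sum]
      have h2 := mul_le_mul_of_nonneg_left hA' (show (0 : ℝ) ≤ 1 + 1 / 10 ^ 10 by norm_num)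
      refine le_trans h2 ?_
      have : (1 + 1 / (10 : ℝ) ^ 10) * (L * (1 / 2 - 1 / 10 ^ 10)) =
          L * ((1 + 1 / (10 : ℝ) ^ 10) * (1 / 2 - 1 / 10 ^ 10)) := by ring
      rw [this]
      apply mul_le_mul_of_nonneg_left _ hLpos.le
      norm_num
    refine ⟨N * m, fun j => u (e.symm j).1,
      fun j => stripC (p (e.symm j).1) (q (e.symm j).1) m (e.symm j).2,
      fun j => stripA (p (e.symm j).1) (q (e.symm j).1) m,
      fun j => stripB (p (e.symm j).1) (r (e.symm j).1) m (e.symm j).2,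
      fun j => hu _, ?_, ?_, ⟨L * (1 / (2 * 10 ^ 10)), by positivity, fun v hv => ?_⟩, ?_⟩
    · intro j
      obtain ⟨hp, hq, hr⟩ := hperp (e.symm j).1
      simp only [stripC, stripA, stripB, inner_add_left, inner_smul_left, inner_sub_left, hp, hq, hr]
      simp
    · rintro x hx
      obtain ⟨_, ⟨i, rfl⟩, hxi⟩ := hcov hx
      obtain ⟨b, hb, t, rfl⟩ := hxi
      obtain ⟨k, s, hs01, t', ht01, rfl⟩ := strip_cover (p i) (q i) (r i) hm hb
      refine mem_iUnion.2 ⟨e (i, k), s, hs01, t', ht01, t, ?_⟩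
      simp only [Equiv.symm_apply_apply]
    · have := hlow v hv
      have h3 := hsum
      linarith
    · refine final_arith _ _ (fun _ => ENNReal.toReal_nonneg) hLpos
        (show (0 : ℝ) < 1 / (2 * 10 ^ 10) by norm_num) (fun j => hlow _ (hu _)) hsum
  · -- relatively open bases
    have hη : 0 < L * (1 / (2 * 10 ^ 10)) / (N + 1) := by positivity
    have hex := fun i : Fin N => exists_open_base (hperp i).1 (hperp i).2.1 (hperp i).2.2 (hu i) hη
    choose B hB hBO hTB hBarea using hex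
    have hsum : ∑ i, (μHE[2] (B i)).toReal ≤ L * (1 / 2 - 1 / (2 * 10 ^ 10)) := by
      refine le_trans (Finset.sum_le_sum fun i _ => hBarea i) ?_
      rw [Finset.sum_add_distrib]
      simp only [Finset.sum_const, Finset.card_univ, Fintype.card_fin, nsmul_eq_mul]
      have h1 : (N : ℝ) * (L * (1 / (2 * 10 ^ 10)) / (N + 1)) ≤ L * (1 / (2 * 10 ^ 10)) := by
        rw [mul_div_assoc', div_le_iff₀ (by positivity)]
        have : 0 ≤ L * (1 / (2 * 10 ^ 10)) := by positivity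
        nlinarith
      have h2 : L * (1 / 2 - 1 / (2 * 10 ^ 10)) =
          L * (1 / 2 - 1 / 10 ^ 10) + L * (1 / (2 * 10 ^ 10)) := by ring
      rw [h2]
      linarith
    refine ⟨N, u, B, hu, fun i => ⟨hB i, hBO i⟩, ?_,
      ⟨L * (1 / (2 * 10 ^ 10)), by positivity, fun v hv => ?_⟩, ?_⟩
    · intro x hx
      obtain ⟨_, ⟨i, rfl⟩, hxi⟩ := hcov hx
      obtain ⟨b, hb, t, rfl⟩ := hxi
      exact mem_iUnion.2 ⟨i, b, hTB i hb, t, rfl⟩
    · have := hlow v hv
      have h3 := hsum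
      linarith
    · exact final_arith _ _ (fun _ => ENNReal.toReal_nonneg) hLpos
        (show (0 : ℝ) < 1 / (2 * 10 ^ 10) by norm_num) (fun j => hlow _ (hu _)) hsum

end Crest.Agent.S0327
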