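import Crest.Statements.S0328
import Crest.Agent.Lib.Sweep.Final

set_option autoImplicit false
open MeasureTheory
open scoped ENNReal
open Crest Crest.GeometryTopology Crest.GeometryTopology.Convex

namespace Crest.Agent.S0328

/-- Unit e; a, b, p₀ ∈ e^⊥, a, b independent; α < β; L > 0; R ≥ 0, λ both continuous on [α, β]; w(t) ∈ e^⊥, w′ = λ(t)(a + tb). S = {p₀ + ρ(a + t b) + s(e + w t) : α ≤ t ≤ β, 0 ≤ ρ ≤ R t, ‖s‖ ≤ L}; A = κ ∫_α^β R²/(2√(1 + ‖w‖²)), κ = area spanned by a, b. For η > 0 a δ > 0 makes each partition t₀ < … < t_N of [α, β] of mesh ≤ δ, tags cᵢ, admit N cylinders (axes e + w(cᵢ), nondegenerate triangle bases) covering S, total area within η of A; same for S's pieces tᵢ ≤ t ≤ tᵢ₊₁ projected along these axes. -/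
theorem result
    (e a b p₀ : EuclideanSpace ℝ (Fin 3)) (he : ‖e‖ = 1)
    (ha : inner ℝ a e = 0) (hb : inner ℝ b e = 0) (hp₀ : inner ℝ p₀ e = 0)
    (hab : LinearIndependent ℝ ![a, b]) (L : ℝ) (hL : 0 < L) (α β : ℝ) (hαβ : α < β)
    (R : ℝ → ℝ) (hR : ContinuousOn R (Set.Icc α β)) (hR0 : ∀ t ∈ Set.Icc α β, 0 ≤ R t)
    (w : ℝ → EuclideanSpace ℝ (Fin 3)) (hw : ∀ t ∈ Set.Icc α β, inner ℝ (w t) e = 0)
    (lam : ℝ → ℝ) (hlam : ContinuousOn lam (Set.Icc α β))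
    (hw' : ∀ t ∈ Set.Icc α β, HasDerivWithinAt w (lam t • (a + t • b)) (Set.Icc α β) t)
    (η : ℝ) (hη : 0 < η) :
    ∃ δ : ℝ, 0 < δ ∧ ∀ (N : ℕ) (t : Fin (N + 1) → ℝ) (c : Fin N → ℝ),
      StrictMono t → t 0 = α → t (Fin.last N) = β →
      (∀ i : Fin N, t i.succ - t i.castSucc ≤ δ) →
      (∀ i : Fin N, t i.castSucc ≤ c i ∧ c i ≤ t i.succ) →
      (∃ (p q r : Fin N → EuclideanSpace ℝ (Fin 3)),
        (∀ i, inner ℝ (p i) (e + w (c i)) = 0 ∧ inner ℝ (q i) (e + w (c i)) = 0 ∧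
          inner ℝ (r i) (e + w (c i)) = 0) ∧
        (∀ i, AffineIndependent ℝ ![p i, q i, r i]) ∧
        {x : EuclideanSpace ℝ (Fin 3) | ∃ τ ∈ Set.Icc α β, ∃ ρ ∈ Set.Icc 0 (R τ), ∃ s : ℝ, abs s ≤ L ∧
            x = p₀ + ρ • (a + τ • b) + s • (e + w τ)} ⊆
          ⋃ i, {x : EuclideanSpace ℝ (Fin 3) | ∃ y ∈ convexHull ℝ {p i, q i, r i}, ∃ σ : ℝ,
            x = y + σ • (e + w (c i))} ∧
        abs ((∑ i, (μHE[2] (convexHull ℝ ({p i, q i, r i} : Set (EuclideanSpace ℝ (Fin 3))))).toReal) -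
            Real.sqrt (‖a‖ ^ 2 * ‖b‖ ^ 2 - inner ℝ a b ^ 2) *
              ∫ τ in α..β, R τ ^ 2 / (2 * Real.sqrt (1 + ‖w τ‖ ^ 2))) ≤ η) ∧
      abs ((∑ i : Fin N, (μHE[2] ((fun y => y - (inner ℝ y (e + w (c i)) / ‖e + w (c i)‖ ^ 2) • (e + w (c i))) ''
            {x : EuclideanSpace ℝ (Fin 3) | ∃ τ ∈ Set.Icc (t i.castSucc) (t i.succ), ∃ ρ ∈ Set.Icc 0 (R τ),
              ∃ s : ℝ, abs s ≤ L ∧ x = p₀ + ρ • (a + τ • b) + s • (e + w τ)})).toReal) -
          Real.sqrt (‖a‖ ^ 2 * ‖b‖ ^ 2 - inner ℝ a b ^ 2) *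
            ∫ τ in α..β, R τ ^ 2 / (2 * Real.sqrt (1 + ‖w τ‖ ^ 2))) ≤ η := by
  classical
  have hE3 := @Crest.Agent.Lib.Sweep.interval_data e a b p₀ he ha hb hab L hL α β R hR0 w hw lam hlam hw'
  -- constants
  obtain ⟨C₁, hC₁⟩ := isCompact_Icc.exists_bound_of_continuousOn hR
  set Rb := max C₁ 0 with hRbdef
  have hRb0 : 0 ≤ Rb := le_max_right _ _
  have hRb : ∀ x ∈ Set.Icc α β, R x ≤ Rb := fun x hx =>
    le_trans (le_abs_self _) (le_trans (hC₁ x hx) (le_max_left _ _))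
  obtain ⟨C₂, hC₂⟩ := isCompact_Icc.exists_bound_of_continuousOn hlam
  set M := max C₂ 1 with hMdef
  have hM0 : 0 < M := lt_of_lt_of_le one_pos (le_max_right _ _)
  have hM : ∀ x ∈ Set.Icc α β, |lam x| ≤ M := fun x hx => le_trans (hC₂ x hx) (le_max_left _ _)
  have hgab := Crest.Agent.Lib.Sweep.gram_pos_of_li hab
  set κ := Real.sqrt (Crest.Agent.Lib.Tet.gram a b) with hκdef
  have hκ : 0 < κ := Real.sqrt_pos.2 hgab
  have hβα : 0 < β - α := by linarith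
  set C₀ := 3 + 2 * Rb + (Rb + 2) ^ 2 with hC₀def
  have hC₀ : 0 < C₀ := by positivity
  set ζ := min 1 (η / (κ * (β - α) * C₀)) with hζdef
  have hζ : 0 < ζ := lt_min one_pos (by positivity)
  have hζ1 : ζ ≤ 1 := min_le_left _ _
  have hζη : κ * (β - α) * (ζ * C₀) ≤ η := by
    have h1 : ζ ≤ η / (κ * (β - α) * C₀) := min_le_right _ _
    rw [le_div_iff₀ (by positivity)] at h1
    linarith
  -- continuity
  have hwc : ContinuousOn w (Set.Icc α β) := fun x hx => (hw' x hx).continuousWithinAt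
  have hgc : ContinuousOn (fun τ => R τ ^ 2 / (2 * Real.sqrt (1 + ‖w τ‖ ^ 2))) (Set.Icc α β) := by
    refine (hR.pow 2).div ?_ ?_
    · exact continuousOn_const.mul (Real.continuous_sqrt.comp_continuousOn
        (continuousOn_const.add (hwc.norm.pow 2)))
    · intro x _
      have : 0 < Real.sqrt (1 + ‖w x‖ ^ 2) := Real.sqrt_pos.2 (by positivity)
      positivity
  have hRu := isCompact_Icc.uniformContinuousOn_of_continuous hR
  have hgu := isCompact_Icc.uniformContinuousOn_of_continuous hgc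
  rw [Metric.uniformContinuousOn_iff] at hRu hgu
  obtain ⟨δ₁, hδ₁, h1⟩ := hRu ζ hζ
  obtain ⟨δ₂, hδ₂, h2⟩ := hgu ζ hζ
  have hcst : 0 < (2 + 3 / ζ) * (L * M) := by positivity
  refine ⟨min (δ₁ / 2) (min (δ₂ / 2) (ζ / ((2 + 3 / ζ) * (L * M)))), by positivity, ?_⟩
  intro N t c hmono h0 hlast hmesh htags
  have hmesh1 : ∀ i : Fin N, t i.succ - t i.castSucc ≤ δ₁ / 2 := fun i =>
    (hmesh i).trans (min_le_left _ _)
  have hmesh2 : ∀ i : Fin N, t i.succ - t i.castSucc ≤ δ₂ / 2 := fun i =>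
    (hmesh i).trans ((min_le_right _ _).trans (min_le_left _ _))
  have hmesh3 : ∀ i : Fin N, t i.succ - t i.castSucc ≤ ζ / ((2 + 3 / ζ) * (L * M)) := fun i =>
    (hmesh i).trans ((min_le_right _ _).trans (min_le_right _ _))
  have hl : ∀ j : Fin (N + 1), α ≤ t j := fun j => by
    rw [← h0]; exact hmono.monotone (Fin.zero_le _)
  have hr : ∀ j : Fin (N + 1), t j ≤ β := fun j => by
    rw [← hlast]; exact hmono.monotone (Fin.le_last _)
  have hlr : ∀ i : Fin N, t i.castSucc < t i.succ := fun i => hmono (Fin.castSucc_lt_succ)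
  have hdata := fun i : Fin N => hE3 hM0 hM hRb hgc (l := t i.castSucc) (r := t i.succ) (c := c i)
    (ζ := ζ) (hl _) (htags i).1 (htags i).2 (hr _) (hlr i) hζ hζ1
    (by
      intro τ hτ
      have hτc : dist τ (c i) < δ₁ := by
        rw [Real.dist_eq, abs_lt]
        have := hmesh1 i
        constructor <;> linarith [hτ.1, hτ.2, (htags i).1, (htags i).2]
      have := h1 τ ⟨(hl _).trans hτ.1, hτ.2.trans (hr _)⟩ (c i)
        ⟨(hl _).trans (htags i).1, (htags i).2.trans (hr _)⟩ hτc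
      rw [Real.dist_eq] at this
      exact this.le)
    (by
      intro τ hτ
      have hτc : dist τ (c i) < δ₂ := by
        rw [Real.dist_eq, abs_lt]
        have := hmesh2 i
        constructor <;> linarith [hτ.1, hτ.2, (htags i).1, (htags i).2]
      have := h2 τ ⟨(hl _).trans hτ.1, hτ.2.trans (hr _)⟩ (c i)
        ⟨(hl _).trans (htags i).1, (htags i).2.trans (hr _)⟩ hτc
      rw [Real.dist_eq] at this
      exact this.le)
    (by
      have := hmesh3 i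
      rw [le_div_iff₀ hcst] at this
      nlinarith)
  choose p q r' hp hq hr' hai hcov harea hproj using hdata
  have hint : ∀ i : Fin N, IntervalIntegrable (fun τ => R τ ^ 2 / (2 * Real.sqrt (1 + ‖w τ‖ ^ 2)))
      volume (t i.castSucc) (t i.succ) := fun i => by
    refine ContinuousOn.intervalIntegrable (hgc.mono ?_)
    rw [Set.uIcc_of_le (hlr i).le]
    exact Set.Icc_subset_Icc (hl _) (hr _)
  have hηκ : κ * (β - α) * (ζ * C₀) ≤ η := hζη
  refine ⟨⟨p, q, r', fun i => ⟨hp i, hq i, hr' i⟩, hai, ?_, ?_⟩, ?_⟩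
  · rintro x ⟨τ, hτ, ρ, hρ, s, hs, rfl⟩
    have hne : t 0 < t (Fin.last N) := by rw [h0, hlast]; exact hαβ
    obtain ⟨i, hi1, hi2⟩ := Crest.Agent.Lib.Sweep.exists_interval t (τ := τ) (by rw [h0]; exact hτ.1)
      (by rw [hlast]; exact hτ.2) hne
    refine Set.mem_iUnion.2 ⟨i, ?_⟩
    refine ⟨_, hcov i τ ⟨hi1, hi2⟩ ρ hρ s hs, _,
      Crest.Agent.Lib.Sweep.eq_prj_add (e + w (c i)) _⟩
  · exact Crest.Agent.Lib.Sweep.total_bound t _ hint _ h0 hlast harea hηκ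
  · exact Crest.Agent.Lib.Sweep.total_bound t _ hint _ h0 hlast hproj hηκ

end Crest.Agent.S0328
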