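import Crest.Statements.S0329
import Crest.Agent.Lib.CylV.Cyl3

set_option autoImplicit false
open MeasureTheory
open scoped ENNReal
open Crest Crest.GeometryTopology Crest.GeometryTopology.Convex

namespace Crest.Agent.S0329

/-- Let h, M > 0, D ⊂ ℝ² be compact with Lebesgue-null boundary, and V : ℝ² → ℝ² be C¹ on an open set containing D with tr DV(p) = 0 and −1/M² < det DV(p) < 0 for p ∈ D. For every ε > 0 the set of points (x, p₁ + x V₁(p), h (p₂ + x V₂(p))) ∈ ℝ³ with p ∈ D, −M ≤ x ≤ M is covered by finitely many cylinders Bᵢ + ℝ uᵢ, ‖uᵢ‖ = 1, with bases Bᵢ bounded relatively open subsets of the planes uᵢ^⊥ and ∑ᵢ area(Bᵢ) ≤ h ∫_D (1 + V₁² + h² V₂²)^(−1/2) + ε (areas: normalised 2-dimensional Hausdorff measure). -/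
theorem result
    (h M : ℝ) (hh : 0 < h) (hM : 0 < M) (D : Set (EuclideanSpace ℝ (Fin 2))) (hD : IsCompact D)
    (hbd : volume (frontier D) = 0)
    (V : EuclideanSpace ℝ (Fin 2) → EuclideanSpace ℝ (Fin 2)) (U : Set (EuclideanSpace ℝ (Fin 2)))
    (hU : IsOpen U) (hDU : D ⊆ U) (hV : ContDiffOn ℝ 1 V U)
    (htr : ∀ p ∈ D, LinearMap.trace ℝ _ (fderiv ℝ V p).toLinearMap = 0)
    (hdet : ∀ p ∈ D, -(M ^ 2)⁻¹ < LinearMap.det (fderiv ℝ V p).toLinearMap ∧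
      LinearMap.det (fderiv ℝ V p).toLinearMap < 0)
    (ε : ℝ) (hε : 0 < ε) :
    ∃ (k : ℕ) (u : Fin k → EuclideanSpace ℝ (Fin 3)) (B : Fin k → Set (EuclideanSpace ℝ (Fin 3))),
      (∀ i, ‖u i‖ = 1) ∧
      (∀ i, Bornology.IsBounded (B i) ∧ ∃ O : Set (EuclideanSpace ℝ (Fin 3)), IsOpen O ∧
        B i = O ∩ {x | inner ℝ x (u i) = 0}) ∧
      {z : EuclideanSpace ℝ (Fin 3) | ∃ p ∈ D, ∃ x : ℝ, abs x ≤ M ∧
          z = !₂[x, p 0 + x * V p 0, h * (p 1 + x * V p 1)]} ⊆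
        ⋃ i, {z : EuclideanSpace ℝ (Fin 3) | ∃ y ∈ B i, ∃ τ : ℝ, z = y + τ • u i} ∧
      ∑ i, (μHE[2] (B i)).toReal ≤
        h * (∫ p in D, 1 / Real.sqrt (1 + (V p 0) ^ 2 + h ^ 2 * (V p 1) ^ 2)) + ε := by
  classical
  set I := ∫ p in D, 1 / Real.sqrt (1 + (V p 0) ^ 2 + h ^ 2 * (V p 1) ^ 2) with hI
  have hI0 : 0 ≤ I := MeasureTheory.integral_nonneg fun p => by positivity
  have hI1 : 0 < I + 1 := by positivity
  set ε' := min 1 (ε / (2 * h)) with hε'def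
  have hε' : 0 < ε' := lt_min one_pos (by positivity)
  have hε'1 : ε' ≤ 1 := min_le_left _ _
  have hε'2 : h * ε' ≤ ε / 2 := by
    have h1 : ε' ≤ ε / (2 * h) := min_le_right _ _
    rw [le_div_iff₀ (by positivity)] at h1
    nlinarith
  set θ := min 1 (ε / (16 * h * (I + 1))) with hθdef
  have hθ : 0 < θ := lt_min one_pos (by positivity)
  have hθ1 : θ ≤ 1 := min_le_left _ _
  have hθ2 : θ * (16 * h * (I + 1)) ≤ ε := by
    have h1 : θ ≤ ε / (16 * h * (I + 1)) := min_le_right _ _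
    rwa [le_div_iff₀ (by positivity)] at h1
  obtain ⟨ι, F, c, a, b, g, hframe, hcov, hsum⟩ :=
    Crest.Agent.Lib.CylV.main_cover (h := h) (L := M) hD hU hDU hV hM htr
      (fun p hp => ⟨(hdet p hp).1, (hdet p hp).2.le⟩) hε'
  have hsum' : ∑ t ∈ F, ‖a t‖ ^ 2 / Real.sqrt (1 + (g t 0) ^ 2 + h ^ 2 * (g t 1) ^ 2) ≤ I + ε' := hsum
  choose u B hu hB hcyl harea using fun t =>
    Crest.Agent.Lib.CylV.single_cylinder hh hθ (c t) (a t) (b t) (g t) (hframe t).1 (hframe t).2.1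
      (hframe t).2.2
  let e := F.equivFin
  refine ⟨F.card, fun i => u (e.symm i), fun i => B (e.symm i), fun i => hu _, fun i => hB _, ?_, ?_⟩
  · rintro z ⟨p, hp, x, hx, rfl⟩
    obtain ⟨t, ht, X, hX, Y, hY, hxy⟩ := hcov p hp x hx
    obtain ⟨y, hy, τ, hyτ⟩ := hcyl t x X Y hX hY
    refine Set.mem_iUnion.2 ⟨e ⟨t, ht⟩, ?_⟩
    simp only [Equiv.symm_apply_apply]
    refine ⟨y, hy, τ, ?_⟩
    rw [← hyτ, ← hxy]
    simp
  · have hs : ∑ i, (μHE[2] (B (e.symm i))).toReal = ∑ t ∈ F, (μHE[2] (B t)).toReal := by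
      rw [← Finset.sum_coe_sort F]
      exact Equiv.sum_comp e.symm (fun t : F => (μHE[2] (B t)).toReal)
    rw [hs]
    have h1 : ∑ t ∈ F, (μHE[2] (B t)).toReal ≤ ∑ t ∈ F, (1 + 2 * θ) ^ 2 *
        (h * (‖a t‖ ^ 2 / Real.sqrt (1 + (g t 0) ^ 2 + h ^ 2 * (g t 1) ^ 2))) :=
      Finset.sum_le_sum fun t _ => harea t
    have h2 : ∑ t ∈ F, (1 + 2 * θ) ^ 2 *
        (h * (‖a t‖ ^ 2 / Real.sqrt (1 + (g t 0) ^ 2 + h ^ 2 * (g t 1) ^ 2))) =
        (1 + 2 * θ) ^ 2 * (h * ∑ t ∈ F, ‖a t‖ ^ 2 / Real.sqrt (1 + (g t 0) ^ 2 + h ^ 2 * (g t 1) ^ 2)) := by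
      rw [Finset.mul_sum, Finset.mul_sum]
    have h3 : (1 + 2 * θ) ^ 2 * (h * ∑ t ∈ F, ‖a t‖ ^ 2 / Real.sqrt (1 + (g t 0) ^ 2 + h ^ 2 * (g t 1) ^ 2)) ≤
        (1 + 2 * θ) ^ 2 * (h * (I + ε')) := by
      gcongr
    have h4 : (1 + 2 * θ) ^ 2 * (h * (I + ε')) ≤ h * I + ε := by
      have a1 : (1 + 2 * θ) ^ 2 ≤ 1 + 8 * θ := by nlinarith
      have a2 : (1 + 2 * θ) ^ 2 * (h * (I + ε')) ≤ (1 + 8 * θ) * (h * (I + ε')) :=
        mul_le_mul_of_nonneg_right a1 (by positivity)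
      have a3 : θ * h * (I + ε') ≤ θ * h * (I + 1) := by
        apply mul_le_mul_of_nonneg_left _ (by positivity)
        linarith
      nlinarith
    linarith

end Crest.Agent.S0329
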