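import Crest.Statements.S0423
import Crest.Agent.Lib.S0423Main

set_option autoImplicit false
open Crest Crest.AlgGeometry

namespace Crest.Agent.S0423

/-- For independent mean-one exponential random variables `X_1, …, X_N` (written as an integral over the positive orthant against the density `exp (-(x_1 + ⋯ + x_N))`), real coefficients `a_1, …, a_N` summing to zero, and the weight `g = truncExpWeight`, the quantity `(e^{4/3} / (4/3)) · E[g(4/3 + a_1 X_1 + ⋯ + a_N X_N)]` has supremum over all `N ≥ 1` and all such `a` exactly `(3/4) e^{4/3} − e/3`: it never exceeds this value, and comes within any `ε > 0` of it for some `N` and `a`. -/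
theorem result :
    (∀ (N : ℕ) (a : Fin N → ℝ), 1 ≤ N → ∑ i, a i = 0 →
      Real.exp (4 / 3) / (4 / 3) *
          ∫ x in Set.pi Set.univ (fun _ : Fin N => Set.Ioi (0 : ℝ)),
            Crest.AlgGeometry.truncExpWeight (4 / 3 + ∑ i, a i * x i) * Real.exp (-∑ i, x i)
        ≤ 3 / 4 * Real.exp (4 / 3) - Real.exp 1 / 3) ∧
    (∀ ε : ℝ, 0 < ε → ∃ (N : ℕ) (a : Fin N → ℝ), 1 ≤ N ∧ ∑ i, a i = 0 ∧
      3 / 4 * Real.exp (4 / 3) - Real.exp 1 / 3 - ε <
        Real.exp (4 / 3) / (4 / 3) *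
          ∫ x in Set.pi Set.univ (fun _ : Fin N => Set.Ioi (0 : ℝ)),
            Crest.AlgGeometry.truncExpWeight (4 / 3 + ∑ i, a i * x i) * Real.exp (-∑ i, x i)) := by
  constructor
  · intro N a _ hsum
    have h := Crest.Agent.Lib.S0423.main_ub a hsum
    have h' : (∫ x in Set.pi Set.univ (fun _ : Fin N => Set.Ioi (0 : ℝ)),
        Crest.AlgGeometry.truncExpWeight (4 / 3 + ∑ i, a i * x i) * Real.exp (-∑ i, x i)) ≤
        1 - (4 / 9) * Real.exp (-(1 / 3)) := h
    have hp : 0 ≤ Real.exp (4 / 3) / (4 / 3) := by positivity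
    have h1 := mul_le_mul_of_nonneg_left h' hp
    refine h1.trans (le_of_eq ?_)
    have h2 : Real.exp (4 / 3) * Real.exp (-(1 / 3)) = Real.exp 1 := by
      rw [← Real.exp_add]
      norm_num
    have h3 : Real.exp (4 / 3) / (4 / 3) * (1 - (4 / 9) * Real.exp (-(1 / 3))) =
        3 / 4 * Real.exp (4 / 3) - (Real.exp (4 / 3) * Real.exp (-(1 / 3))) / 3 := by
      ring
    rw [h3, h2]
  · intro ε hε
    obtain ⟨n, hn, hlt⟩ := Crest.Agent.Lib.S0423.exists_index hε
    refine ⟨n + 1, Crest.Agent.Lib.S0423.aSeq n, by omega, Crest.Agent.Lib.S0423.aSeq_sum hn, ?_⟩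
    have h := Crest.Agent.Lib.S0423.aSeq_lb hn
    have h' : 1 - (4 / 9) * Real.exp (2 / 3) * (1 / (1 + 1 / (n : ℝ))) ^ n ≤
        (∫ x in Set.pi Set.univ (fun _ : Fin (n + 1) => Set.Ioi (0 : ℝ)),
        Crest.AlgGeometry.truncExpWeight (4 / 3 + ∑ i, Crest.Agent.Lib.S0423.aSeq n i * x i) * Real.exp (-∑ i, x i)) := h
    have hp : 0 ≤ Real.exp (4 / 3) / (4 / 3) := by positivity
    have h1 := mul_le_mul_of_nonneg_left h' hp
    refine lt_of_lt_of_le ?_ h1
    have h2 : Real.exp (4 / 3) * Real.exp (2 / 3) = Real.exp 2 := by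
      rw [← Real.exp_add]
      norm_num
    have h3 : Real.exp (4 / 3) / (4 / 3) * (1 - (4 / 9) * Real.exp (2 / 3) * (1 / (1 + 1 / (n : ℝ))) ^ n) =
        3 / 4 * Real.exp (4 / 3) - (Real.exp (4 / 3) * Real.exp (2 / 3)) * (1 / (1 + 1 / (n : ℝ))) ^ n / 3 := by
      ring
    rw [h3, h2]
    linarith

end Crest.Agent.S0423
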